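import Vale.Agent.P290D.Defs

/-! Invertible matrix functions on convex sets. -/

open Set Filter Metric
open scoped Manifold ContDiff Topology

noncomputable section

namespace Vale.Agent.P290

variable {E V T W : Type} [NormedAddCommGroup E] [NormedSpace ℂ E] [FiniteDimensional ℂ E]
  [NormedAddCommGroup V] [NormedSpace ℂ V] [FiniteDimensional ℂ V] [NormedAddCommGroup T]
  [NormedSpace ℂ T] [FiniteDimensional ℂ T] [NormedAddCommGroup W] [NormedSpace ℂ W]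
  [FiniteDimensional ℂ W]

namespace Car

variable {R : Type} [NormedRing R] [NormedAlgebra ℂ R] [CompleteSpace R]

theorem exists_log : ∃ (lg : R → R) (U : Set R), U ∈ 𝓝 (1 : R) ∧
    ∀ x ∈ U, AnalyticAt ℂ lg x ∧ NormedSpace.exp (lg x) = x := by
  have hf : HasStrictFDerivAt (NormedSpace.exp : R → R)
      ((ContinuousLinearEquiv.refl ℂ R : R ≃L[ℂ] R) : R →L[ℂ] R) 0 := hasStrictFDerivAt_exp_zero
  have h1 := (hf.toOpenPartialHomeomorph _).analyticAt_symm' hf.mem_toOpenPartialHomeomorph_source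
    (NormedSpace.exp_analytic (𝕂 := ℂ) 0) hf.hasFDerivAt.fderiv
  have h2 := hf.eventually_right_inverse
  rw [hf.toOpenPartialHomeomorph_coe, NormedSpace.exp_zero] at h1
  rw [NormedSpace.exp_zero] at h2
  exact ⟨_, _, h1.eventually_analyticAt.and h2, fun x hx => hx⟩

theorem an_inv {x : R} (h : IsUnit x) : AnalyticAt ℂ Ring.inverse x := by
  obtain ⟨u, rfl⟩ := h
  exact analyticAt_inverse u

/-- The factorisation property. -/
def Fac (K : Set E) (A : E → R) : Prop :=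
  ∃ (n : ℕ) (Φ : (Fin n → R) → R) (Λ : E → Fin n → R), AnalyticOnNhd ℂ Φ univ ∧
    (∀ N, IsUnit (Φ N)) ∧ AnalyticOnNhd ℂ Λ K ∧ ∀ z ∈ K, A z = Φ (Λ z)

omit [FiniteDimensional ℂ E] in
theorem step {K : Set E} {A B : E → R} {lg : R → R} (hA : AnalyticOnNhd ℂ A K)
    (hB : AnalyticOnNhd ℂ B K) (hu : ∀ z ∈ K, IsUnit (A z))
    (h : ∀ z ∈ K, AnalyticAt ℂ lg (B z * Ring.inverse (A z)) ∧
      NormedSpace.exp (lg (B z * Ring.inverse (A z))) = B z * Ring.inverse (A z))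
    (hF : Fac K A) : Fac K B := by
  obtain ⟨n, Φ, Λ, h1, h2, h3, h4⟩ := hF
  have hp : ∀ (i : Fin (n + 1)) (N : Fin (n + 1) → R),
      AnalyticAt ℂ (fun M : Fin (n + 1) → R => M i) N := fun i N =>
    (ContinuousLinearMap.proj (R := ℂ) (φ := fun _ : Fin (n + 1) => R) i).analyticAt N
  refine ⟨n + 1, fun N => NormedSpace.exp (N 0) * Φ fun i => N i.succ,
    fun z => Fin.cons (lg (B z * Ring.inverse (A z))) (Λ z), fun N _ => ?_, fun N => ?_,
    fun z hz => ?_, fun z hz => ?_⟩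
  · exact ((NormedSpace.exp_analytic (𝕂 := ℂ) _).comp' (hp 0 N)).mul
      ((h1 _ (mem_univ _)).comp' (analyticAt_pi_iff.2 fun i => hp i.succ N))
  · exact (NormedSpace.isUnit_exp_of_mem_ball (𝕂 := ℂ)
      ((NormedSpace.expSeries_radius_eq_top ℂ R).symm ▸ edist_lt_top _ _)).mul (h2 _)
  · refine analyticAt_pi_iff.2 fun i => Fin.cases ?_ (fun j => ?_) i
    · exact (h z hz).1.comp' (f := fun z => B z * Ring.inverse (A z))
        ((hB z hz).mul ((an_inv (hu z hz)).comp' (hA z hz)))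
    · exact analyticAt_pi_iff.1 (h3 z hz) j
  · simp only [Fin.cons_zero, Fin.cons_succ]
    rw [(h z hz).2, ← h4 z hz, Ring.inverse_mul_cancel_right _ _ (hu z hz)]

omit [FiniteDimensional ℂ E] in
theorem fac {K : Set E} (hK : IsCompact K) (hc : Convex ℝ K) {z₀ : E} (h0 : z₀ ∈ K) {A : E → R}
    (hA : AnalyticOnNhd ℂ A K) (hu : ∀ z ∈ K, IsUnit (A z)) : Fac K A := by
  obtain ⟨lg, U, hU, hl⟩ := exists_log (R := R)
  obtain ⟨B, hB⟩ : ∃ B : ℝ → E → R, B = fun (τ : ℝ) z => A (z₀ + (τ : ℂ) • (z - z₀)) := ⟨_, rfl⟩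
  have hm : ∀ τ ∈ Icc (0 : ℝ) 1, ∀ z ∈ K, z₀ + (τ : ℂ) • (z - z₀) ∈ K := fun τ hτ z hz => by
    rw [Complex.coe_smul]
    exact hc.add_smul_sub_mem h0 hz hτ
  have ha : ∀ τ ∈ Icc (0 : ℝ) 1, AnalyticOnNhd ℂ (B τ) K := fun τ hτ z hz => by
    rw [hB]
    exact (hA _ (hm τ hτ z hz)).comp' (f := fun z => z₀ + (τ : ℂ) • (z - z₀)) (by fun_prop)
  have hb : ∀ τ ∈ Icc (0 : ℝ) 1, ∀ z ∈ K, IsUnit (B τ z) := fun τ hτ z hz => by
    rw [hB]
    exact hu _ (hm τ hτ z hz)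
  have key : Fac K (B 0) → Fac K (B 1) := by
    refine isPreconnected_Icc.induction₂' (fun σ τ => Fac K (B σ) → Fac K (B τ)) (fun τ hτ => ?_)
      (fun _ _ _ _ _ _ h h' h'' => h' (h h'')) (left_mem_Icc.2 zero_le_one)
      (right_mem_Icc.2 zero_le_one)
    have h1 : ∀ᶠ σ in 𝓝 τ, ∀ z ∈ K, B σ z * Ring.inverse (B τ z) ∈ U ∧
        B τ z * Ring.inverse (B σ z) ∈ U := by
      refine hK.eventually_forall_of_forall_eventually fun z hz => ?_
      have c1 : ContinuousAt (fun w : ℝ × E => B w.1 w.2) (τ, z) := by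
        rw [hB]
        exact ContinuousAt.comp' (f := fun w : ℝ × E => z₀ + (w.1 : ℂ) • (w.2 - z₀))
          (hA _ (hm τ hτ z hz)).continuousAt (by fun_prop)
      have c2 : ContinuousAt (fun w : ℝ × E => B τ w.2) (τ, z) :=
        ContinuousAt.comp' (f := Prod.snd) (ha τ hτ z hz).continuousAt continuousAt_snd
      have c3 := (an_inv (hb τ hτ z hz)).continuousAt
      have e : U ∈ 𝓝 (B τ z * Ring.inverse (B τ z)) := by
        rwa [Ring.mul_inverse_cancel _ (hb τ hτ z hz)]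
      exact ((c1.mul (ContinuousAt.comp' (f := fun w : ℝ × E => B τ w.2) c3 c2)).eventually_mem
        e).and ((c2.mul (ContinuousAt.comp' (f := fun w : ℝ × E => B w.1 w.2) c3 c1)).eventually_mem e)
    filter_upwards [nhdsWithin_le_nhds h1, self_mem_nhdsWithin] with σ h2 hσ
    exact ⟨step (ha τ hτ) (ha σ hσ) (hb τ hτ) fun z hz => hl _ (h2 z hz).1,
      step (ha σ hσ) (ha τ hτ) (hb σ hσ) fun z hz => hl _ (h2 z hz).2⟩
  have e1 : B 1 = A := by
    rw [hB]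
    simp
  rw [← e1]
  refine key ⟨0, fun _ => A z₀, fun _ => 0, analyticOnNhd_const, fun _ => hu _ h0,
    analyticOnNhd_const, fun z _ => ?_⟩
  rw [hB]
  simp

end Car

theorem cartan {R : Type} [NormedRing R] [NormedAlgebra ℂ R] [CompleteSpace R] {K : Set E}
    (hK : IsCompact K) (hc : Convex ℝ K) {A : E → R} (hA : AnalyticOnNhd ℂ A K)
    (hu : ∀ z ∈ K, IsUnit (A z)) :
    ∃ (n : ℕ) (Φ : (Fin n → R) → R) (Λ : E → Fin n → R), AnalyticOnNhd ℂ Φ univ ∧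
      (∀ N, IsUnit (Φ N)) ∧ AnalyticOnNhd ℂ Λ K ∧ ∀ᶠ z in 𝓝ˢ K, A z = Φ (Λ z) := by
  rcases K.eq_empty_or_nonempty with rfl | ⟨z₀, h0⟩
  · exact ⟨0, fun _ => 1, fun _ => 0, analyticOnNhd_const, fun _ => isUnit_one,
      analyticOnNhd_const, by simp⟩
  have hU : {z | AnalyticAt ℂ A z ∧ IsUnit (A z)} ∈ 𝓝ˢ K := mem_nhdsSet_iff_forall.2 fun z hz =>
    (hA z hz).eventually_analyticAt.and
      ((hA z hz).continuousAt.eventually_mem (Units.isOpen.mem_nhds (hu z hz)))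
  obtain ⟨K', k1, k2, k3, k4⟩ := thicken hK hc hU
  have k5 : K ⊆ K' := subset_of_mem_nhdsSet k4
  obtain ⟨n, Φ, Λ, h1, h2, h3, h4⟩ := Car.fac k1 k2 (k5 h0) (fun z hz => (k3 hz).1)
    fun z hz => (k3 hz).2
  exact ⟨n, Φ, Λ, h1, h2, h3.mono k5, mem_of_superset k4 h4⟩

theorem cartan_runge {R : Type} [NormedRing R] [NormedAlgebra ℂ R] [CompleteSpace R] {K : Set E}
    (hK : IsCompact K) (hc : Convex ℝ K) {A : E → R} (hA : AnalyticOnNhd ℂ A K)
    (hu : ∀ z ∈ K, IsUnit (A z)) {η : ℝ} (hη : 0 < η) :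
    ∃ A' : E → R, AnalyticOnNhd ℂ A' univ ∧ (∀ z, IsUnit (A' z)) ∧
      ∀ z ∈ K, ‖Ring.inverse (A' z) * A z - 1‖ ≤ η := by
  obtain ⟨n, Φ, Λ, h1, h2, h3, h4⟩ := cartan hK hc hA hu
  have h5 : ∀ᶠ x in 𝓝 (0 : Fin n → R), ∀ z ∈ K,
      ‖Ring.inverse (Φ (Λ z + x)) * Φ (Λ z) - 1‖ ≤ η := by
    refine hK.eventually_forall_of_forall_eventually fun z hz => ?_
    have c0 : Continuous Φ := continuousOn_univ.1 h1.continuousOn
    have c1 : ContinuousAt (fun w : (Fin n → R) × E => Λ w.2) (0, z) :=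
      ContinuousAt.comp' (f := Prod.snd) (h3 z hz).continuousAt continuousAt_snd
    have c2 : ContinuousAt (fun w : (Fin n → R) × E =>
        ‖Ring.inverse (Φ (Λ w.2 + w.1)) * Φ (Λ w.2) - 1‖) (0, z) :=
      (((ContinuousAt.comp' (f := fun w : (Fin n → R) × E => Φ (Λ w.2 + w.1))
        (Car.an_inv (h2 _)).continuousAt (c0.continuousAt.comp' (c1.add continuousAt_fst))).mul
        (c0.continuousAt.comp' c1)).sub continuousAt_const).norm
    refine c2.eventually (eventually_le_nhds ?_)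
    simp only [add_zero]
    rwa [Ring.inverse_mul_cancel _ (h2 _), sub_self, norm_zero]
  obtain ⟨δ, hδ, h6⟩ := Metric.eventually_nhds_iff.1 h5
  obtain ⟨g, g1, g2⟩ := runge hK hc h3 hδ
  refine ⟨fun z => Φ (g z), fun z hz => (h1 _ (mem_univ _)).comp' (g1 z hz), fun z => h2 _,
    fun z hz => ?_⟩
  have h7 := h6 (y := g z - Λ z) (by rw [dist_zero_right]; exact g2 z hz) z hz
  rwa [add_sub_cancel, ← h4.self_of_nhdsSet z hz] at h7

end Vale.Agent.P290
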