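import Vale.Agent.P290D.Defs

/-! Extension of vector valued functions. -/

open Set Filter Metric
open scoped Manifold ContDiff Topology

noncomputable section

namespace Vale.Agent.P290

variable {E V T W : Type} [NormedAddCommGroup E] [NormedSpace ℂ E] [FiniteDimensional ℂ E]
  [NormedAddCommGroup V] [NormedSpace ℂ V] [FiniteDimensional ℂ V] [NormedAddCommGroup T]
  [NormedSpace ℂ T] [FiniteDimensional ℂ T] [NormedAddCommGroup W] [NormedSpace ℂ W]
  [FiniteDimensional ℂ W]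

variable {J : Type} [Fintype J] [DecidableEq J]

theorem ext_vec {ι : E →L[ℂ] (J → ℂ)} (hι : Function.Injective ι) (a b : J × Bool → ℝ)
    {c : E → V} (hc : AnalyticOnNhd ℂ c (ι ⁻¹' Box a b)) :
    ∃ c' : (J → ℂ) → V, AnalyticOnNhd ℂ c' (Box a b) ∧
      ∀ᶠ z in 𝓝ˢ (ι ⁻¹' Box a b), c' (ι z) = c z := by
  let e : V ≃L[ℂ] (Fin (Module.finrank ℂ V) → ℂ) := (Module.finBasis ℂ V).equivFunL
  choose c' h1 h2 using fun k => ext_all hι a b (fun z => e (c z) k) fun z hz =>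
    analyticAt_pi_iff.1 ((e.analyticAt _).comp (hc z hz)) k
  refine ⟨fun Z => e.symm fun k => c' k Z, fun Z hZ =>
    (e.symm.analyticAt _).comp (analyticAt_pi_iff.2 fun k => h1 k Z hZ), ?_⟩
  filter_upwards [eventually_all.2 h2] with z hz
  rw [funext hz]
  exact e.symm_apply_apply _

/-- Juxtaposition of coordinates. -/
def extvS (J K : Type) [Fintype J] [Fintype K] : (J → ℂ) × (K → ℂ) →L[ℂ] (J ⊕ K → ℂ) :=
  ContinuousLinearMap.pi fun k => Sum.elim
    (fun j => (ContinuousLinearMap.proj j).comp (ContinuousLinearMap.fst ℂ (J → ℂ) (K → ℂ)))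
    (fun j => (ContinuousLinearMap.proj j).comp (ContinuousLinearMap.snd ℂ (J → ℂ) (K → ℂ))) k

/-- Bounds that vanish on the new indices. -/
def extvB {J : Type} (K : Type) (a : J × Bool → ℝ) (k : (J ⊕ K) × Bool) : ℝ :=
  Sum.elim (fun j => a (j, k.2)) (fun _ => 0) k.1

omit [DecidableEq J] in
theorem extv_mem {K : Type} [Fintype K] (a b : J × Bool → ℝ) (p : (J → ℂ) × (K → ℂ)) :
    extvS J K p ∈ Box (extvB K a) (extvB K b) ↔ p.1 ∈ Box a b ∧ p.2 = 0 := by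
  constructor
  · intro h
    refine ⟨⟨fun k => h.1 (Sum.inl k.1, k.2), fun k => h.2 (Sum.inl k.1, k.2)⟩, funext fun k => ?_⟩
    exact Complex.ext (le_antisymm (h.2 (Sum.inr k, true)) (h.1 (Sum.inr k, true)))
      (le_antisymm (h.2 (Sum.inr k, false)) (h.1 (Sum.inr k, false)))
  · rintro ⟨h, h0⟩
    have h1 : ∀ k t, co (extvS J K p) (Sum.inr k, t) = 0 := fun k t => by
      have : extvS J K p (Sum.inr k) = 0 := congrFun h0 k
      cases t <;> simp [co, this]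
    refine ⟨?_, ?_⟩ <;> rintro ⟨k | k, t⟩
    · exact h.1 (k, t)
    · exact (h1 k t).ge
    · exact h.2 (k, t)
    · exact (h1 k t).le

theorem ext_par {ι : E →L[ℂ] (J → ℂ)} (hι : Function.Injective ι) (a b : J × Bool → ℝ)
    {c : E × W → V} (hc : AnalyticOnNhd ℂ c ((ι ⁻¹' Box a b) ×ˢ {0})) :
    ∃ c' : (J → ℂ) × W → V, AnalyticOnNhd ℂ c' (Box a b ×ˢ {0}) ∧
      ∀ᶠ w in 𝓝ˢ ((ι ⁻¹' Box a b) ×ˢ ({0} : Set W)), c' (ι w.1, w.2) = c w := by
  let e : W ≃L[ℂ] (Fin (Module.finrank ℂ W) → ℂ) := (Module.finBasis ℂ W).equivFunL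
  let κ : (J → ℂ) × W →L[ℂ] (J ⊕ Fin (Module.finrank ℂ W) → ℂ) :=
    (extvS J _).comp ((ContinuousLinearMap.id ℂ _).prodMap (e : W →L[ℂ] _))
  let ι' : E × W →L[ℂ] (J ⊕ Fin (Module.finrank ℂ W) → ℂ) :=
    κ.comp (ι.prodMap (ContinuousLinearMap.id ℂ W))
  have hκ : ∀ p, κ p ∈ Box (extvB _ a) (extvB _ b) ↔ p ∈ Box a b ×ˢ ({0} : Set W) := fun p =>
    (extv_mem a b (p.1, e p.2)).trans (and_congr_right' e.map_eq_zero_iff)
  have hs : ι' ⁻¹' Box (extvB _ a) (extvB _ b) = (ι ⁻¹' Box a b) ×ˢ ({0} : Set W) :=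
    Set.ext fun p => hκ (ι p.1, p.2)
  have hi : Function.Injective ι' := fun p q h =>
    Prod.ext (hι (funext fun j => congrFun h (Sum.inl j)))
      (e.injective (funext fun j => congrFun h (Sum.inr j)))
  obtain ⟨c', h1, h2⟩ := ext_vec hi (extvB _ a) (extvB _ b) (c := c) (hs ▸ hc)
  rw [hs] at h2
  exact ⟨fun p => c' (κ p), fun p hp => (h1 _ ((hκ p).2 hp)).comp (κ.analyticAt p), h2⟩

theorem extv_clamp {x α β δ : ℝ} (h : α ≤ β) (h1 : α - δ ≤ x) (h2 : x ≤ β + δ) (hδ : 0 ≤ δ) :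
    max α (min x β) ∈ Icc α β ∧ |x - max α (min x β)| ≤ δ := by
  refine ⟨⟨le_max_left _ _, max_le h (min_le_right _ _)⟩, abs_le.2 ⟨?_, ?_⟩⟩
  · have : max α (min x β) ≤ x + δ := max_le (by linarith) ((min_le_left _ _).trans (by linarith))
    linarith
  · have : x - δ ≤ max α (min x β) := le_max_of_le_right (le_min (by linarith) (by linarith))
    linarith

theorem thick_box {a b : J × Bool → ℝ} {U : Set (J → ℂ)} (hU : U ∈ 𝓝ˢ (Box a b)) (hab : a ≤ b) :
    ∃ δ > (0 : ℝ), Box (fun i => a i - δ) (fun i => b i + δ) ⊆ U := by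
  obtain ⟨O, hO, h1, h2⟩ := mem_nhdsSet_iff_exists.1 hU
  obtain ⟨δ, hδ, h3⟩ := (isCompact_box a b).exists_cthickening_subset_open hO h1
  refine ⟨δ / 2, by positivity, fun z hz => h2 (h3 ?_)⟩
  have h4 := fun k => extv_clamp (hab k) (hz.1 k) (hz.2 k) (by positivity)
  refine mem_cthickening_of_dist_le z (fun j => ⟨max (a (j, true)) (min (z j).re (b (j, true))),
    max (a (j, false)) (min (z j).im (b (j, false)))⟩) δ _ ⟨?_, ?_⟩ ?_
  · rintro ⟨j, _ | _⟩
    exacts [(h4 (j, false)).1.1, (h4 (j, true)).1.1]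
  · rintro ⟨j, _ | _⟩
    exacts [(h4 (j, false)).1.2, (h4 (j, true)).1.2]
  · refine (dist_pi_le_iff hδ.le).2 fun j => ?_
    rw [dist_eq_norm]
    refine (Complex.norm_le_abs_re_add_abs_im _).trans ?_
    exact (add_le_add (h4 (j, true)).2 (h4 (j, false)).2).trans_eq (add_halves δ)

end Vale.Agent.P290
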