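import Vale.Agent.P290D.NSb
import Vale.Agent.P290D.Car
import Vale.Agent.P290D.ExtV

/-! Extension of fibrewise automorphisms. -/

open Set Filter Metric
open scoped Manifold ContDiff Topology

noncomputable section

namespace Vale.Agent.P290

variable {E V T W : Type} [NormedAddCommGroup E] [NormedSpace ℂ E] [FiniteDimensional ℂ E]
  [NormedAddCommGroup V] [NormedSpace ℂ V] [FiniteDimensional ℂ V] [NormedAddCommGroup T]
  [NormedSpace ℂ T] [FiniteDimensional ℂ T] [NormedAddCommGroup W] [NormedSpace ℂ W]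
  [FiniteDimensional ℂ W]

variable {J : Type} [Fintype J] [DecidableEq J]

theorem aut_ext {ι : E →L[ℂ] (J → ℂ)} (hι : Function.Injective ι) (a b : J × Bool → ℝ)
    {γ : E × V × T → V} (hγ : Aut (ι ⁻¹' Box a b) γ) :
    ∃ Γ : (J → ℂ) × V × T → V, Aut (Box a b) Γ ∧
      ∀ᶠ w in 𝓝ˢ ((ι ⁻¹' Box a b) ×ˢ ({0} : Set (V × T))), Γ (ι w.1, w.2) = γ w := by
  have := FiniteDimensional.complete ℂ V
  obtain ⟨h1, h2, h3⟩ := hγ
  obtain ⟨n, Φ, Λ, hΦ, hu, hΛ, e₁⟩ := cartan (isCompact_pre hι a b) (convex_pre ι a b)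
    (A := dV γ) (fun z hz => an_dV (h1 (z, 0) ⟨hz, rfl⟩)) h3
  obtain ⟨Λ', hΛ', e₂⟩ := ext_vec hι a b hΛ
  obtain ⟨Γ, hΓ, e₃⟩ := ext_par hι a b h1
  have app : ∀ {B : (J → ℂ) → V →L[ℂ] V} {Z : J → ℂ}, AnalyticAt ℂ B Z →
      AnalyticAt ℂ (fun w : (J → ℂ) × V × T => B w.1 w.2.1) (Z, 0) := by
    intro B Z hB
    exact ((ContinuousLinearMap.id ℂ (V →L[ℂ] V)).analyticAt_bilinear _).comp₂
      (hB.comp_of_eq analyticAt_fst rfl) (analyticAt_fst.comp analyticAt_snd)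
  refine ⟨fun w => Γ w - Γ (w.1, 0) - dV Γ w.1 w.2.1 + Φ (Λ' w.1) w.2.1, ⟨?_, ?_, ?_⟩, ?_⟩
  · rintro ⟨Z, w⟩ ⟨hZ, hw⟩
    obtain rfl : w = 0 := hw
    have g := hΓ (Z, 0) ⟨hZ, rfl⟩
    exact ((g.sub (g.comp_of_eq (analyticAt_fst.prod analyticAt_const) rfl)).sub
      (app (an_dV g))).add (app ((hΦ _ (mem_univ _)).comp (hΛ' Z hZ)))
  · exact Eventually.of_forall fun Z => by simp
  · intro Z hZ
    have g : AnalyticAt ℂ (fun v : V => Γ (Z, v, 0)) 0 :=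
      (hΓ (Z, 0) ⟨hZ, rfl⟩).comp_of_eq
        (analyticAt_const.prod (analyticAt_id.prod analyticAt_const)) rfl
    have d := ((g.differentiableAt.hasFDerivAt.sub_const (Γ (Z, 0))).sub
      (dV Γ Z).hasFDerivAt).add (Φ (Λ' Z)).hasFDerivAt
    have e : dV (fun w : (J → ℂ) × V × T =>
        Γ w - Γ (w.1, 0) - dV Γ w.1 w.2.1 + Φ (Λ' w.1) w.2.1) Z =
        dV Γ Z - dV Γ Z + Φ (Λ' Z) := d.fderiv
    rw [e, sub_self, zero_add]
    exact hu _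
  · have e₄ : ∀ᶠ w in 𝓝ˢ ((ι ⁻¹' Box a b) ×ˢ ({0} : Set (V × T))),
        ∀ᶠ w' in 𝓝 w, Γ (ι w'.1, w'.2) = γ w' :=
      eventually_nhdsSet_iff_forall.2 fun x hx =>
        (eventually_nhdsSet_iff_forall.1 e₃ x hx).eventually_nhds
    have e₅ : ∀ᶠ z in 𝓝ˢ (ι ⁻¹' Box a b),
        ∀ᶠ w' in 𝓝 (z, (0 : V × T)), Γ (ι w'.1, w'.2) = γ w' :=
      (Continuous.tendsto_nhdsSet (f := fun z : E => (z, (0 : V × T)))
        (t := (ι ⁻¹' Box a b) ×ˢ ({0} : Set (V × T))) (Continuous.prodMk_left _)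
        fun z hz => ⟨hz, rfl⟩).eventually e₄
    have e₆ : ∀ᶠ z in 𝓝ˢ (ι ⁻¹' Box a b),
        Γ (ι z, 0) = 0 ∧ dV Γ (ι z) = Φ (Λ' (ι z)) := by
      filter_upwards [e₁, e₂, e₅, h2] with z z1 z2 z5 z0
      refine ⟨z5.self_of_nhds.trans z0, ?_⟩
      rw [z2, ← z1]
      exact dV_congr (γ := fun w => Γ (ι w.1, w.2)) z5
    filter_upwards [e₃, (continuous_fst.tendsto_nhdsSet (t := ι ⁻¹' Box a b)
      fun w hw => hw.1).eventually e₆] with w w3 w6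
    simp only [w3, w6.1, w6.2, sub_zero, sub_add_cancel]

end Vale.Agent.P290
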