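import Vale.Agent.P290D.DCau

/-! The splitting operators: continuity and bounds. -/

open Set Filter Metric
open scoped Manifold ContDiff Topology

noncomputable section

namespace Vale.Agent.P290

variable {E V T W : Type} [NormedAddCommGroup E] [NormedSpace ℂ E] [FiniteDimensional ℂ E]
  [NormedAddCommGroup V] [NormedSpace ℂ V] [FiniteDimensional ℂ V] [NormedAddCommGroup T]
  [NormedSpace ℂ T] [FiniteDimensional ℂ T] [NormedAddCommGroup W] [NormedSpace ℂ W]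
  [FiniteDimensional ℂ W]

namespace BS1

open MeasureTheory

theorem cont_chi (α β : ℝ) : Continuous (chi α β) := by
  unfold chi
  fun_prop

theorem ker_le {α β : ℝ} (h2 : α < β) (ζ z : ℂ) :
    ‖(chi α β ζ - chi α β z) / (ζ - z)‖ ≤ (β - α)⁻¹ := by
  have h0 : 0 < β - α := sub_pos.2 h2
  have h1 := ((LipschitzWith.id.const_min (1 : ℝ)).const_max 0).dist_le_mul
    ((ζ.re - α) / (β - α)) ((z.re - α) / (β - α))
  rw [NNReal.coe_one, one_mul, Real.dist_eq, Real.dist_eq, ← sub_div, sub_sub_sub_cancel_right,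
    abs_div, abs_of_pos h0, ← Complex.sub_re] at h1
  rw [norm_div, chi, chi, ← Complex.ofReal_sub, Complex.norm_real, Real.norm_eq_abs]
  refine div_le_of_le_mul₀ (norm_nonneg _) (by positivity) (h1.trans ?_)
  rw [inv_mul_eq_div]
  exact div_le_div_of_nonneg_right (Complex.abs_re_le_norm _) h0.le

theorem chi_norm (α β : ℝ) (z : ℂ) : ‖-chi α β z‖ ≤ 1 ∧ ‖1 - chi α β z‖ ≤ 1 := by
  have h0 : 0 ≤ max 0 (min 1 ((z.re - α) / (β - α))) := le_max_left _ _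
  have h1 : max 0 (min 1 ((z.re - α) / (β - α))) ≤ 1 := max_le zero_le_one (min_le_left _ _)
  rw [norm_neg, chi, ← Complex.ofReal_one, ← Complex.ofReal_sub, Complex.norm_real,
    Complex.norm_real, Real.norm_of_nonneg h0, Real.norm_of_nonneg (sub_nonneg.2 h1)]
  exact ⟨h1, by linarith⟩

theorem chi_zero {α β : ℝ} (h2 : α < β) {z : ℂ} (h : z.re ≤ α) : -chi α β z = 0 := by
  have h1 : (z.re - α) / (β - α) ≤ 0 := div_nonpos_of_nonpos_of_nonneg (by linarith) (by linarith)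
  rw [chi, max_eq_left ((min_le_right _ _).trans h1), Complex.ofReal_zero, neg_zero]

theorem chi_one {α β : ℝ} (h2 : α < β) {z : ℂ} (h : β ≤ z.re) : 1 - chi α β z = 0 := by
  have h1 : 1 ≤ (z.re - α) / (β - α) := (one_le_div (by linarith)).2 (by linarith)
  rw [chi, min_eq_left h1, max_eq_right zero_le_one, Complex.ofReal_one, sub_self]

variable {α β a b : ℝ} {γ : ℝ → ℂ} {R : Set ℂ}

omit [FiniteDimensional ℂ V] in
theorem side_int (h2 : α < β) (hab : a ≤ b) (hγ : Continuous γ) (hR : MapsTo γ (Icc a b) R)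
    {g : ℂ → V} (hg : ContinuousOn g R) (z : ℂ) :
    IntervalIntegrable (fun s => ((chi α β (γ s) - chi α β z) / (γ s - z)) • g (γ s))
      volume a b := by
  have h1 : IntervalIntegrable (fun s => g (γ s)) volume a b :=
    (hg.comp hγ.continuousOn hR).intervalIntegrable_of_Icc hab
  have h3 : Measurable fun s => (chi α β (γ s) - chi α β z) / (γ s - z) :=
    (((cont_chi α β).comp hγ).measurable.sub_const _).div (hγ.measurable.sub_const _)
  exact ⟨h1.1.bdd_smul _ h3.aestronglyMeasurable (ae_of_all _ fun s => ker_le h2 _ _),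
    h1.2.bdd_smul _ h3.aestronglyMeasurable (ae_of_all _ fun s => ker_le h2 _ _)⟩

omit [FiniteDimensional ℂ V] in
theorem side_bound (h2 : α < β) (hab : a ≤ b) (hγ : Continuous γ) (hR : MapsTo γ (Icc a b) R)
    {g g' : ℂ → V} (hg : ContinuousOn g R) (hg' : ContinuousOn g' R) {M : ℝ}
    (hM : ∀ ζ ∈ R, ‖g ζ - g' ζ‖ ≤ M) (z : ℂ) :
    ‖(∫ s in a..b, ((chi α β (γ s) - chi α β z) / (γ s - z)) • g (γ s)) -
      ∫ s in a..b, ((chi α β (γ s) - chi α β z) / (γ s - z)) • g' (γ s)‖ ≤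
      (β - α)⁻¹ * M * (b - a) := by
  rw [← intervalIntegral.integral_sub (side_int h2 hab hγ hR hg z) (side_int h2 hab hγ hR hg' z),
    ← abs_of_nonneg (sub_nonneg.2 hab)]
  refine intervalIntegral.norm_integral_le_of_norm_le_const fun s hs => ?_
  rw [uIoc_of_le hab] at hs
  rw [← smul_sub, norm_smul]
  exact mul_le_mul (ker_le h2 _ _) (hM _ (hR (Ioc_subset_Icc_self hs))) (norm_nonneg _)
    (inv_nonneg.2 (sub_nonneg.2 h2.le))

omit [FiniteDimensional ℂ V] [NormedSpace ℂ W] [FiniteDimensional ℂ W] in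
theorem side_cont (h2 : α < β) (hab : a ≤ b) (hγ : Continuous γ) (hi : Function.Injective γ)
    (hR : MapsTo γ (Icc a b) R) (hK : IsCompact R) {Ω : Set W} (hΩ : IsCompact Ω)
    {h : ℂ × W → V} (hh : ContinuousOn h (R ×ˢ Ω)) :
    ContinuousOn (fun p : ℂ × W => ∫ s in a..b,
      ((chi α β (γ s) - chi α β p.1) / (γ s - p.1)) • h (γ s, p.2)) (univ ×ˢ Ω) := by
  obtain ⟨M, hM⟩ := (hK.prod hΩ).exists_bound_of_continuousOn hh
  intro p hp
  refine intervalIntegral.continuousWithinAt_of_dominated_interval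
    (bound := fun _ => (β - α)⁻¹ * M) (eventually_nhdsWithin_of_forall fun q hq => ?_)
    (eventually_nhdsWithin_of_forall fun q hq => ae_of_all _ fun s hs => ?_)
    intervalIntegrable_const ?_
  · exact (side_int h2 hab hγ hR (g := fun ζ => h (ζ, q.2))
      (hh.comp (by fun_prop) fun ζ hζ => ⟨hζ, hq.2⟩) q.1).def'.aestronglyMeasurable
  · rw [uIoc_of_le hab] at hs
    rw [norm_smul]
    exact mul_le_mul (ker_le h2 _ _) (hM _ ⟨hR (Ioc_subset_Icc_self hs), hq.2⟩) (norm_nonneg _)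
      (inv_nonneg.2 (sub_nonneg.2 h2.le))
  · have h1 : (γ ⁻¹' {p.1}).Countable := (subsingleton_singleton.preimage hi).finite.countable
    filter_upwards [h1.ae_notMem volume] with s h3 hs
    rw [uIoc_of_le hab] at hs
    have h4 : ContinuousAt (fun q : ℂ × W => (chi α β (γ s) - chi α β q.1) / (γ s - q.1)) p :=
      (continuous_const.sub ((cont_chi α β).comp continuous_fst)).continuousAt.div
        (by fun_prop) (sub_ne_zero.2 h3)
    have h5 : ContinuousOn (fun q : ℂ × W => h (γ s, q.2)) (univ ×ˢ Ω) :=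
      hh.comp (by fun_prop) fun q hq => ⟨hR (Ioc_subset_Icc_self hs), hq.2⟩
    exact h4.continuousWithinAt.smul (h5 p hp)

theorem hor {α β y₀ y₁ y : ℝ} (hy : y ∈ Icc y₀ y₁) :
    Continuous (fun x : ℝ => (x + y * Complex.I : ℂ)) ∧
      Function.Injective (fun x : ℝ => (x + y * Complex.I : ℂ)) ∧
      MapsTo (fun x : ℝ => (x + y * Complex.I : ℂ)) (Icc α β) (Rc α β y₀ y₁) :=
  ⟨by fun_prop, fun x x' h => by simpa using h, fun x hx => ⟨by simpa using hx, by simpa using hy⟩⟩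

theorem ver {α β y₀ y₁ x : ℝ} (hx : x ∈ Icc α β) :
    Continuous (fun y : ℝ => (x + y * Complex.I : ℂ)) ∧
      Function.Injective (fun y : ℝ => (x + y * Complex.I : ℂ)) ∧
      MapsTo (fun y : ℝ => (x + y * Complex.I : ℂ)) (Icc y₀ y₁) (Rc α β y₀ y₁) :=
  ⟨by fun_prop, fun y y' h => by simpa using h, fun y hy => ⟨by simpa using hx, by simpa using hy⟩⟩

omit [FiniteDimensional ℂ V] [NormedSpace ℂ W] [FiniteDimensional ℂ W] in
theorem lc_cont {y₀ y₁ : ℝ} (h2 : α < β) (hy : y₀ < y₁) {Ω : Set W} (hΩ : IsCompact Ω)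
    {h : ℂ × W → V} (hh : ContinuousOn h (Rc α β y₀ y₁ ×ˢ Ω)) :
    ContinuousOn (Lc α β y₀ y₁ h) (univ ×ˢ Ω) := by
  have hK := isCompact_rc α β y₀ y₁
  obtain ⟨a1, a2, a3⟩ := hor (α := α) (β := β) (left_mem_Icc.2 hy.le)
  obtain ⟨b1, b2, b3⟩ := hor (α := α) (β := β) (right_mem_Icc.2 hy.le)
  obtain ⟨c1, c2, c3⟩ := ver (y₀ := y₀) (y₁ := y₁) (right_mem_Icc.2 h2.le)
  obtain ⟨d1, d2, d3⟩ := ver (y₀ := y₀) (y₁ := y₁) (left_mem_Icc.2 h2.le)
  exact ((((side_cont h2 h2.le a1 a2 a3 hK hΩ hh).sub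
    (side_cont h2 h2.le b1 b2 b3 hK hΩ hh)).add
    ((side_cont h2 hy.le c1 c2 c3 hK hΩ hh).const_smul Complex.I)).sub
    ((side_cont h2 hy.le d1 d2 d3 hK hΩ hh).const_smul Complex.I)).const_smul
    (2 * Real.pi * Complex.I : ℂ)⁻¹

omit [FiniteDimensional ℂ V] [NormedAddCommGroup W] [NormedSpace ℂ W] [FiniteDimensional ℂ W] in
theorem lc_bound {y₀ y₁ : ℝ} (h2 : α < β) (hy : y₀ < y₁) {h h' : ℂ × W → V} {y : W}
    (hh : ContinuousOn (fun ζ => h (ζ, y)) (Rc α β y₀ y₁))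
    (hh' : ContinuousOn (fun ζ => h' (ζ, y)) (Rc α β y₀ y₁)) {M : ℝ}
    (hM : ∀ ζ ∈ Rc α β y₀ y₁, ‖h (ζ, y) - h' (ζ, y)‖ ≤ M) (z : ℂ) :
    ‖Lc α β y₀ y₁ h (z, y) - Lc α β y₀ y₁ h' (z, y)‖ ≤ (1 + (y₁ - y₀) / (β - α)) * M := by
  obtain ⟨a1, -, a3⟩ := hor (α := α) (β := β) (left_mem_Icc.2 hy.le)
  obtain ⟨b1, -, b3⟩ := hor (α := α) (β := β) (right_mem_Icc.2 hy.le)
  obtain ⟨c1, -, c3⟩ := ver (y₀ := y₀) (y₁ := y₁) (right_mem_Icc.2 h2.le)
  obtain ⟨d1, -, d3⟩ := ver (y₀ := y₀) (y₁ := y₁) (left_mem_Icc.2 h2.le)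
  have ha := side_bound h2 h2.le a1 a3 hh hh' hM z
  have hb := side_bound h2 h2.le b1 b3 hh hh' hM z
  have hc := side_bound h2 hy.le c1 c3 hh hh' hM z
  have hd := side_bound h2 hy.le d1 d3 hh hh' hM z
  have key : ∀ A B C D A' B' C' D' : V,
      ‖(A - B + Complex.I • C - Complex.I • D) - (A' - B' + Complex.I • C' - Complex.I • D')‖ ≤
        ‖A - A'‖ + ‖B - B'‖ + ‖C - C'‖ + ‖D - D'‖ := fun A B C D A' B' C' D' => by
    have e : (A - B + Complex.I • C - Complex.I • D) - (A' - B' + Complex.I • C' - Complex.I • D') =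
        (A - A') - (B - B') + Complex.I • (C - C') - Complex.I • (D - D') := by
      simp only [smul_sub]
      abel
    rw [e]
    refine (norm_sub_le _ _).trans (add_le_add ((norm_add_le _ _).trans
      (add_le_add (norm_sub_le _ _) ?_)) ?_) <;> simp [norm_smul]
  have hn : ‖(2 * Real.pi * Complex.I : ℂ)⁻¹‖ ≤ 2⁻¹ := by
    rw [norm_inv, norm_mul, norm_mul, Complex.norm_I, Complex.norm_real, Complex.norm_ofNat,
      Real.norm_of_nonneg Real.pi_pos.le]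
    exact inv_anti₀ two_pos (by linarith [Real.pi_gt_three])
  rw [Lc, Lc, ← smul_sub, norm_smul]
  refine (mul_le_mul hn ((key _ _ _ _ _ _ _ _).trans
    (add_le_add (add_le_add (add_le_add ha hb) hc) hd)) (norm_nonneg _) (by norm_num)).trans_eq ?_
  have h0 : β - α ≠ 0 := (sub_pos.2 h2).ne'
  field_simp
  ring

omit [FiniteDimensional ℂ V] [NormedSpace ℂ W] [FiniteDimensional ℂ W] in
theorem glue {ψ : ℂ → ℂ} (hψ : Continuous ψ) {S t : Set (ℂ × W)} (hS : IsClosed S)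
    (ht : IsClosed t) (h0 : ∀ p ∈ t, ψ p.1 = 0) {h : ℂ × W → V} (hh : ContinuousOn h S) :
    ContinuousOn (fun p => ψ p.1 • h p) (S ∪ t) :=
  ((hψ.comp continuous_fst).continuousOn.smul hh).union_of_isClosed
    ((continuousOn_const (c := (0 : V))).congr fun p hp => by simp [h0 p hp]) hS ht

omit [FiniteDimensional ℂ V] in
theorem fin {c : ℂ} {u u' v v' : V} {M C : ℝ} (h1 : ‖c • (u - u')‖ ≤ M)
    (h2 : ‖v - v'‖ ≤ (1 + C) * M) : ‖(c • u - v) - (c • u' - v')‖ ≤ (2 + C) * M := by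
  rw [sub_sub_sub_comm, ← smul_sub]
  linarith [norm_sub_le (c • (u - u')) (v - v')]

end BS1

theorem L_sub (α β y₀ y₁ : ℝ) (h : ℂ × W → V) (p : ℂ × W) :
    L2 α β y₀ y₁ h p - L1 α β y₀ y₁ h p = h p := by
  rw [L1, L2, sub_sub_sub_cancel_right, ← sub_smul, sub_neg_eq_add, sub_add_cancel, one_smul]

theorem L_zero (α β y₀ y₁ : ℝ) (p : ℂ × W) :
    L1 α β y₀ y₁ (fun _ => (0 : V)) p = 0 ∧ L2 α β y₀ y₁ (fun _ => (0 : V)) p = 0 := by
  simp [L1, L2, Lc, bint]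

theorem L_cont {x₁ α β x₂ y₀ y₁ : ℝ} (h2 : α < β) (hy : y₀ < y₁) {Ω : Set W} (hΩ : IsCompact Ω)
    {h : ℂ × W → V} (hh : ContinuousOn h (Rc α β y₀ y₁ ×ˢ Ω)) :
    ContinuousOn (L1 α β y₀ y₁ h) (Rc x₁ β y₀ y₁ ×ˢ Ω) ∧
      ContinuousOn (L2 α β y₀ y₁ h) (Rc α x₂ y₀ y₁ ×ˢ Ω) := by
  have hS := ((isCompact_rc α β y₀ y₁).prod hΩ).isClosed
  have hc := BS1.lc_cont h2 hy hΩ hh
  have hre : Continuous fun p : ℂ × W => p.1.re := by fun_prop
  refine ⟨ContinuousOn.sub ((BS1.glue (BS1.cont_chi α β).neg hS (isClosed_le hre continuous_const)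
      (fun p hp => BS1.chi_zero h2 hp) hh).mono fun p hp => ?_) (hc.mono fun p hp => ⟨trivial, hp.2⟩),
    ContinuousOn.sub ((BS1.glue (continuous_const.sub (BS1.cont_chi α β)) hS
      (isClosed_le continuous_const hre) (fun p hp => BS1.chi_one h2 hp) hh).mono fun p hp => ?_)
      (hc.mono fun p hp => ⟨trivial, hp.2⟩)⟩
  · rcases le_total α p.1.re with h1 | h1
    · exact Or.inl ⟨⟨⟨h1, hp.1.1.2⟩, hp.1.2⟩, hp.2⟩
    · exact Or.inr h1
  · rcases le_total p.1.re β with h1 | h1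
    · exact Or.inl ⟨⟨⟨hp.1.1.1, h1⟩, hp.1.2⟩, hp.2⟩
    · exact Or.inr h1

theorem L_bound {x₁ α β x₂ y₀ y₁ : ℝ} (h2 : α < β) (hy : y₀ < y₁) {h h' : ℂ × W → V} {y : W}
    (hh : ContinuousOn (fun ζ => h (ζ, y)) (Rc α β y₀ y₁))
    (hh' : ContinuousOn (fun ζ => h' (ζ, y)) (Rc α β y₀ y₁)) {M : ℝ}
    (hM : ∀ ζ ∈ Rc α β y₀ y₁, ‖h (ζ, y) - h' (ζ, y)‖ ≤ M) :
    (∀ z ∈ Rc x₁ β y₀ y₁, ‖L1 α β y₀ y₁ h (z, y) - L1 α β y₀ y₁ h' (z, y)‖ ≤
      (2 + (y₁ - y₀) / (β - α)) * M) ∧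
    ∀ z ∈ Rc α x₂ y₀ y₁, ‖L2 α β y₀ y₁ h (z, y) - L2 α β y₀ y₁ h' (z, y)‖ ≤
      (2 + (y₁ - y₀) / (β - α)) * M := by
  have hM0 : 0 ≤ M := (norm_nonneg _).trans
    (hM _ ((BS1.hor (left_mem_Icc.2 hy.le)).2.2 (left_mem_Icc.2 h2.le)))
  have hc := BS1.lc_bound h2 hy hh hh' hM
  refine ⟨fun z hz => BS1.fin ?_ (hc z), fun z hz => BS1.fin ?_ (hc z)⟩
  · rcases le_total α z.re with h1 | h1
    · rw [norm_smul]
      exact (mul_le_of_le_one_left (norm_nonneg _) (BS1.chi_norm α β z).1).trans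
        (hM z ⟨⟨h1, hz.1.2⟩, hz.2⟩)
    · rw [BS1.chi_zero h2 h1, zero_smul, norm_zero]
      exact hM0
  · rcases le_total z.re β with h1 | h1
    · rw [norm_smul]
      exact (mul_le_of_le_one_left (norm_nonneg _) (BS1.chi_norm α β z).2).trans
        (hM z ⟨⟨hz.1.1, h1⟩, hz.2⟩)
    · rw [BS1.chi_one h2 h1, zero_smul, norm_zero]
      exact hM0

end Vale.Agent.P290
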