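import Vale.Agent.P290D.DInt

/-! The splitting operators: holomorphy. -/

open Set Filter Metric
open scoped Manifold ContDiff Topology

noncomputable section

namespace Vale.Agent.P290

variable {E V T W : Type} [NormedAddCommGroup E] [NormedSpace ℂ E] [FiniteDimensional ℂ E]
  [NormedAddCommGroup V] [NormedSpace ℂ V] [FiniteDimensional ℂ V] [NormedAddCommGroup T]
  [NormedSpace ℂ T] [FiniteDimensional ℂ T] [NormedAddCommGroup W] [NormedSpace ℂ W]
  [FiniteDimensional ℂ W]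

namespace BS2

theorem chi_cont (α β : ℝ) : Continuous (chi α β) := by
  unfold chi
  fun_prop

theorem chi0 {α β : ℝ} (h2 : α < β) {z : ℂ} (h : z.re ≤ α) : chi α β z = 0 := by
  rw [chi, max_eq_left ((min_le_right _ _).trans
    (div_nonpos_of_nonpos_of_nonneg (sub_nonpos.2 h) (sub_pos.2 h2).le)), Complex.ofReal_zero]

theorem chi1 {α β : ℝ} (h2 : α < β) {z : ℂ} (h : β ≤ z.re) : chi α β z = 1 := by
  rw [chi, min_eq_left ((one_le_div (sub_pos.2 h2)).2 (by linarith)), max_eq_right zero_le_one,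
    Complex.ofReal_one]

theorem mem {α β y₀ y₁ x y : ℝ} (hx : x ∈ Icc α β) (hy : y ∈ Icc y₀ y₁) :
    (x + y * Complex.I : ℂ) ∈ Rc α β y₀ y₁ := by
  constructor
  · simpa using hx
  · simpa using hy

theorem ne_re {x y : ℝ} {z : ℂ} (h : z.re ≠ x) : (x + y * Complex.I : ℂ) ≠ z := by
  rintro rfl
  simp at h

theorem ne_im {x y : ℝ} {z : ℂ} (h : z.im ≠ y) : (x + y * Complex.I : ℂ) ≠ z := by
  rintro rfl
  simp at h

omit [FiniteDimensional ℂ V] in
theorem bint_smul (α β y₀ y₁ : ℝ) (c : ℂ) (g : ℂ → V) :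
    bint α β y₀ y₁ (fun ζ => c • g ζ) = c • bint α β y₀ y₁ g := by
  simp only [bint, intervalIntegral.integral_smul, smul_add, smul_sub, smul_comm c Complex.I]

omit [FiniteDimensional ℂ V] in
theorem bint_add {α β y₀ y₁ : ℝ} (h2 : α < β) (hy : y₀ < y₁) {z : ℂ} (h1 : z.re ∈ Ioo α β)
    (h3 : z.im ∈ Ioo y₀ y₁) {f g : ℂ → V} (hf : ContinuousOn f (Rc α β y₀ y₁ \ {z}))
    (hg : ContinuousOn g (Rc α β y₀ y₁ \ {z})) :
    bint α β y₀ y₁ (fun ζ => f ζ + g ζ) = bint α β y₀ y₁ f + bint α β y₀ y₁ g := by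
  have ih : ∀ u : ℂ → V, ContinuousOn u (Rc α β y₀ y₁ \ {z}) → ∀ y ∈ Icc y₀ y₁, z.im ≠ y →
      IntervalIntegrable (fun x : ℝ => u (x + y * Complex.I)) MeasureTheory.volume α β :=
    fun u hu y hy hne => (hu.comp (by fun_prop : Continuous fun x : ℝ =>
      (x + y * Complex.I : ℂ)).continuousOn fun x hx => ⟨mem hx hy, ne_im hne⟩
      ).intervalIntegrable_of_Icc h2.le
  have iv : ∀ u : ℂ → V, ContinuousOn u (Rc α β y₀ y₁ \ {z}) → ∀ x ∈ Icc α β, z.re ≠ x →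
      IntervalIntegrable (fun y : ℝ => u (x + y * Complex.I)) MeasureTheory.volume y₀ y₁ :=
    fun u hu x hx hne => (hu.comp (by fun_prop : Continuous fun y : ℝ =>
      (x + y * Complex.I : ℂ)).continuousOn fun y hy => ⟨mem hx hy, ne_re hne⟩
      ).intervalIntegrable_of_Icc hy.le
  have a0 := left_mem_Icc.2 h2.le
  have a1 := right_mem_Icc.2 h2.le
  have b0 := left_mem_Icc.2 hy.le
  have b1 := right_mem_Icc.2 hy.le
  simp only [bint]
  rw [intervalIntegral.integral_add (ih f hf _ b0 h3.1.ne') (ih g hg _ b0 h3.1.ne'),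
    intervalIntegral.integral_add (ih f hf _ b1 h3.2.ne) (ih g hg _ b1 h3.2.ne),
    intervalIntegral.integral_add (iv f hf _ a0 h1.1.ne') (iv g hg _ a0 h1.1.ne'),
    intervalIntegral.integral_add (iv f hf _ a1 h1.2.ne) (iv g hg _ a1 h1.2.ne), smul_add,
    smul_add]
  abel

theorem side {α β y₀ y₁ : ℝ} (h2 : α < β) (hy : y₀ < y₁) {Ω : Set W} (hΩ : IsCompact Ω)
    {h : ℂ × W → V} (hh : AA (Rc α β y₀ y₁ ×ˢ Ω) h) {ψ : ℂ → ℂ} (hψ : Continuous ψ)
    {U : Set (ℂ × W)} (hU : IsOpen U) (hU2 : ∀ p ∈ U, p.2 ∈ interior Ω) {γ : ℝ → ℂ}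
    (hγ : Continuous γ) {a b : ℝ} (hab : a < b) (hm : ∀ s ∈ Icc a b, γ s ∈ Rc α β y₀ y₁)
    (hne : (∀ s, ∀ p ∈ U, γ s ≠ p.1) ∨ ∀ s, ψ (γ s) = 0) :
    DifferentiableOn ℂ (fun p => ∫ s in a..b, (ψ (γ s) / (γ s - p.1)) • h (γ s, p.2)) U := by
  rw [← uIcc_of_le hab.le] at hm
  rcases hne with hne | hne
  · have c1 : ContinuousOn (fun q : ℝ × ℂ × W => ψ (γ q.1) / (γ q.1 - q.2.1)) (uIcc a b ×ˢ U) :=
      ContinuousOn.div (by fun_prop) (by fun_prop) fun q hq => sub_ne_zero.2 (hne _ _ hq.2)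
    have c2 : ContinuousOn (fun q : ℝ × ℂ × W => h (γ q.1, q.2.2)) (uIcc a b ×ˢ U) :=
      hh.1.comp (by fun_prop : Continuous fun q : ℝ × ℂ × W => (γ q.1, q.2.2)).continuousOn
        fun q hq => ⟨hm _ hq.1, interior_subset (hU2 q.2 hq.2)⟩
    have c0 : ContinuousOn (fun q : ℝ × ℂ × W => (ψ (γ q.1) / (γ q.1 - q.2.1)) • h (γ q.1, q.2.2))
        (uIcc a b ×ˢ U) := c1.smul c2
    refine diff_integral (H := fun s (p : ℂ × W) => (ψ (γ s) / (γ s - p.1)) • h (γ s, p.2)) hU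
      c0 fun s hs => ?_
    have c3 : DifferentiableOn ℂ (fun p : ℂ × W => ψ (γ s) / (γ s - p.1)) U :=
      (DifferentiableOn.inv (by fun_prop : DifferentiableOn ℂ (fun p : ℂ × W => γ s - p.1) U)
        fun p hp => sub_ne_zero.2 (hne _ _ hp)).const_mul _
    have c4 : DifferentiableOn ℂ (fun p : ℂ × W => h (γ s, p.2)) U :=
      (bdry_diff h2 hy hΩ hh (hm s hs)).comp differentiableOn_snd hU2
    exact c3.smul c4
  · simp [hne]

theorem main {α β y₀ y₁ : ℝ} (h2 : α < β) (hy : y₀ < y₁) {Ω : Set W} (hΩ : IsCompact Ω)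
    {h : ℂ × W → V} (hh : AA (Rc α β y₀ y₁ ×ˢ Ω) h) (c : ℂ) {U : Set (ℂ × W)} (hU : IsOpen U)
    (hp : ∀ p ∈ U, p.2 ∈ interior Ω ∧ p.1.im ∈ Ioo y₀ y₁ ∧
      (p.1.re ∈ Ioo α β ∨ chi α β p.1 = c))
    (hl : (∀ p ∈ U, p.1.re ≠ α) ∨ c = 0) (hr : (∀ p ∈ U, p.1.re ≠ β) ∨ c = 1) :
    DifferentiableOn ℂ (fun p => (c - chi α β p.1) • h p - Lc α β y₀ y₁ h p) U := by
  have hψ : Continuous fun ζ => chi α β ζ - c := (chi_cont α β).sub continuous_const
  have hU2 : ∀ p ∈ U, p.2 ∈ interior Ω := fun p h => (hp p h).1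
  have a0 := left_mem_Icc.2 h2.le
  have a1 := right_mem_Icc.2 h2.le
  have b0 := left_mem_Icc.2 hy.le
  have b1 := right_mem_Icc.2 hy.le
  have d1 := side h2 hy hΩ hh hψ hU hU2 (γ := fun x => x + y₀ * Complex.I) (by fun_prop) h2
    (fun s hs => mem hs b0) (Or.inl fun s p h => ne_im (hp p h).2.1.1.ne')
  have d2 := side h2 hy hΩ hh hψ hU hU2 (γ := fun x => x + y₁ * Complex.I) (by fun_prop) h2
    (fun s hs => mem hs b1) (Or.inl fun s p h => ne_im (hp p h).2.1.2.ne)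
  have d3 := side h2 hy hΩ hh hψ hU hU2 (γ := fun y => β + y * Complex.I) (by fun_prop) hy
    (fun s hs => mem a1 hs) (hr.imp (fun h s p hp => ne_re (h p hp)) fun h s => by
      rw [chi1 h2 (by simp), h, sub_self])
  have d4 := side h2 hy hΩ hh hψ hU hU2 (γ := fun y => α + y * Complex.I) (by fun_prop) hy
    (fun s hs => mem a0 hs) (hl.imp (fun h s p hp => ne_re (h p hp)) fun h s => by
      rw [chi0 h2 (by simp), h, sub_self])
  have d5 : DifferentiableOn ℂ (fun p : ℂ × W => -((2 * Real.pi * Complex.I : ℂ)⁻¹ •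
      bint α β y₀ y₁ fun ζ => ((chi α β ζ - c) / (ζ - p.1)) • h (ζ, p.2))) U :=
    ((((d1.sub d2).add (d3.const_smul Complex.I)).sub (d4.const_smul Complex.I)).const_smul _).neg
  refine d5.congr fun p hpU => ?_
  obtain ⟨k1, k2, k3 | k3⟩ := hp p hpU
  · have hg : AA (Rc α β y₀ y₁) fun ζ => h (ζ, p.2) :=
      ⟨hh.1.comp (by fun_prop) fun ζ hζ => ⟨hζ, interior_subset k1⟩,
        hh.2.comp (by fun_prop) fun ζ hζ => by
          rw [interior_prod_eq]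
          exact ⟨hζ, k1⟩⟩
    have hc := cauchy_rc hg (z := p.1) (by rw [interior_rc]; exact ⟨k3, k2⟩)
    have hne : ∀ ζ ∈ Rc α β y₀ y₁ \ {p.1}, ζ - p.1 ≠ 0 := fun ζ hζ => sub_ne_zero.2 hζ.2
    have e : (fun ζ => ((chi α β ζ - chi α β p.1) / (ζ - p.1)) • h (ζ, p.2)) = fun ζ =>
        ((chi α β ζ - c) / (ζ - p.1)) • h (ζ, p.2) +
          (c - chi α β p.1) • (ζ - p.1)⁻¹ • h (ζ, p.2) := by
      funext ζ
      rw [smul_smul, ← add_smul]
      congr 1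
      ring
    have hI : (2 * Real.pi * Complex.I : ℂ) ≠ 0 := Complex.two_pi_I_ne_zero
    have c1 : ContinuousOn (fun ζ => ((chi α β ζ - c) / (ζ - p.1)) • h (ζ, p.2))
        (Rc α β y₀ y₁ \ {p.1}) :=
      (hψ.continuousOn.div (by fun_prop) hne).smul (hg.1.mono sdiff_subset)
    have c2 : ContinuousOn (fun ζ => (c - chi α β p.1) • (ζ - p.1)⁻¹ • h (ζ, p.2))
        (Rc α β y₀ y₁ \ {p.1}) :=
      ((ContinuousOn.inv₀ (by fun_prop) hne).smul (hg.1.mono sdiff_subset)).const_smul _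
    rw [Lc, e, bint_add h2 hy k3 k2 c1 c2,
      bint_smul, hc, smul_add, smul_comm (c - chi α β p.1), inv_smul_smul₀ hI]
    abel
  · rw [Lc, k3, sub_self, zero_smul, zero_sub]

end BS2

theorem L_diff {x₁ α β x₂ y₀ y₁ : ℝ} (h2 : α < β) (hy : y₀ < y₁) {Ω : Set W} (hΩ : IsCompact Ω)
    {h : ℂ × W → V} (hh : AA (Rc α β y₀ y₁ ×ˢ Ω) h) :
    DifferentiableOn ℂ (L1 α β y₀ y₁ h) (interior (Rc x₁ β y₀ y₁ ×ˢ Ω)) ∧
      DifferentiableOn ℂ (L2 α β y₀ y₁ h) (interior (Rc α x₂ y₀ y₁ ×ˢ Ω)) := by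

  constructor
  · have h := BS2.main h2 hy hΩ hh 0 (U := interior (Rc x₁ β y₀ y₁ ×ˢ Ω)) isOpen_interior
      (fun p hp => by
        rw [interior_prod_eq, interior_rc] at hp
        refine ⟨hp.2, hp.1.2, ?_⟩
        rcases le_or_gt p.1.re α with h | h
        · exact Or.inr (BS2.chi0 h2 h)
        · exact Or.inl ⟨h, hp.1.1.2⟩) (Or.inr rfl) (Or.inl fun p hp => by
        rw [interior_prod_eq, interior_rc] at hp
        exact hp.1.1.2.ne)
    simp only [zero_sub] at h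
    exact h
  · exact BS2.main h2 hy hΩ hh 1 (U := interior (Rc α x₂ y₀ y₁ ×ˢ Ω)) isOpen_interior
      (fun p hp => by
        rw [interior_prod_eq, interior_rc] at hp
        refine ⟨hp.2, hp.1.2, ?_⟩
        rcases le_or_gt β p.1.re with h | h
        · exact Or.inr (BS2.chi1 h2 h)
        · exact Or.inl ⟨hp.1.1.1, h⟩) (Or.inl fun p hp => by
        rw [interior_prod_eq, interior_rc] at hp
        exact hp.1.1.1.ne') (Or.inr rfl)

end Vale.Agent.P290
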