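import Vale.Agent.P290D.Defs

/-! Countably many convex sets suffice. -/

open Set Filter Metric
open scoped Manifold ContDiff Topology

noncomputable section

namespace Vale.Agent.P290

variable {E V T W : Type} [NormedAddCommGroup E] [NormedSpace ℂ E] [FiniteDimensional ℂ E]
  [NormedAddCommGroup V] [NormedSpace ℂ V] [FiniteDimensional ℂ V] [NormedAddCommGroup T]
  [NormedSpace ℂ T] [FiniteDimensional ℂ T] [NormedAddCommGroup W] [NormedSpace ℂ W]
  [FiniteDimensional ℂ W]

theorem exists_cnt : ∃ Q : Set (Set E), Q.Countable ∧ (∀ P ∈ Q, IsCompact P ∧ Convex ℝ P) ∧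
    ∀ K U : Set E, IsCompact K → Convex ℝ K → U ∈ 𝓝ˢ K → ∃ P ∈ Q, K ⊆ P ∧ P ⊆ U := by
  have := FiniteDimensional.proper ℂ E
  obtain ⟨D, hD, hd⟩ := TopologicalSpace.exists_countable_dense E
  refine ⟨(fun p : ℕ × Set E => cthickening (1 / ((p.1 : ℝ) + 1)) (convexHull ℝ p.2)) ''
    (univ ×ˢ {S | S.Finite ∧ S ⊆ D}),
    (countable_univ.prod (countable_ofPred_finite_subset hD)).image _, ?_, ?_⟩
  · rintro _ ⟨⟨n, S⟩, ⟨-, hS, -⟩, rfl⟩
    exact ⟨(hS.isCompact_convexHull ℝ).cthickening, (convex_convexHull ℝ S).cthickening _⟩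
  · intro K U hK hc hU
    obtain ⟨δ, hδ, hs⟩ := hK.exists_cthickening_subset_open isOpen_interior
      (subset_interior_iff_mem_nhdsSet.2 hU)
    obtain ⟨n, hn⟩ := exists_nat_one_div_lt (half_pos hδ)
    have hq : (0 : ℝ) < 1 / ((n : ℝ) + 1) := Nat.one_div_pos_of_nat
    obtain ⟨S, hS, hf, hcov⟩ := hK.elim_finite_subcover_image
      (b := D ∩ cthickening (1 / ((n : ℝ) + 1)) K) (c := fun d => ball d (1 / ((n : ℝ) + 1)))
      (fun _ _ => isOpen_ball) fun x hx => by
        obtain ⟨d, h1, h2⟩ := hd.exists_dist_lt x hq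
        exact mem_biUnion (show d ∈ D ∩ cthickening (1 / ((n : ℝ) + 1)) K from
          ⟨h1, mem_cthickening_of_dist_le d x _ K hx (by rw [dist_comm]; exact h2.le)⟩) h2
    refine ⟨_, ⟨(n, S), ⟨mem_univ _, hf, fun d h => (hS h).1⟩, rfl⟩, fun x hx => ?_, ?_⟩
    · obtain ⟨d, h1, h2⟩ := mem_iUnion₂.1 (hcov hx)
      exact mem_cthickening_of_dist_le x d _ _ (subset_convexHull ℝ S h1) (le_of_lt h2)
    · refine (cthickening_subset_of_subset _ (convexHull_min (fun d h => (hS h).2)
        (hc.cthickening _))).trans ((cthickening_cthickening_subset hq.le hq.le K).trans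
          ((cthickening_mono (by linarith) K).trans (hs.trans interior_subset)))

end Vale.Agent.P290
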