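import Vale.Agent.P290D.Defs

/-! Approximation in steps. -/

open Set Filter Metric
open scoped Manifold ContDiff Topology

noncomputable section

namespace Vale.Agent.P290

variable {X : Type} [MetricSpace X] [CompactSpace X] [ChartedSpace C2 X]
  [IsManifold 𝓘(ℂ, C2) ω X] {E : Type} [NormedAddCommGroup E] [NormedSpace ℂ E]
  [FiniteDimensional ℂ E]

theorem hol_lim {F : ℕ → E → X} {f : E → X} {z : E} {N : Set E} (hN : N ∈ 𝓝 z)
    (hF : ∀ᶠ n in atTop, ∀ w ∈ N, Hol (F n) w) (hl : TendstoUniformlyOn F f atTop N) :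
    Hol f z := by
  have hc : ContinuousAt f z :=
    (hl.continuousOn (hF.mono fun n h w hw => (h w hw).cont.continuousWithinAt).frequently
      ).continuousAt hN
  have hs := mem_chart_source C2 (f z)
  obtain ⟨r, hr, hrs⟩ := nhds_basis_closedBall.mem_iff.1
    ((chartAt C2 (f z)).open_source.mem_nhds hs)
  have hu : UniformContinuousOn (chartAt C2 (f z)) (closedBall (f z) r) :=
    isClosed_closedBall.isCompact.uniformContinuousOn_of_continuous
      ((chartAt C2 (f z)).continuousOn.mono hrs)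
  obtain ⟨R, hR, hRs⟩ := Metric.mem_nhds_iff.1 (inter_mem hN
    (hc.preimage_mem_nhds (ball_mem_nhds (f z) (half_pos hr))))
  have key : ∀ k : ℕ, ∃ n, DifferentiableOn ℂ (fun w => chartAt C2 (f z) (F n w)) (ball z R) ∧
      ∀ w ∈ ball z R, ‖chartAt C2 (f z) (F n w) - chartAt C2 (f z) (f w)‖ ≤ 1 / (k + 1) := by
    intro k
    obtain ⟨δ, hδ, hd⟩ := Metric.uniformContinuousOn_iff.1 hu (1 / (k + 1)) (by positivity)
    obtain ⟨n, h1, h2⟩ := (hF.and (Metric.tendstoUniformlyOn_iff.1 hl (min δ (r / 2))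
      (lt_min hδ (half_pos hr)))).exists
    have h3 : ∀ w ∈ ball z R, dist (f w) (f z) < r / 2 := fun w hw => (hRs hw).2
    have h4 : ∀ w ∈ ball z R, F n w ∈ closedBall (f z) r := fun w hw => by
      have h5 := (h2 w (hRs hw).1).trans_le (min_le_right _ _)
      have h6 := dist_triangle_left (F n w) (f z) (f w)
      rw [mem_closedBall]
      linarith [h3 w hw]
    refine ⟨n, fun w hw => ?_, fun w hw => ?_⟩
    · exact ((Mfd.chart (f z) (hrs (h4 w hw))).comp
        (h1 w (hRs hw).1)).differentiableAt.differentiableWithinAt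
    · rw [← dist_eq_norm]
      refine (hd _ (h4 w hw) _ (mem_closedBall.2 (by linarith [h3 w hw])) ?_).le
      rw [dist_comm]
      exact (h2 w (hRs hw).1).trans_le (min_le_left _ _)
  choose n h1 h2 using key
  have ha : AnalyticAt ℂ (fun w => chartAt C2 (f z) (f w)) z := by
    refine P278F.analyticAt_of_eventually ?_
    filter_upwards [ball_mem_nhds z hR] with c hcz
    obtain ⟨ρ, hρ, hb⟩ := Metric.isOpen_iff.1 isOpen_ball c hcz
    exact P278F.differentiableAt_of_unif hρ (fun k => (h1 k).mono hb)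
      tendsto_one_div_add_atTop_nhds_zero_nat fun k w hw => h2 k w (hb hw)
  exact (Hol.comp (g := fun w => chartAt C2 (f z) (f w))
    (Mfd.symm (f z) ((chartAt C2 (f z)).map_source hs)) ha).congr (Mfd.ev_eq (f z) hc hs)

theorem Lim.lim {B : ℕ → Set E} (hB : Monotone B) (hU : ∀ z, ∃ n, B n ∈ 𝓝 z) {F : ℕ → E → X}
    {C : ℝ} (hF : ∀ n, ∀ z ∈ B n, Hol (F n) z)
    (hd : ∀ n, ∀ z ∈ B n, dist (F n z) (F (n + 1) z) ≤ C / 2 / 2 ^ n) :
    ∃ G : E → X, (∀ z, Hol G z) ∧ ∀ z ∈ B 0, dist (F 0 z) (G z) ≤ C := by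
  have h1 : ∀ N, ∀ z ∈ B N, ∀ n, dist (F (n + N) z) (F (n + 1 + N) z) ≤ C / 2 ^ N / 2 / 2 ^ n :=
    fun N z hz n => by
      have h := hd (n + N) z (hB (Nat.le_add_left N n) hz)
      rw [show n + 1 + N = n + N + 1 by ring]
      refine h.trans (le_of_eq ?_)
      rw [pow_add]
      field_simp
  have h2 : ∀ z, ∃ x, Tendsto (fun n => F n z) atTop (𝓝 x) := fun z => by
    obtain ⟨N, hN⟩ := hU z
    obtain ⟨x, hx⟩ := cauchySeq_tendsto_of_complete
      (cauchySeq_of_le_geometric_two (f := fun n => F (n + N) z) (h1 N z (mem_of_mem_nhds hN)))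
    exact ⟨x, (tendsto_add_atTop_iff_nat N).1 hx⟩
  choose G hG using h2
  have h3 : ∀ N, ∀ z ∈ B N, dist (F N z) (G z) ≤ C / 2 ^ N := fun N z hz => by
    simpa using dist_le_of_le_geometric_two_of_tendsto₀ (f := fun n => F (n + N) z) (h1 N z hz)
      ((tendsto_add_atTop_iff_nat N).2 (hG z))
  refine ⟨G, fun z => ?_, fun z hz => by simpa using h3 0 z hz⟩
  obtain ⟨N, hN⟩ := hU z
  refine hol_lim (F := F) hN ?_ (Metric.tendstoUniformlyOn_iff.2 fun ε hε => ?_)
  · filter_upwards [eventually_ge_atTop N] with n hn w hw using hF n w (hB hn hw)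
  · have h4 : Tendsto (fun n : ℕ => C / 2 ^ n) atTop (𝓝 0) :=
      (tendsto_pow_atTop_atTop_of_one_lt one_lt_two).const_div_atTop C
    filter_upwards [eventually_ge_atTop N, h4.eventually (gt_mem_nhds hε)] with n hn h5 w hw
    rw [dist_comm]
    exact (h3 n w (hB hn hw)).trans_lt h5

theorem oka_of_step (h : ∀ (m : ℕ) (K : Set (EuclideanSpace ℂ (Fin m)))
      (f : EuclideanSpace ℂ (Fin m) → X) (ε R : ℝ), K.Nonempty → IsCompact K → Convex ℝ K →
      (∀ z ∈ K, Hol f z) → 0 < ε → ∃ F : EuclideanSpace ℂ (Fin m) → X,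
        (∀ z ∈ closedBall (0 : EuclideanSpace ℂ (Fin m)) R, Hol F z) ∧
        ∀ z ∈ K, dist (F z) (f z) < ε) : IsOka X := by
  intro m K U f ε hne hK hc hU hKU hf hε
  obtain ⟨R, hR⟩ := hK.isBounded.subset_closedBall 0
  have hB : Monotone fun n : ℕ => closedBall (0 : EuclideanSpace ℂ (Fin m)) (R + n) :=
    fun a b hab => closedBall_subset_closedBall (by gcongr)
  have h0 : K ⊆ closedBall 0 (R + (0 : ℕ)) := by simpa using hR
  obtain ⟨F₀, a1, a2⟩ := h m K f (ε / 2) (R + (0 : ℕ)) hne hK hc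
    (fun z hz => hol_of_mdiff hU hf (hKU hz)) (half_pos hε)
  have step : ∀ (n : ℕ) (G : EuclideanSpace ℂ (Fin m) → X), ∃ G' : EuclideanSpace ℂ (Fin m) → X,
      (∀ z ∈ closedBall (0 : EuclideanSpace ℂ (Fin m)) (R + n), Hol G z) →
        (∀ z ∈ closedBall (0 : EuclideanSpace ℂ (Fin m)) (R + (n + 1 : ℕ)), Hol G' z) ∧
          ∀ z ∈ closedBall (0 : EuclideanSpace ℂ (Fin m)) (R + n),
            dist (G z) (G' z) ≤ ε / 2 / 2 / 2 ^ n := fun n G => by
    by_cases hG : ∀ z ∈ closedBall (0 : EuclideanSpace ℂ (Fin m)) (R + n), Hol G z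
    · obtain ⟨G', b1, b2⟩ := h m _ G (ε / 2 / 2 / 2 ^ n) (R + (n + 1 : ℕ))
        (hne.mono (h0.trans (hB (Nat.zero_le n)))) (isCompact_closedBall _ _)
        (convex_closedBall _ _) hG (by positivity)
      exact ⟨G', fun _ => ⟨b1, fun z hz => by rw [dist_comm]; exact (b2 z hz).le⟩⟩
    · exact ⟨G, fun h' => (hG h').elim⟩
  choose S hS using step
  let F : ℕ → EuclideanSpace ℂ (Fin m) → X := fun n => Nat.rec F₀ S n
  have hF : ∀ n : ℕ, ∀ z ∈ closedBall (0 : EuclideanSpace ℂ (Fin m)) (R + n), Hol (F n) z := by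
    intro n
    induction n with
    | zero => exact a1
    | succ n ih => exact (hS n _ ih).1
  obtain ⟨G, c1, c2⟩ := Lim.lim hB (fun z => by
    obtain ⟨n, hn⟩ := exists_nat_gt (dist z 0 - R)
    exact ⟨n, closedBall_mem_nhds_of_mem (mem_ball.2 (by linarith))⟩) hF
    fun n => (hS n _ (hF n)).2
  refine ⟨G, fun z => (c1 z).mdiff, fun z hz => ?_⟩
  have d1 : dist (F₀ z) (G z) ≤ ε / 2 := c2 z (h0 hz)
  linarith [a2 z hz, dist_triangle_left (G z) (f z) (F₀ z)]

theorem IsOka.approx (h : IsOka X) {m : ℕ} {K : Set (EuclideanSpace ℂ (Fin m))}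
    {f : EuclideanSpace ℂ (Fin m) → X} (hne : K.Nonempty) (hK : IsCompact K) (hc : Convex ℝ K)
    (hf : ∀ z ∈ K, Hol f z) {ε : ℝ} (hε : 0 < ε) :
    ∃ F : EuclideanSpace ℂ (Fin m) → X, (∀ z, Hol F z) ∧ ∀ z ∈ K, dist (F z) (f z) < ε := by
  obtain ⟨F, h1, h2⟩ := h m K {z | Hol f z} f ε hne hK hc
    (isOpen_iff_mem_nhds.2 fun z hz => Hol.ev hz) hf
    (fun z hz => (Hol.mdiff hz).mdifferentiableWithinAt) hε
  exact ⟨F, fun z => hol_of_mdiff isOpen_univ h1.mdifferentiableOn (mem_univ z), h2⟩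

end Vale.Agent.P290
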