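import Vale.Agent.P290D.DL
import Vale.Agent.P290D.Lim
import Vale.Agent.P290D.Cnt

/-! The Oka fibres of a family. -/

open Set Filter Metric
open scoped Manifold ContDiff Topology

noncomputable section

namespace Vale.Agent.P290

variable {T : Type} [NormedAddCommGroup T] [NormedSpace ℂ T] [FiniteDimensional ℂ T]
  {Y : Type} [MetricSpace Y] [ChartedSpace (C2 × T) Y] [IsManifold 𝓘(ℂ, C2 × T) ω Y]
  {E : Type} [NormedAddCommGroup E] [NormedSpace ℂ E] [FiniteDimensional ℂ E]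

/-- The parameters with a holomorphic map on `P'` that is close to `u` on `P`. -/
def BaireS (B : Set T) {X : T → Type} [∀ t, TopologicalSpace (X t)] [∀ t, ChartedSpace C2 (X t)]
    (j : ∀ t, X t → Y) (P P' : Set E) (u : P → Y) (r : ℝ) : Set T :=
  {t | t ∈ B ∧ ∃ f : E → X t, (∀ z ∈ P', Hol f z) ∧ ∀ z : P, dist (j t (f z)) (u z) < r}

theorem baire_gap {Z : Type} [TopologicalSpace Z] {S : Set Z} (hS : IsCompact S) {Y : Type}
    [PseudoMetricSpace Y] {g u : Z → Y} (hg : Continuous g) (hu : Continuous u) {r : ℝ}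
    (h : ∀ z ∈ S, dist (g z) (u z) < r) : ∃ ε : ℝ, 0 < ε ∧ ∀ z ∈ S, dist (g z) (u z) + ε ≤ r := by
  obtain ⟨ε, h0, h1⟩ := hS.exists_forall_le' (f := fun z => r - dist (g z) (u z))
    (continuous_const.sub (hg.dist hu)).continuousOn (a := 0) fun z hz => sub_pos.2 (h z hz)
  exact ⟨ε, h0, fun z hz => by linarith [h1 z hz]⟩

section
variable {B : Set T} {p : Y → T} {X : T → Type} [∀ t, MetricSpace (X t)]
  [∀ t, ChartedSpace C2 (X t)] {j : ∀ t, X t → Y}

omit [FiniteDimensional ℂ T] [IsManifold 𝓘(ℂ, C2 × T) ω Y] in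
theorem baire_cont (h : Family B p X j) {t : T} (ht : t ∈ B) : Continuous (j t) :=
  continuous_iff_continuousAt.2 fun x => (h.emb t ht x).1.continuousAt

omit [FiniteDimensional ℂ T] [IsManifold 𝓘(ℂ, C2 × T) ω Y] [FiniteDimensional ℂ E] in
theorem baire_cont' (h : Family B p X j) {t : T} (ht : t ∈ B) {P : Set E} {f : E → X t}
    (hf : ∀ z ∈ P, Hol f z) : Continuous fun z : P => j t (f z) :=
  (baire_cont h ht).comp (continuous_iff_continuousAt.2 fun z =>
    ContinuousAt.comp (f := fun z : P => (z : E)) (hf z z.2).continuousAt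
      continuous_subtype_val.continuousAt)

theorem baire_open (h : Family B p X j) (hB : IsOpen B) {P P' : Set E} (hP : IsCompact P)
    (hP' : IsCompact P') (hc : Convex ℝ P') (hne : P'.Nonempty) (hs : P ⊆ P') {u : P → Y}
    (hu : Continuous u) (r : ℝ) : IsOpen (BaireS B j P P' u r) := by
  have := isCompact_iff_compactSpace.1 hP
  refine isOpen_iff_mem_nhds.2 fun t ⟨ht, f, hf, hr⟩ => ?_
  obtain ⟨ε, h0, h1⟩ := baire_gap isCompact_univ (baire_cont' h ht fun z hz => hf z (hs hz)) hu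
    fun z _ => hr z
  filter_upwards [hB.mem_nhds ht, deform h hB ht hP' hc hne hf h0] with s hs1 ⟨f', hf'⟩
  refine ⟨hs1, f', fun z hz => (hf' z hz).1, fun z => ?_⟩
  linarith [dist_triangle (j s (f' z)) (j t (f z)) (u z), (hf' z (hs z.2)).2, h1 z trivial]

theorem baire_dense (h : Family B p X j) (hB : IsOpen B) (hc : ∀ t ∈ B, CompactSpace (X t))
    (hd : B ⊆ closure {t ∈ B | IsOka (X t)}) {m : ℕ} {P : Set (EuclideanSpace ℂ (Fin m))}
    (P' : Set (EuclideanSpace ℂ (Fin m))) (hP : IsCompact P) (hv : Convex ℝ P) (hne : P.Nonempty)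
    {u : P → Y} (hu : Continuous u) (r : ℝ) :
    Dense (BaireS B j P P' u r ∪ (closure (BaireS B j P P u r))ᶜ) := by
  have := isCompact_iff_compactSpace.1 hP
  refine dense_iff_inter_open.2 fun W hW ⟨w, hw⟩ => ?_
  by_cases h1 : w ∈ closure (BaireS B j P P u r)
  swap
  · exact ⟨w, hw, Or.inr h1⟩
  obtain ⟨s, hs, hs'⟩ := mem_closure_iff.1 h1 W hW hw
  obtain ⟨t, ⟨ht, htB, f, hf, hr⟩, -, hO⟩ := mem_closure_iff.1 (hd hs'.1) _
    (hW.inter (baire_open h hB hP hP hv hne Subset.rfl hu r)) ⟨hs, hs'⟩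
  have := hc t htB
  have := h.mfd t htB
  obtain ⟨ε, h0, h2⟩ := baire_gap isCompact_univ (baire_cont' h htB hf) hu fun z _ => hr z
  obtain ⟨δ, hδ, h3⟩ := Metric.uniformContinuous_iff.1
    (CompactSpace.uniformContinuous_of_continuous (baire_cont h htB)) ε h0
  obtain ⟨F, hF, h4⟩ := hO.approx hne hP hv hf hδ
  refine ⟨t, ht, Or.inl ⟨htB, F, fun z _ => hF z, fun z => ?_⟩⟩
  linarith [dist_triangle (j t (F z)) (j t (f z)) (u z), h3 (h4 z z.2), h2 z trivial]

theorem baire_step [SecondCountableTopology Y] (h : Family B p X j) (hB : IsOpen B)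
    (hc : ∀ t ∈ B, CompactSpace (X t)) (hd : B ⊆ closure {t ∈ B | IsOka (X t)}) (m : ℕ) :
    ∀ᶠ t in residual T, t ∈ B → ∀ (K : Set (EuclideanSpace ℂ (Fin m)))
      (f : EuclideanSpace ℂ (Fin m) → X t) (ε R : ℝ), K.Nonempty → IsCompact K → Convex ℝ K →
      (∀ z ∈ K, Hol f z) → 0 < ε → ∃ F : EuclideanSpace ℂ (Fin m) → X t,
        (∀ z ∈ closedBall (0 : EuclideanSpace ℂ (Fin m)) R, Hol F z) ∧
        ∀ z ∈ K, dist (F z) (f z) < ε := by
  obtain ⟨Q, hQ, hQ1, hQ2⟩ := exists_cnt (E := EuclideanSpace ℂ (Fin m))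
  have hD : ∀ P ∈ Q, ∃ D : Set C(P, Y), D.Countable ∧ Dense D := fun P hP => by
    have := isCompact_iff_compactSpace.1 (hQ1 P hP).1
    exact TopologicalSpace.exists_countable_dense _
  choose D hD1 hD2 using hD
  have key : ∀ᶠ t in residual T, ∀ P, ∀ hP : P ∈ Q, ∀ P' ∈ Q, ∀ u ∈ D P hP, ∀ k : ℕ,
      P.Nonempty → P ⊆ P' → t ∈ BaireS B j P P' u (1 / ((k : ℝ) + 1)) ∪
        (closure (BaireS B j P P u (1 / ((k : ℝ) + 1))))ᶜ := by
    refine (eventually_countable_ball hQ).2 fun P hP => (eventually_countable_ball hQ).2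
      fun P' hP' => (eventually_countable_ball (hD1 P hP)).2 fun u _ =>
        eventually_countable_forall.2 fun k => ?_
    by_cases h1 : P.Nonempty ∧ P ⊆ P'
    · refine mem_of_superset (residual_of_dense_open ((baire_open h hB (hQ1 P hP).1 (hQ1 P' hP').1
        (hQ1 P' hP').2 (h1.1.mono h1.2) h1.2 u.continuous _).union isClosed_closure.isOpen_compl)
        (baire_dense h hB hc hd P' (hQ1 P hP).1 (hQ1 P hP).2 h1.1 u.continuous _))
        fun t ht _ _ => ht
    · exact Eventually.of_forall fun t h2 h3 => (h1 ⟨h2, h3⟩).elim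
  filter_upwards [key] with t ht htB K f ε R hne hK hv hf hε
  have := hc t htB
  have := h.mfd t htB
  obtain ⟨P, hP, hKP, hPU⟩ := hQ2 K {z | Hol f z} hK hv (mem_nhdsSet_iff_forall.2 fun z hz =>
    (contMDiffAt_iff_contMDiffAt_nhds (by simp)).1 (hf z hz))
  obtain ⟨R', hR'⟩ := ((hQ1 P hP).1.isBounded.union
    (isBounded_closedBall (x := (0 : EuclideanSpace ℂ (Fin m))) (r := R))).subset_closedBall 0
  obtain ⟨P', hP', hP1, -⟩ := hQ2 _ univ (isCompact_closedBall 0 R') (convex_closedBall 0 R')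
    univ_mem
  obtain ⟨δ, hδ, h1⟩ := (isClosed_le (continuous_const (y := ε))
    (continuous_dist (α := X t))).isCompact.exists_forall_le'
    (f := fun q : X t × X t => dist (j t q.1) (j t q.2))
    (((baire_cont h htB).comp continuous_fst).dist
      ((baire_cont h htB).comp continuous_snd)).continuousOn (a := 0) fun q hq =>
      dist_pos.2 fun e => (hε.trans_le hq).ne' (dist_eq_zero.2 (h.inj t htB e))
  obtain ⟨k, hk⟩ := exists_nat_one_div_lt (half_pos hδ)
  have := isCompact_iff_compactSpace.1 (hQ1 P hP).1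
  have hr : (0 : ℝ) < 1 / ((k : ℝ) + 1) := Nat.one_div_pos_of_nat
  obtain ⟨u, hu, hu'⟩ := (hD2 P hP).exists_dist_lt ⟨_, baire_cont' h htB hPU⟩ hr
  have h2 : ∀ z : P, dist (j t (f z)) (u z) < 1 / ((k : ℝ) + 1) := fun z =>
    (ContinuousMap.dist_apply_le_dist (f := ⟨_, baire_cont' h htB hPU⟩) (g := u) z).trans_lt hu'
  obtain ⟨-, F, hF, h3⟩ := (ht P hP P' hP' u hu k (hne.mono hKP)
    (subset_union_left.trans (hR'.trans hP1))).resolve_right
    (not_not.2 (subset_closure ⟨htB, f, hPU, h2⟩))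
  refine ⟨F, fun z hz => hF z (hP1 (hR' (Or.inr hz))), fun z hz => not_le.1 fun h4 => ?_⟩
  have h5 : δ ≤ dist (j t (F z)) (j t (f z)) := h1 (F z, f z) h4
  linarith [dist_triangle_right (j t (F z)) (j t (f z)) (u ⟨z, hKP hz⟩), h2 ⟨z, hKP hz⟩,
    h3 ⟨z, hKP hz⟩]

end

theorem residual_oka [SecondCountableTopology Y] {B : Set T} {p : Y → T} {X : T → Type}
    [∀ t, MetricSpace (X t)] [∀ t, ChartedSpace C2 (X t)] {j : ∀ t, X t → Y}
    (h : Family B p X j) (hB : IsOpen B) (hc : ∀ t ∈ B, CompactSpace (X t))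
    (hd : B ⊆ closure {t ∈ B | IsOka (X t)}) : ∀ᶠ t in residual T, t ∈ B → IsOka (X t) := by
  filter_upwards [eventually_countable_forall.2 (baire_step h hB hc hd)] with t ht htB
  have := hc t htB
  have := h.mfd t htB
  exact oka_of_step fun m => ht m htB

end Vale.Agent.P290
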