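import Vale.Agent.P290D.Defs

/-! The Cauchy formula on a rectangle. -/

open Set Filter Metric
open scoped Manifold ContDiff Topology

noncomputable section

namespace Vale.Agent.P290

variable {E V T W : Type} [NormedAddCommGroup E] [NormedSpace ℂ E] [FiniteDimensional ℂ E]
  [NormedAddCommGroup V] [NormedSpace ℂ V] [FiniteDimensional ℂ V] [NormedAddCommGroup T]
  [NormedSpace ℂ T] [FiniteDimensional ℂ T] [NormedAddCommGroup W] [NormedSpace ℂ W]
  [FiniteDimensional ℂ W]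

theorem DCau.split [CompleteSpace V] {g : ℂ → V} {z : ℂ} {γ : ℝ → ℂ} {a b : ℝ} {K : Set ℂ}
    (hγ : Continuous γ) (hz : ∀ t, γ t ≠ z) (hg : ContinuousOn (dslope g z) K)
    (hK : ∀ t ∈ uIcc a b, γ t ∈ K) :
    ∫ t in a..b, (γ t - z)⁻¹ • g (γ t) =
      (∫ t in a..b, dslope g z (γ t)) + (∫ t in a..b, 1 / (γ t - z)) • g z := by
  have h1 : Continuous fun t => 1 / (γ t - z) :=
    continuous_const.div (hγ.sub continuous_const) fun t => sub_ne_zero.2 (hz t)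
  have h2 : ContinuousOn (fun t => dslope g z (γ t)) (uIcc a b) := hg.comp hγ.continuousOn hK
  have h3 : Continuous fun t => (1 / (γ t - z)) • g z := h1.smul continuous_const
  rw [← intervalIntegral.integral_smul_const, ← intervalIntegral.integral_add h2.intervalIntegrable
    (h3.intervalIntegrable a b)]
  refine intervalIntegral.integral_congr fun t _ => ?_
  simp only [dslope_of_ne g (hz t), slope, vsub_eq_sub, one_div, smul_sub, sub_add_cancel]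

theorem isCompact_rc (x₀ x₁ y₀ y₁ : ℝ) : IsCompact (Rc x₀ x₁ y₀ y₁) :=
  isCompact_Icc.reProdIm isCompact_Icc

theorem interior_rc (x₀ x₁ y₀ y₁ : ℝ) :
    interior (Rc x₀ x₁ y₀ y₁) = {z | z.re ∈ Ioo x₀ x₁ ∧ z.im ∈ Ioo y₀ y₁} := by
  have h := Complex.interior_reProdIm (Icc x₀ x₁) (Icc y₀ y₁)
  rw [interior_Icc, interior_Icc] at h
  exact h

theorem cauchy_rc {x₀ x₁ y₀ y₁ : ℝ} {g : ℂ → V} (hg : AA (Rc x₀ x₁ y₀ y₁) g) {z : ℂ}
    (hz : z ∈ interior (Rc x₀ x₁ y₀ y₁)) :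
    bint x₀ x₁ y₀ y₁ (fun ζ => (ζ - z)⁻¹ • g ζ) = (2 * Real.pi * Complex.I : ℂ) • g z := by
  have := FiniteDimensional.complete ℂ V
  have hz' := hz
  rw [interior_rc] at hz'
  obtain ⟨hx, hy⟩ := hz'
  have lx : x₀ ≤ x₁ := (hx.1.trans hx.2).le
  have ly : y₀ ≤ y₁ := (hy.1.trans hy.2).le
  have hn := isOpen_interior.mem_nhds hz
  have hc : ContinuousOn (dslope g z) (Rc x₀ x₁ y₀ y₁) :=
    (continuousOn_dslope (mem_interior_iff_mem_nhds.1 hz)).2 ⟨hg.1, hg.2.differentiableAt hn⟩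
  have hd : DifferentiableOn ℂ (dslope g z) (interior (Rc x₀ x₁ y₀ y₁)) :=
    (Complex.differentiableOn_dslope hn).2 hg.2
  rw [interior_rc] at hd
  have h0 := Complex.integral_boundary_rect_eq_zero_of_continuousOn_of_differentiableOn
    (dslope g z) ⟨x₀, y₀⟩ ⟨x₁, y₁⟩ (by
      rw [uIcc_of_le lx, uIcc_of_le ly]
      exact hc) (by
      rw [min_eq_left lx, max_eq_right lx, min_eq_left ly, max_eq_right ly]
      exact hd)
  have h1 := cauchy_rect (f := fun _ => 1) (fun _ _ _ => analyticAt_const) hx hy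
  have i0 : ∀ x y : ℝ, ((x : ℂ) + y * Complex.I).im = y := fun x y => by simp
  have r0 : ∀ x y : ℝ, ((x : ℂ) + y * Complex.I).re = x := fun x y => by simp
  have n1 : ∀ x y : ℝ, y ≠ z.im → (x : ℂ) + y * Complex.I ≠ z := fun x y h h' =>
    h (by rw [← h', i0])
  have n2 : ∀ x y : ℝ, x ≠ z.re → (x : ℂ) + y * Complex.I ≠ z := fun x y h h' =>
    h (by rw [← h', r0])
  have a1 : ∀ y ∈ Icc y₀ y₁, ∀ t ∈ uIcc x₀ x₁, (t : ℂ) + y * Complex.I ∈ Rc x₀ x₁ y₀ y₁ :=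
    fun y h t ht => ⟨by rwa [r0, ← uIcc_of_le lx], by rwa [i0]⟩
  have a2 : ∀ x ∈ Icc x₀ x₁, ∀ t ∈ uIcc y₀ y₁, (x : ℂ) + t * Complex.I ∈ Rc x₀ x₁ y₀ y₁ :=
    fun x h t ht => ⟨by rwa [r0], by rwa [i0, ← uIcc_of_le ly]⟩
  have s1 := DCau.split (γ := fun x : ℝ => (x : ℂ) + y₀ * Complex.I) (by fun_prop)
    (fun t => n1 t _ hy.1.ne) hc (a1 y₀ (left_mem_Icc.2 ly))
  have s2 := DCau.split (γ := fun x : ℝ => (x : ℂ) + y₁ * Complex.I) (by fun_prop)
    (fun t => n1 t _ hy.2.ne') hc (a1 y₁ (right_mem_Icc.2 ly))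
  have s3 := DCau.split (γ := fun y : ℝ => (x₁ : ℂ) + y * Complex.I) (by fun_prop)
    (fun t => n2 _ t hx.2.ne') hc (a2 x₁ (right_mem_Icc.2 lx))
  have s4 := DCau.split (γ := fun y : ℝ => (x₀ : ℂ) + y * Complex.I) (by fun_prop)
    (fun t => n2 _ t hx.1.ne) hc (a2 x₀ (left_mem_Icc.2 lx))
  rw [mul_one] at h1
  unfold bint
  simp only at h0 h1 ⊢
  rw [s1, s2, s3, s4, h1]
  linear_combination (norm := module) h0

end Vale.Agent.P290
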