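import Vale.Agent.P290D.DCau

/-! Integrals depending holomorphically on parameters. -/

open Set Filter Metric
open scoped Manifold ContDiff Topology

noncomputable section

namespace Vale.Agent.P290

variable {E V T W : Type} [NormedAddCommGroup E] [NormedSpace ℂ E] [FiniteDimensional ℂ E]
  [NormedAddCommGroup V] [NormedSpace ℂ V] [FiniteDimensional ℂ V] [NormedAddCommGroup T]
  [NormedSpace ℂ T] [FiniteDimensional ℂ T] [NormedAddCommGroup W] [NormedSpace ℂ W]
  [FiniteDimensional ℂ W]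

theorem DInt.unif {α β γ : Type} [PseudoMetricSpace α] [PseudoMetricSpace β] [NormedAddCommGroup γ]
    {A : Set α} {B : Set β} (hA : IsCompact A) (hB : IsCompact B) {f : α × β → γ}
    (hf : ContinuousOn f (A ×ˢ B)) {ε : ℝ} (hε : 0 < ε) : ∃ δ > 0, ∀ s ∈ A, ∀ s' ∈ A,
      dist s s' < δ → ∀ z ∈ B, ‖f (s, z) - f (s', z)‖ ≤ ε := by
  obtain ⟨δ, hδ, h⟩ := Metric.uniformContinuousOn_iff.1
    ((hA.prod hB).uniformContinuousOn_of_continuous hf) ε hε
  refine ⟨δ, hδ, fun s hs s' hs' h1 z hz => ?_⟩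
  rw [← dist_eq_norm]
  exact (h (s, z) ⟨hs, hz⟩ (s', z) ⟨hs', hz⟩ (by rwa [dist_prod_same_right])).le

theorem diff_integral {H : ℝ → E → V} {U : Set E} (hU : IsOpen U) {a b : ℝ}
    (hc : ContinuousOn (fun q : ℝ × E => H q.1 q.2) (uIcc a b ×ˢ U))
    (hd : ∀ s ∈ uIcc a b, DifferentiableOn ℂ (H s) U) :
    DifferentiableOn ℂ (fun z => ∫ s in a..b, H s z) U := fun c hcU => by
  have := FiniteDimensional.proper ℂ E
  have := FiniteDimensional.complete ℂ V
  obtain ⟨R, hR, hRU⟩ := nhds_basis_closedBall.mem_iff.1 (hU.mem_nhds hcU)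
  have hc' := hc.mono (prod_mono_right (s := uIcc a b) hRU)
  obtain ⟨M, hM⟩ := (isCompact_uIcc.prod (isCompact_closedBall c R)).exists_bound_of_continuousOn hc'
  have hb : ∀ s ∈ uIcc a b, DifferentiableOn ℂ (H s) (ball c R) := fun s hs =>
    (hd s hs).mono (ball_subset_closedBall.trans hRU)
  have hD : ContinuousOn (fun s => fderiv ℂ (H s) c) (uIcc a b) := by
    refine Metric.continuousOn_iff.2 fun s' hs' ε hε => ?_
    obtain ⟨δ, hδ, h⟩ := DInt.unif isCompact_uIcc (isCompact_closedBall c R) hc'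
      (ε := ε * R / 4) (by positivity)
    refine ⟨δ, hδ, fun s hs h1 => ?_⟩
    rw [dist_eq_norm, ← fderiv_fun_sub ((hb s hs).differentiableAt (ball_mem_nhds c hR))
      ((hb s' hs').differentiableAt (ball_mem_nhds c hR))]
    refine (P278F.norm_fderiv_le hR ((hb s hs).sub (hb s' hs'))
      fun z hz => h s hs s' hs' h1 z (ball_subset_closedBall hz)).trans_lt ?_
    rw [div_lt_iff₀ hR]
    nlinarith [mul_pos hε hR]
  have hI : ∀ z ∈ ball c R, IntervalIntegrable (fun s => H s z) MeasureTheory.volume a b :=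
    fun z hz => (hc'.comp (f := fun s => (s, z)) (by fun_prop) fun s hs =>
      ⟨hs, ball_subset_closedBall hz⟩).intervalIntegrable
  refine (P278F.hasFDerivAt_of_sq (L := ∫ s in a..b, fderiv ℂ (H s) c)
    (C := 4 * M / R ^ 2 * |b - a|) hR fun z hz => ?_).differentiableAt.differentiableWithinAt
  have h1 := hI z hz
  have h2 := hI c (mem_ball_self hR)
  rw [ContinuousLinearMap.intervalIntegral_apply hD.intervalIntegrable,
    ← intervalIntegral.integral_sub h1 h2, ← intervalIntegral.integral_sub (h1.sub h2)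
      (hD.clm_apply continuousOn_const).intervalIntegrable, mul_right_comm]
  refine intervalIntegral.norm_integral_le_of_norm_le_const fun s hs => ?_
  have hs' := uIoc_subset_uIcc hs
  exact P278F.second_order (hb s hs') (fun y hy => hM (s, y) ⟨hs', ball_subset_closedBall hy⟩) hz

theorem bdry_diff {x₀ x₁ y₀ y₁ : ℝ} (hx : x₀ < x₁) (hy : y₀ < y₁) {Ω : Set W} (hΩ : IsCompact Ω)
    {h : ℂ × W → V} (hh : AA (Rc x₀ x₁ y₀ y₁ ×ˢ Ω) h) {ζ : ℂ} (hζ : ζ ∈ Rc x₀ x₁ y₀ y₁) :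
    DifferentiableOn ℂ (fun y => h (ζ, y)) (interior Ω) := fun c hc => by
  have := FiniteDimensional.complete ℂ V
  obtain ⟨R, hR, hRU⟩ := Metric.isOpen_iff.1 isOpen_interior c hc
  have h1 : ζ ∈ closure (interior (Rc x₀ x₁ y₀ y₁)) := by
    rw [interior_rc]
    change ζ ∈ closure (Ioo x₀ x₁ ×ℂ Ioo y₀ y₁)
    rw [Complex.closure_reProdIm, closure_Ioo hx.ne, closure_Ioo hy.ne]
    exact hζ
  have h2 : ∀ n : ℕ, ∃ ξ ∈ interior (Rc x₀ x₁ y₀ y₁), ∀ z ∈ Ω,
      ‖h (ξ, z) - h (ζ, z)‖ ≤ 1 / ((n : ℝ) + 1) := fun n => by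
    obtain ⟨δ, hδ, h3⟩ := DInt.unif (isCompact_rc x₀ x₁ y₀ y₁) hΩ hh.1
      (ε := 1 / ((n : ℝ) + 1)) (by positivity)
    obtain ⟨ξ, hξ, h4⟩ := Metric.mem_closure_iff.1 h1 δ hδ
    exact ⟨ξ, hξ, h3 ξ (interior_subset hξ) ζ hζ (by rwa [dist_comm])⟩
  choose ξ hξ h3 using h2
  refine (P278F.differentiableAt_of_unif (f := fun n y => h (ξ n, y)) hR (fun n => ?_)
    tendsto_one_div_add_atTop_nhds_zero_nat fun n z hz =>
      h3 n z (interior_subset (hRU hz))).differentiableWithinAt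
  refine hh.2.comp (f := fun y => (ξ n, y)) (by fun_prop) fun y hy => ?_
  rw [interior_prod_eq]
  exact ⟨hξ n, hRU hy⟩

end Vale.Agent.P290
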