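import Vale.Agent.P290D.YAdc

/-! Maps into a fibre. -/

open Set Filter Metric
open scoped Manifold ContDiff Topology

noncomputable section

namespace Vale.Agent.P290

variable {T : Type} [NormedAddCommGroup T] [NormedSpace ℂ T] [FiniteDimensional ℂ T]
  {Y : Type} [TopologicalSpace Y] [ChartedSpace (C2 × T) Y] [IsManifold 𝓘(ℂ, C2 × T) ω Y]
  {E : Type} [NormedAddCommGroup E] [NormedSpace ℂ E] [FiniteDimensional ℂ E]
  {A : Type} [NormedAddCommGroup A] [NormedSpace ℂ A] [FiniteDimensional ℂ A]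
  {p : Y → T} {t₀ : T} {S S₁ S₂ : Set E} {g : E → Y} {G G₁ G₂ : E × C2 × T → Y}

variable {B : Set T} {X : T → Type} [∀ t, TopologicalSpace (X t)] [∀ t, ChartedSpace C2 (X t)]
  {j : ∀ t, X t → Y}

namespace LiftF

theorem inv {u : A → A} {a : A} (hu : AnalyticAt ℂ u a) (hi : Function.Injective (fderiv ℂ u a)) :
    ∃ ρ : A → A, AnalyticAt ℂ ρ (u a) ∧ ρ (u a) = a ∧ ∀ᶠ b in 𝓝 (u a), u (ρ b) = b := by
  have := FiniteDimensional.complete ℂ A
  have hb : Function.Bijective (fderiv ℂ u a) :=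
    ⟨hi, LinearMap.injective_iff_surjective (f := (fderiv ℂ u a : A →ₗ[ℂ] A)).1 hi⟩
  set L : A ≃L[ℂ] A := ContinuousLinearEquiv.ofBijective (fderiv ℂ u a)
    (LinearMap.ker_eq_bot.2 hb.1) (LinearMap.range_eq_top.2 hb.2) with hL
  have hd : HasFDerivAt u (L : A →L[ℂ] A) a := hu.differentiableAt.hasFDerivAt
  have hc : ContDiffAt ℂ ω u a := hu.contDiffAt
  exact ⟨hc.localInverse hd Mfd.ne0, (hc.to_localInverse hd Mfd.ne0).analyticAt,
    hc.localInverse_apply_image hd Mfd.ne0,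
    (hc.hasStrictFDerivAt' hd Mfd.ne0).eventually_right_inverse⟩

end LiftF


theorem Family.hol (h : Family B p X j) {t : T} (ht : t ∈ B) {f : E → X t} {z : E}
    (hf : Hol f z) : HolY T (fun w => j t (f w)) z :=
  ContMDiffAt.comp z (h.emb t ht (f z)).1 hf

theorem Family.ov (h : Family B p X j) {t : T} (ht : t ∈ B) (x : X t) : p (j t x) = t := by
  have h1 : j t x ∈ p ⁻¹' {t} := h.rng t ht ▸ mem_range_self x
  exact h1

theorem Family.lift_at (h : Family B p X j) {t : T} (ht : t ∈ B) {f : E → X t} {z : E}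
    (hg : HolY T g z) (e : ∀ᶠ w in 𝓝 z, j t (f w) = g w) : Hol f z := by
  have := h.mfd t ht
  have hs := mem_chart_source C2 (f z)
  have hq := (chartAt C2 (f z)).map_source hs
  have hl := (chartAt C2 (f z)).left_inv hs
  have h1 := hol_symm (f z) hq
  have h2 := h.hol ht h1
  obtain ⟨Φ, Ψ, hA⟩ := exists_adc h.sub (g z)
  have e0 : j t ((chartAt C2 (f z)).symm (chartAt C2 (f z) (f z))) = g z := by
    rw [hl]
    exact e.self_of_nhds
  have hA' : Adc p ((fun q => j t ((chartAt C2 (f z)).symm q)) (chartAt C2 (f z) (f z))) Φ Ψ := by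
    simpa only [e0] using hA
  have h3 : Function.Injective
      (difY T (fun q => j t ((chartAt C2 (f z)).symm q)) (chartAt C2 (f z) (f z))) := by
    have h4 := mfderiv_comp (chartAt C2 (f z) (f z))
      ((h.emb t ht _).1.mdifferentiableAt Mfd.ne0) h1.mdiff
    have h5 := (h.emb t ht ((chartAt C2 (f z)).symm (chartAt C2 (f z) (f z)))).2.comp
      (dif_symm_bij (f z) hq).1
    intro a b hab
    refine h5 ?_
    have h6 := DFunLike.congr_fun h4 a
    have h7 := DFunLike.congr_fun h4 b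
    exact h6.symm.trans (hab.trans h7)
  have h8 := (Adc.inj_iff (g := fun q => j t ((chartAt C2 (f z)).symm q)) hA' h2
    (Eventually.of_forall fun w => by simp only [h.ov ht])).1 h3
  obtain ⟨ρ, r1, r2, r3⟩ := LiftF.inv
    (HolYF.comp (g := fun q => j t ((chartAt C2 (f z)).symm q)) hA'.hΦ h2) h8
  simp only [e0] at r1 r2 r3
  have a1 : AnalyticAt ℂ (fun w => Φ (g w)) z := hA.hΦ.comp hg
  have a2 : AnalyticAt ℂ (fun w => ρ (Φ (g w))) z := r1.comp (f := fun w => Φ (g w)) a1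
  have a3 : Hol (fun w => (chartAt C2 (f z)).symm (ρ (Φ (g w)))) z :=
    Hol.comp (g := fun w => ρ (Φ (g w))) (by simpa only [r2] using h1) a2
  refine a3.congr ?_
  have t1 : Tendsto (fun w => j t ((chartAt C2 (f z)).symm (ρ (Φ (g w))))) (𝓝 z) (𝓝 (g z)) := by
    have := (h.hol ht a3).cont.tendsto
    simpa only [r2, e0] using this
  filter_upwards [e, a1.continuousAt.tendsto.eventually r3, t1.eventually hA.left,
    hg.cont.tendsto.eventually hA.left] with w w1 w2 w3 w4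
  refine h.inj t ht ?_
  have w5 : p (g w) = t := by rw [← w1, h.ov ht]
  rw [← w3, w2, h.ov ht, w1, ← w5, w4]

theorem Family.lift (h : Family B p X j) {t : T} (ht : t ∈ B) (hne : S.Nonempty)
    (hg : ∀ z ∈ S, HolY T g z ∧ ∀ᶠ w in 𝓝 z, p (g w) = t) :
    ∃ f : E → X t, ∀ z ∈ S, Hol f z ∧ j t (f z) = g z := by
  have hr : ∀ w, p (g w) = t → ∃ x, j t x = g w := fun w hw => by
    have h1 : g w ∈ range (j t) := h.rng t ht ▸ hw
    exact h1
  obtain ⟨z₀, hz₀⟩ := hne
  have : Nonempty (X t) := ⟨(hr z₀ (hg z₀ hz₀).2.self_of_nhds).choose⟩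
  refine ⟨fun w => Function.invFun (j t) (g w), fun z hz => ?_⟩
  have e : ∀ᶠ w in 𝓝 z, j t (Function.invFun (j t) (g w)) = g w :=
    (hg z hz).2.mono fun w hw => Function.invFun_eq (hr w hw)
  exact ⟨h.lift_at ht (hg z hz).1 e, e.self_of_nhds⟩

end Vale.Agent.P290
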