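import Vale.Agent.P290D.SprG
import Vale.Agent.P290D.LiftF

/-! Maps into a fibre deform to the nearby fibres. -/

open Set Filter Metric
open scoped Manifold ContDiff Topology

noncomputable section

namespace Vale.Agent.P290

variable {T : Type} [NormedAddCommGroup T] [NormedSpace ℂ T] [FiniteDimensional ℂ T]
  {Y : Type} [MetricSpace Y] [ChartedSpace (C2 × T) Y] [IsManifold 𝓘(ℂ, C2 × T) ω Y]
  {E : Type} [NormedAddCommGroup E] [NormedSpace ℂ E] [FiniteDimensional ℂ E]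

theorem deform {B : Set T} {p : Y → T} {X : T → Type} [∀ t, TopologicalSpace (X t)]
    [∀ t, ChartedSpace C2 (X t)] {j : ∀ t, X t → Y} (h : Family B p X j) (hB : IsOpen B) {t₀ : T}
    (ht : t₀ ∈ B) {K : Set E} (hK : IsCompact K) (hc : Convex ℝ K) (hne : K.Nonempty)
    {f : E → X t₀} (hf : ∀ z ∈ K, Hol f z) {ε : ℝ} (hε : 0 < ε) :
    ∀ᶠ t in 𝓝 t₀, ∃ f' : E → X t, ∀ z ∈ K, Hol f' z ∧ dist (j t (f' z)) (j t₀ (f z)) < ε := by
  obtain ⟨G, hG⟩ := exists_spr (g := fun w => j t₀ (f w)) (t₀ := t₀) h.sub hK hc hne fun z hz =>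
    ⟨h.hol ht (hf z hz), Eventually.of_forall fun w => h.ov ht _⟩
  let ι : T × E → E × C2 × T := fun q => (q.2, 0, q.1 - t₀)
  have cι : Continuous ι := by fun_prop
  have key : ∀ᶠ t in 𝓝 t₀, ∀ z ∈ K, HolY T G (ι (t, z)) ∧
      (∀ᶠ w in 𝓝 (ι (t, z)), p (G w) = t₀ + w.2.2) ∧ dist (G (ι (t, z))) (j t₀ (f z)) < ε := by
    refine hK.eventually_forall_of_forall_eventually (P := fun t z => HolY T G (ι (t, z)) ∧
      (∀ᶠ w in 𝓝 (ι (t, z)), p (G w) = t₀ + w.2.2) ∧ dist (G (ι (t, z))) (j t₀ (f z)) < ε)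
      fun z hz => ?_
    have e : ι (t₀, z) = (z, 0) := by simp [ι]
    have tι : Tendsto ι (𝓝 (t₀, z)) (𝓝 (z, 0)) := e ▸ cι.tendsto (t₀, z)
    have h1 : ∀ᶠ w in 𝓝 ((z, 0) : E × C2 × T), HolY T G w :=
      (contMDiffAt_iff_contMDiffAt_nhds Mfd.neInf).1 (hG.hol z hz)
    have h2 : ∀ᶠ w in 𝓝 ((z, 0) : E × C2 × T), p (G w) = t₀ + w.2.2 :=
      hG.ov.filter_mono (nhds_le_nhdsSet (mk_mem_prod hz (mem_singleton _)))
    have h3 : Tendsto (fun q : T × E => dist (G (ι q)) (j t₀ (f q.2))) (𝓝 (t₀, z))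
        (𝓝 (dist (G (z, 0)) (j t₀ (f z)))) :=
      ((hG.hol z hz).continuousAt.tendsto.comp tι).dist
        ((h.hol ht (hf z hz)).continuousAt.tendsto.comp continuous_snd.continuousAt)
    rw [hG.zero.self_of_nhdsSet z hz, dist_self] at h3
    exact (tι.eventually h1).and ((tι.eventually h2.eventually_nhds).and
      (h3.eventually_lt_const hε))
  filter_upwards [key, hB.mem_nhds ht] with t h1 h2
  obtain ⟨f', hf'⟩ := h.lift (g := fun z => G (ι (t, z))) h2 hne fun z hz => by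
    obtain ⟨a1, a2, -⟩ := h1 z hz
    have c : Continuous fun w => ι (t, w) := by fun_prop
    refine ⟨ContMDiffAt.comp z a1 (Mfd.an (analyticAt_id.prod
      (analyticAt_const (v := ((0, t - t₀) : C2 × T))))), ?_⟩
    filter_upwards [(c.tendsto z).eventually a2] with w hw
    rw [hw]
    simp [ι]
  exact ⟨f', fun z hz => ⟨(hf' z hz).1, (hf' z hz).2 ▸ (h1 z hz).2.2⟩⟩

end Vale.Agent.P290
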