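import Vale.Agent.P290.Main

/-! Deformation of maps in families: internal definitions. -/

open Set Filter Metric
open scoped Manifold ContDiff Topology

noncomputable section

namespace Vale.Agent.P290

section Flat

variable {E V T W : Type} [NormedAddCommGroup E] [NormedSpace ℂ E] [NormedAddCommGroup V]
  [NormedSpace ℂ V] [NormedAddCommGroup T] [NormedSpace ℂ T] [NormedAddCommGroup W]
  [NormedSpace ℂ W]

/-- A closed rectangle. -/
def Rc (x₀ x₁ y₀ y₁ : ℝ) : Set ℂ := {z | z.re ∈ Icc x₀ x₁ ∧ z.im ∈ Icc y₀ y₁}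

/-- Continuous on `K` and holomorphic in the interior. -/
def AA (K : Set E) (h : E → V) : Prop := ContinuousOn h K ∧ DifferentiableOn ℂ h (interior K)

/-- The cut-off function. -/
def chi (α β : ℝ) (z : ℂ) : ℂ := ((max 0 (min 1 ((z.re - α) / (β - α))) : ℝ) : ℂ)

/-- The integral over the boundary of a rectangle. -/
def bint (x₀ x₁ y₀ y₁ : ℝ) (g : ℂ → V) : V :=
  (∫ x in x₀..x₁, g (x + y₀ * Complex.I)) - (∫ x in x₀..x₁, g (x + y₁ * Complex.I)) +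
    Complex.I • (∫ y in y₀..y₁, g (x₁ + y * Complex.I)) -
    Complex.I • ∫ y in y₀..y₁, g (x₀ + y * Complex.I)

/-- The correction term of the splitting. -/
def Lc (α β y₀ y₁ : ℝ) (h : ℂ × W → V) (p : ℂ × W) : V :=
  (2 * Real.pi * Complex.I : ℂ)⁻¹ • bint α β y₀ y₁ fun ζ =>
    ((chi α β ζ - chi α β p.1) / (ζ - p.1)) • h (ζ, p.2)

/-- The left part of the splitting. -/
def L1 (α β y₀ y₁ : ℝ) (h : ℂ × W → V) (p : ℂ × W) : V :=
  (-chi α β p.1) • h p - Lc α β y₀ y₁ h p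

/-- The right part of the splitting. -/
def L2 (α β y₀ y₁ : ℝ) (h : ℂ × W → V) (p : ℂ × W) : V :=
  (1 - chi α β p.1) • h p - Lc α β y₀ y₁ h p

/-- The vertical differential along the zero section. -/
def dV (γ : E × V × T → V) (z : E) : V →L[ℂ] V := fderiv ℂ (fun v => γ (z, v, 0)) 0

/-- A germ of fibrewise automorphisms along the zero section over `S`. -/
def Aut (S : Set E) (γ : E × V × T → V) : Prop :=
  AnalyticOnNhd ℂ γ (S ×ˢ {0}) ∧ (∀ᶠ z in 𝓝ˢ S, γ (z, 0) = 0) ∧ ∀ z ∈ S, IsUnit (dV γ z)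

/-- The germ `γ` splits. -/
def NSp (S₁ S₂ : Set E) (γ : E × V × T → V) : Prop :=
  ∃ α₁ α₂ : E × V × T → V, Aut S₁ α₁ ∧ Aut S₂ α₂ ∧
    ∀ᶠ w in 𝓝ˢ ((S₁ ∩ S₂) ×ˢ {0}), γ (w.1, α₁ w, w.2.2) = α₂ w

end Flat

section Tot

variable (T : Type) [NormedAddCommGroup T] [NormedSpace ℂ T] {Y : Type} [TopologicalSpace Y]
  [ChartedSpace (C2 × T) Y] {E : Type} [NormedAddCommGroup E] [NormedSpace ℂ E]

/-- holomorphic at a point, maps into the total space -/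
abbrev HolY (g : E → Y) (z : E) : Prop := ContMDiffAt 𝓘(ℂ, E) 𝓘(ℂ, C2 × T) ω g z

/-- holomorphic at a point, functions on the total space -/
abbrev HolYF (Φ : Y → E) (y : Y) : Prop := ContMDiffAt 𝓘(ℂ, C2 × T) 𝓘(ℂ, E) ω Φ y

/-- the differential of a map into the total space -/
def difY (g : E → Y) (z : E) : E →L[ℂ] C2 × T := mfderiv 𝓘(ℂ, E) 𝓘(ℂ, C2 × T) g z

variable {T}

/-- A holomorphic submersion. -/
def Subm (p : Y → T) : Prop :=
  ∀ y, HolYF T p y ∧ Function.Surjective (mfderiv 𝓘(ℂ, C2 × T) 𝓘(ℂ, T) p y)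

/-- Coordinates at `y₀` adapted to the submersion `p`. -/
structure Adc (p : Y → T) (y₀ : Y) (Φ : Y → C2) (Ψ : C2 × T → Y) : Prop where
  hΦ : HolYF T Φ y₀
  hΨ : HolY T Ψ (Φ y₀, p y₀)
  left : ∀ᶠ y in 𝓝 y₀, Ψ (Φ y, p y) = y
  right : ∀ᶠ q in 𝓝 (Φ y₀, p y₀), Φ (Ψ q) = q.1 ∧ p (Ψ q) = q.2

/-- A local family of deformations of `g` near `S`, filling the nearby fibres. -/
structure Spr (p : Y → T) (t₀ : T) (S : Set E) (g : E → Y) (G : E × C2 × T → Y) : Prop where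
  hol : ∀ z ∈ S, HolY T G (z, 0)
  ov : ∀ᶠ w in 𝓝ˢ (S ×ˢ {0}), p (G w) = t₀ + w.2.2
  zero : ∀ᶠ z in 𝓝ˢ S, G (z, 0) = g z
  inj : ∀ z ∈ S, Function.Injective (difY T (fun v : C2 => G (z, v, 0)) 0)

/-- A holomorphic family of surfaces over `B`. -/
structure Family (B : Set T) (p : Y → T) (X : T → Type) [∀ t, TopologicalSpace (X t)]
    [∀ t, ChartedSpace C2 (X t)] (j : ∀ t, X t → Y) : Prop where
  sub : Subm p
  mfd : ∀ t ∈ B, IsManifold 𝓘(ℂ, C2) ω (X t)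
  emb : ∀ t ∈ B, ∀ x, ContMDiffAt 𝓘(ℂ, C2) 𝓘(ℂ, C2 × T) ω (j t) x ∧
    Function.Injective (mfderiv 𝓘(ℂ, C2) 𝓘(ℂ, C2 × T) (j t) x)
  inj : ∀ t ∈ B, Function.Injective (j t)
  rng : ∀ t ∈ B, range (j t) = p ⁻¹' {t}

end Tot

end Vale.Agent.P290
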