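import Vale.Agent.P290D.BS1
import Vale.Agent.P290D.BS2

/-! The nonlinear splitting near the identity. -/

open Set Filter Metric
open scoped Manifold ContDiff Topology

noncomputable section

namespace Vale.Agent.P290

namespace NS0

variable {W V : Type} [NormedAddCommGroup W] [NormedSpace ℂ W] [FiniteDimensional ℂ W]
  [NormedAddCommGroup V] [NormedSpace ℂ V] [FiniteDimensional ℂ V]

omit [NormedSpace ℂ W] [FiniteDimensional ℂ W] [NormedSpace ℂ V] [FiniteDimensional ℂ V] in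
theorem slice {S : Set ℂ} {Ω : Set W} {h : ℂ × W → V} (hh : ContinuousOn h (S ×ˢ Ω)) {y : W}
    (hy : y ∈ Ω) : ContinuousOn (fun ζ => h (ζ, y)) S :=
  hh.comp (Continuous.prodMk_left y).continuousOn fun _ hζ => ⟨hζ, hy⟩

theorem size {x₁ α β x₂ y₀ y₁ : ℝ} (h2 : α < β) (hy : y₀ < y₁) {h : ℂ × W → V} {y : W}
    (hh : ContinuousOn (fun ζ => h (ζ, y)) (Rc α β y₀ y₁)) {M : ℝ}
    (hM : ∀ ζ ∈ Rc α β y₀ y₁, ‖h (ζ, y)‖ ≤ M) :
    (∀ z ∈ Rc x₁ β y₀ y₁, ‖L1 α β y₀ y₁ h (z, y)‖ ≤ (2 + (y₁ - y₀) / (β - α)) * M) ∧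
    ∀ z ∈ Rc α x₂ y₀ y₁, ‖L2 α β y₀ y₁ h (z, y)‖ ≤ (2 + (y₁ - y₀) / (β - α)) * M := by
  have h1 := L_bound (x₁ := x₁) (x₂ := x₂) h2 hy (h' := fun _ => 0) hh continuousOn_const
    (M := M) (by simpa using hM)
  simpa only [(L_zero α β y₀ y₁ _).1, (L_zero α β y₀ y₁ _).2, sub_zero] using h1

omit [FiniteDimensional ℂ W] in
theorem lim {K : Set W} {H : ℕ → W → V} {C : ℝ} (hA : ∀ n, AA K (H n))
    (hd : ∀ n, ∀ p ∈ K, ‖H (n + 1) p - H n p‖ ≤ C / 2 / 2 ^ n) :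
    ∃ g, AA K g ∧ ∀ n, ∀ p ∈ K, ‖H n p - g p‖ ≤ C / 2 ^ n := by
  have := FiniteDimensional.complete ℂ V
  have hd' : ∀ p ∈ K, ∀ n, dist (H n p) (H (n + 1) p) ≤ C / 2 / 2 ^ n := fun p hp n => by
    rw [dist_comm, dist_eq_norm]
    exact hd n p hp
  have he : Tendsto (fun n : ℕ => C / 2 ^ n) atTop (𝓝 0) :=
    tendsto_const_nhds.div_atTop (tendsto_pow_atTop_atTop_of_one_lt one_lt_two)
  have hg : ∀ n, ∀ p ∈ K, ‖H n p - limUnder atTop fun n => H n p‖ ≤ C / 2 ^ n := fun n p hp => by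
    rw [← dist_eq_norm]
    exact dist_le_of_le_geometric_two_of_tendsto (hd' p hp)
      (cauchySeq_of_le_geometric_two (hd' p hp)).tendsto_limUnder n
  refine ⟨fun p => limUnder atTop fun n => H n p, ⟨?_, fun p hp => ?_⟩, hg⟩
  · refine TendstoUniformlyOn.continuousOn (F := H) (p := atTop) ?_
      (Frequently.of_forall fun n => (hA n).1)
    refine Metric.tendstoUniformlyOn_iff.2 fun ε hε => ?_
    filter_upwards [he.eventually (gt_mem_nhds hε)] with n hn p hp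
    rw [dist_comm, dist_eq_norm]
    exact (hg n p hp).trans_lt hn
  · obtain ⟨R, hR, hb⟩ := Metric.isOpen_iff.1 isOpen_interior p hp
    exact (P278F.differentiableAt_of_unif hR (fun n => (hA n).2.mono hb) he
      fun n z hz => hg n z (interior_subset (hb hz))).differentiableWithinAt

end NS0

theorem fixpt {x₁ α β x₂ y₀ y₁ : ℝ} (h1 : x₁ ≤ α) (h2 : α < β) (h3 : β ≤ x₂) (hy : y₀ < y₁) :
    ∃ η > (0 : ℝ), ∀ (W V : Type) [NormedAddCommGroup W] [NormedSpace ℂ W]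
      [FiniteDimensional ℂ W] [NormedAddCommGroup V] [NormedSpace ℂ V] [FiniteDimensional ℂ V]
      (Ω : Set W) (c : (ℂ × W) × V → V), IsCompact Ω →
      AnalyticOnNhd ℂ c ((Rc α β y₀ y₁ ×ˢ Ω) ×ˢ closedBall 0 3) →
      (∀ w ∈ (Rc α β y₀ y₁ ×ˢ Ω) ×ˢ closedBall (0 : V) 3, ‖c w‖ ≤ η) →
      ∃ a₁ a₂ : ℂ × W × V → V, AA (Rc x₁ β y₀ y₁ ×ˢ Ω ×ˢ closedBall 0 1) a₁ ∧
        AA (Rc α x₂ y₀ y₁ ×ˢ Ω ×ˢ closedBall 0 1) a₂ ∧
        (∀ p ∈ Rc x₁ β y₀ y₁ ×ˢ Ω ×ˢ closedBall (0 : V) 1, ‖a₁ p‖ ≤ 1 / 4) ∧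
        (∀ p ∈ Rc α x₂ y₀ y₁ ×ˢ Ω ×ˢ closedBall (0 : V) 1, ‖a₂ p‖ ≤ 1 / 4) ∧
        (∀ p ∈ Rc α β y₀ y₁ ×ˢ Ω ×ˢ closedBall (0 : V) 1,
          a₁ p + c ((p.1, p.2.1), p.2.2 + a₁ p) = a₂ p) ∧
        ∀ y ∈ Ω, (∀ ζ ∈ Rc α β y₀ y₁, c ((ζ, y), 0) = 0) →
          (∀ z ∈ Rc x₁ β y₀ y₁, a₁ (z, y, 0) = 0) ∧ ∀ z ∈ Rc α x₂ y₀ y₁, a₂ (z, y, 0) = 0 := by
  obtain ⟨C, hC⟩ : ∃ C : ℝ, C = 2 + (y₁ - y₀) / (β - α) := ⟨_, rfl⟩
  have hC0 : 0 < C := by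
    have := div_pos (sub_pos.2 hy) (sub_pos.2 h2)
    linarith
  obtain ⟨η, hη⟩ : ∃ η : ℝ, η = 1 / (8 * C) := ⟨_, rfl⟩
  have hη0 : 0 < η := by rw [hη]; positivity
  have hCη : C * η = 1 / 8 := by rw [hη]; field_simp
  refine ⟨η, hη0, fun W V _ _ _ _ _ _ Ω c hΩ hc hb => ?_⟩
  have := FiniteDimensional.proper ℂ V
  have hΩ' : IsCompact (Ω ×ˢ closedBall (0 : V) 1) := hΩ.prod (isCompact_closedBall 0 1)
  obtain ⟨K, hK⟩ : ∃ K, K = Rc α β y₀ y₁ ×ˢ Ω ×ˢ closedBall (0 : V) 1 := ⟨_, rfl⟩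
  obtain ⟨F, hF⟩ : ∃ F : (ℂ × W × V → V) → ℂ × W × V → V,
      ∀ h p, F h p = c ((p.1, p.2.1), p.2.2 + L1 α β y₀ y₁ h p) := ⟨_, fun _ _ => rfl⟩
  have hs : ∀ h : ℂ × W × V → V, ContinuousOn h K → (∀ p ∈ K, ‖h p‖ ≤ η) → ∀ a b,
      (∀ p ∈ Rc a β y₀ y₁ ×ˢ Ω ×ˢ closedBall (0 : V) 1, ‖L1 α β y₀ y₁ h p‖ ≤ 1 / 8) ∧
      ∀ p ∈ Rc α b y₀ y₁ ×ˢ Ω ×ˢ closedBall (0 : V) 1, ‖L2 α β y₀ y₁ h p‖ ≤ 1 / 8 := by
    subst hK
    intro h hh hM a b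
    have h4 := fun y hy' => NS0.size (x₁ := a) (x₂ := b) h2 hy (NS0.slice hh (y := y) hy')
      fun ζ hζ => hM (ζ, y) ⟨hζ, hy'⟩
    simp only [← hC, hCη] at h4
    exact ⟨fun p hp => (h4 p.2 hp.2).1 p.1 hp.1, fun p hp => (h4 p.2 hp.2).2 p.1 hp.1⟩
  have hn : ∀ h : ℂ × W × V → V, ContinuousOn h K → (∀ p ∈ K, ‖h p‖ ≤ η) → ∀ p ∈ K,
      ‖p.2.2 + L1 α β y₀ y₁ h p‖ ≤ 2 := fun h hh hM p hp => by
    rw [hK] at hp
    have h4 := (hs h hh hM α β).1 p hp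
    have h5 : ‖p.2.2‖ ≤ 1 := mem_closedBall_zero_iff.1 hp.2.2
    linarith [norm_add_le p.2.2 (L1 α β y₀ y₁ h p)]
  have hm : ∀ p ∈ K, ∀ v : V, ‖v‖ ≤ 3 →
      ((p.1, p.2.1), v) ∈ (Rc α β y₀ y₁ ×ˢ Ω) ×ˢ closedBall (0 : V) 3 := fun p hp v hv => by
    rw [hK] at hp
    exact ⟨⟨hp.1, hp.2.1⟩, mem_closedBall_zero_iff.2 hv⟩
  have hFA : ∀ h, AA K h → (∀ p ∈ K, ‖h p‖ ≤ η) → AA K (F h) ∧ ∀ p ∈ K, ‖F h p‖ ≤ η := by
    intro h hh hM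
    have h4 := fun p hp => hm p hp _ ((hn h hh.1 hM p hp).trans (by norm_num))
    have e : F h = c ∘ fun p => ((p.1, p.2.1), p.2.2 + L1 α β y₀ y₁ h p) := funext (hF h)
    rw [e]
    refine ⟨⟨hc.continuousOn.comp ?_ h4, hc.differentiableOn.comp ?_
      fun p hp => h4 p (interior_subset hp)⟩, fun p hp => hb _ (h4 p hp)⟩
    · subst hK
      have h5 := (L_cont (x₁ := α) (x₂ := β) h2 hy hΩ' hh.1).1
      fun_prop
    · subst hK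
      have h5 := (L_diff (x₁ := α) (x₂ := β) h2 hy hΩ' hh).1
      fun_prop
  have hL : ∀ h h' : ℂ × W × V → V, ContinuousOn h K → ContinuousOn h' K → (∀ p ∈ K, ‖h p‖ ≤ η) →
      (∀ p ∈ K, ‖h' p‖ ≤ η) → ∀ M, (∀ p ∈ K, ‖h p - h' p‖ ≤ M) →
      ∀ p ∈ K, ‖F h p - F h' p‖ ≤ M / 2 := by
    intro h h' hh hh' hM hM' M hd p hp
    have hv : ∀ v ∈ ball (p.2.2 + L1 α β y₀ y₁ h' p) 1, ‖v‖ ≤ 3 := fun v hv => by
      have h4 := hn h' hh' hM' p hp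
      have h5 := mem_ball_iff_norm.1 hv
      linarith [norm_le_insert' v (p.2.2 + L1 α β y₀ y₁ h' p)]
    have h4 := P278F.norm_sub_le_of_bound (f := fun v => c ((p.1, p.2.1), v)) (M := η)
      (z := p.2.2 + L1 α β y₀ y₁ h p)
      (hc.differentiableOn.comp (by fun_prop) fun v hv' => hm p hp v (hv v hv'))
      (fun v hv' => hb _ (hm p hp v (hv v hv'))) (by
        rw [mem_ball_iff_norm, add_sub_add_left_eq_sub]
        have h5 := (hs h hh hM α β).1 p (hK ▸ hp)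
        have h6 := (hs h' hh' hM' α β).1 p (hK ▸ hp)
        linarith [norm_sub_le (L1 α β y₀ y₁ h p) (L1 α β y₀ y₁ h' p)])
    rw [add_sub_add_left_eq_sub, div_one] at h4
    subst hK
    have h5 := (L_bound (x₁ := α) (x₂ := β) h2 hy (NS0.slice hh hp.2) (NS0.slice hh' hp.2)
      fun ζ hζ => hd (ζ, p.2) ⟨hζ, hp.2⟩).1 p.1 hp.1
    rw [← hC] at h5
    have h6 : 0 ≤ M := (norm_nonneg _).trans (hd p hp)
    rw [hF, hF]
    calc _ ≤ _ := h4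
      _ ≤ 2 * η * (C * M) := mul_le_mul_of_nonneg_left h5 (by positivity)
      _ = 2 * (C * η) * M := by ring
      _ ≤ M / 2 := by rw [hCη]; linarith
  obtain ⟨H, hH0, hH⟩ : ∃ H : ℕ → ℂ × W × V → V, (H 0 = fun _ => 0) ∧ ∀ n, H (n + 1) = F (H n) :=
    ⟨fun n => F^[n] fun _ => 0, rfl, fun n => Function.iterate_succ_apply' F n _⟩
  have hA : ∀ n, AA K (H n) ∧ ∀ p ∈ K, ‖H n p‖ ≤ η := fun n => by
    induction n with
    | zero =>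
      rw [hH0]
      exact ⟨⟨continuousOn_const, differentiableOn_const _⟩, fun p _ => by simpa using hη0.le⟩
    | succ n ih =>
      rw [hH]
      exact hFA _ ih.1 ih.2
  have hD : ∀ n, ∀ p ∈ K, ‖H (n + 1) p - H n p‖ ≤ 2 * η / 2 / 2 ^ n := fun n => by
    induction n with
    | zero =>
      intro p hp
      simpa [hH0] using (hA 1).2 p hp
    | succ n ih =>
      intro p hp
      have h4 := hL _ _ (hA (n + 1)).1.1 (hA n).1.1 (hA (n + 1)).2 (hA n).2 _ ih p hp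
      rwa [← hH, ← hH, div_div _ (2 ^ n), ← pow_succ] at h4
  obtain ⟨g, hg, hge⟩ := NS0.lim (fun n => (hA n).1) hD
  have he : Tendsto (fun n : ℕ => 2 * η / 2 ^ n) atTop (𝓝 0) :=
    tendsto_const_nhds.div_atTop (tendsto_pow_atTop_atTop_of_one_lt one_lt_two)
  have hgη : ∀ p ∈ K, ‖g p‖ ≤ η := fun p hp => by
    have h4 := he.const_add η
    rw [add_zero] at h4
    refine ge_of_tendsto' h4 fun n => ?_
    linarith [norm_le_insert (H n p) (g p), (hA n).2 p hp, hge n p hp]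
  have hfix : ∀ p ∈ K, F g p = g p := fun p hp => by
    refine sub_eq_zero.1 (norm_le_zero_iff.1 (ge_of_tendsto' he fun n => ?_))
    have h4 := hL _ _ (hA n).1.1 hg.1 (hA n).2 hgη _ (hge n) p hp
    have h5 := hge (n + 1) p hp
    rw [hH, pow_succ, ← div_div] at h5
    have h6 := norm_sub_le_norm_sub_add_norm_sub (F g p) (F (H n) p) (g p)
    rw [norm_sub_rev (F g p) (F (H n) p)] at h6
    linarith
  subst hK
  have hc1 := L_cont (x₁ := x₁) (x₂ := x₂) h2 hy hΩ' hg.1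
  have hc2 := L_diff (x₁ := x₁) (x₂ := x₂) h2 hy hΩ' hg
  have hc3 := hs g hg.1 hgη x₁ x₂
  refine ⟨L1 α β y₀ y₁ g, L2 α β y₀ y₁ g, ⟨hc1.1, hc2.1⟩, ⟨hc1.2, hc2.2⟩,
    fun p hp => (hc3.1 p hp).trans (by norm_num), fun p hp => (hc3.2 p hp).trans (by norm_num),
    fun p hp => ?_, fun y hy' h0 => ?_⟩
  · rw [← hF, hfix p hp, add_comm]
    exact (sub_eq_iff_eq_add.1 (L_sub α β y₀ y₁ g p)).symm
  · have hy0 : (y, (0 : V)) ∈ Ω ×ˢ closedBall (0 : V) 1 := ⟨hy', mem_closedBall_self zero_le_one⟩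
    have hz : ∀ n, ∀ ζ ∈ Rc α β y₀ y₁, H n (ζ, y, 0) = 0 := fun n => by
      induction n with
      | zero => exact fun ζ _ => by rw [hH0]
      | succ n ih =>
        intro ζ hζ
        have h4 := (NS0.size (x₁ := α) (x₂ := β) h2 hy (NS0.slice (hA n).1.1 hy0) (M := 0)
          fun z hz => by rw [ih z hz, norm_zero]).1 ζ hζ
        rw [mul_zero, norm_le_zero_iff] at h4
        rw [hH, hF, h4, add_zero]
        exact h0 ζ hζ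
    have h4 := NS0.size (x₁ := x₁) (x₂ := x₂) h2 hy (NS0.slice hg.1 hy0) (M := 0) fun z hz' => by
      refine ge_of_tendsto' he fun n => ?_
      have h5 := hge n (z, y, 0) ⟨hz', hy0⟩
      rwa [hz n z hz', zero_sub, norm_neg] at h5
    simpa only [mul_zero, norm_le_zero_iff] using h4

end Vale.Agent.P290
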