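import Vale.Agent.P290D.NSb

/-! Scaling. -/

open Set Filter Metric
open scoped Manifold ContDiff Topology

noncomputable section

namespace Vale.Agent.P290

variable {E V T W : Type} [NormedAddCommGroup E] [NormedSpace ℂ E] [FiniteDimensional ℂ E]
  [NormedAddCommGroup V] [NormedSpace ℂ V] [FiniteDimensional ℂ V] [NormedAddCommGroup T]
  [NormedSpace ℂ T] [FiniteDimensional ℂ T] [NormedAddCommGroup W] [NormedSpace ℂ W]
  [FiniteDimensional ℂ W]

theorem scale {K : Set E} (hK : IsCompact K) {Γ : E × V × T → V}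
    (hΓ : AnalyticOnNhd ℂ Γ (K ×ˢ {0})) (h0 : ∀ p ∈ K, Γ (p, 0) = 0) {η : ℝ} (hη : 0 < η)
    (hd : ∀ p ∈ K, ‖dV Γ p - 1‖ ≤ η / 6) :
    ∃ ε > (0 : ℝ), ∃ δ > (0 : ℝ), ∀ p ∈ K, ∀ s ∈ closedBall (0 : T) δ,
      ∀ v ∈ closedBall (0 : V) 3, AnalyticAt ℂ Γ (p, (ε : ℂ) • v, s) ∧
        ‖(ε : ℂ)⁻¹ • Γ (p, (ε : ℂ) • v, s) - v‖ ≤ η := by
  have := FiniteDimensional.complete ℂ V
  obtain ⟨B, hB⟩ : ∃ B : E × V × T → V × T →L[ℂ] V,
      B = fun w => (fderiv ℂ Γ w).comp (ContinuousLinearMap.inr ℂ E (V × T)) := ⟨_, rfl⟩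
  have hB1 : ∀ p x, AnalyticAt ℂ Γ (p, x) → HasFDerivAt (fun x => Γ (p, x)) (B (p, x)) x :=
    fun p x h => by
      rw [hB]
      exact h.differentiableAt.hasFDerivAt.comp x (hasFDerivAt_prodMk_right p x)
  have hB2 : ∀ p v, AnalyticAt ℂ Γ (p, v, 0) → HasFDerivAt (fun v => Γ (p, v, 0))
      ((B (p, v, 0)).comp (ContinuousLinearMap.inl ℂ V T)) v := fun p v h =>
    HasFDerivAt.comp (g := fun x => Γ (p, x)) (f := fun e : V => (e, (0 : T))) v (hB1 p _ h)
      (hasFDerivAt_prodMk_left (𝕜 := ℂ) v (0 : T))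
  have hBc : ∀ p ∈ K, ContinuousAt B (p, 0) := fun p hp => by
    rw [hB]
    exact (hΓ (p, 0) ⟨hp, rfl⟩).fderiv.continuousAt.clm_comp continuousAt_const
  obtain ⟨M, hM⟩ := hK.exists_bound_of_continuousOn (f := fun p => B (p, 0)) fun p hp =>
    (ContinuousAt.comp (f := fun p : E => (p, (0 : V × T))) (hBc p hp)
      (by fun_prop)).continuousWithinAt
  have key : ∀ᶠ x in 𝓝 (0 : V × T), ∀ p ∈ K, AnalyticAt ℂ Γ (p, x) ∧ ‖B (p, x)‖ < |M| + 1 ∧
      ‖(B (p, x)).comp (ContinuousLinearMap.inl ℂ V T) - 1‖ < η / 4 := by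
    refine hK.eventually_forall_of_forall_eventually fun p hp => ?_
    have h1 := hΓ (p, 0) ⟨hp, rfl⟩
    have h2 : ∀ᶠ w in 𝓝 (p, (0 : V × T)), ‖B w‖ < |M| + 1 :=
      (hBc p hp).norm.eventually_lt continuousAt_const (by linarith [hM p hp, le_abs_self M])
    have h3 : ∀ᶠ w in 𝓝 (p, (0 : V × T)),
        ‖(B w).comp (ContinuousLinearMap.inl ℂ V T) - 1‖ < η / 4 := by
      refine (((hBc p hp).clm_comp continuousAt_const).sub continuousAt_const).norm.eventually_lt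
        continuousAt_const ?_
      have h4 := hd p hp
      rw [dV, (hB2 p 0 h1).fderiv] at h4
      exact h4.trans_lt (by linarith)
    exact (continuous_swap.tendsto ((0 : V × T), p)).eventually
      (h1.eventually_analyticAt.and (h2.and h3))
  obtain ⟨r, hr, hk⟩ := nhds_basis_closedBall.eventually_iff.1 key
  have M0 : 0 < |M| + 1 := by positivity
  refine ⟨r / 3, by positivity, min r (r * η / (12 * (|M| + 1))), by positivity,
    fun p hp s hs v hv => ?_⟩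
  rw [mem_closedBall_zero_iff] at hs hv
  have e1 : ‖((r / 3 : ℝ) : ℂ)‖ = r / 3 := by
    rw [Complex.norm_real, Real.norm_of_nonneg (by positivity)]
  have m1 : ‖((r / 3 : ℝ) : ℂ) • v‖ ≤ r := by
    rw [norm_smul, e1]
    nlinarith
  have m2 : ∀ (a : V) (b : T), ‖a‖ ≤ r → ‖b‖ ≤ r → (a, b) ∈ closedBall (0 : V × T) r :=
    fun a b ha hb => mem_closedBall_zero_iff.2 (max_le ha hb)
  have m3 := m2 _ s m1 (hs.trans (min_le_left _ _))
  have m4 : ∀ a ∈ closedBall (0 : V) r, (a, (0 : T)) ∈ closedBall (0 : V × T) r := fun a ha =>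
    m2 a 0 (mem_closedBall_zero_iff.1 ha) (by simpa using hr.le)
  refine ⟨(hk m3 p hp).1, ?_⟩
  have a1 := (convex_closedBall (0 : V × T) r).norm_image_sub_le_of_norm_hasFDerivWithin_le
    (fun x hx => (hB1 p x (hk hx p hp).1).hasFDerivWithinAt) (fun x hx => (hk hx p hp).2.1.le)
    (m4 _ (mem_closedBall_zero_iff.2 m1)) m3
  have a2 := (convex_closedBall (0 : V) r).norm_image_sub_le_of_norm_hasFDerivWithin_le
    (fun x hx => ((hB2 p x (hk (m4 x hx) p hp).1).fun_sub (hasFDerivAt_id x)).hasFDerivWithinAt)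
    (fun x hx => (hk (m4 x hx) p hp).2.2.le) (mem_closedBall_self hr.le)
    (mem_closedBall_zero_iff.2 m1)
  have e2 : Γ (p, 0, 0) = 0 := h0 p hp
  simp only [Prod.mk_sub_mk, sub_self, sub_zero, Prod.norm_mk, norm_zero, norm_nonneg,
    sup_of_le_right] at a1
  simp only [e2, id, sub_zero] at a2
  have a3 := mul_le_mul_of_nonneg_left (hs.trans (min_le_right _ _)) M0.le
  have e3 : (|M| + 1) * (r * η / (12 * (|M| + 1))) = r * η / 12 := by field_simp
  have a4 := mul_le_mul_of_nonneg_left m1 (by positivity : 0 ≤ η / 4)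
  have a5 := norm_sub_le_norm_sub_add_norm_sub (Γ (p, ((r / 3 : ℝ) : ℂ) • v, s))
    (Γ (p, ((r / 3 : ℝ) : ℂ) • v, 0)) (((r / 3 : ℝ) : ℂ) • v)
  have e4 : ((r / 3 : ℝ) : ℂ) ≠ 0 := Complex.ofReal_ne_zero.2 (by positivity)
  rw [← inv_smul_smul₀ e4 v, smul_inv_smul₀ e4, ← smul_sub, norm_smul, norm_inv, e1,
    inv_mul_le_iff₀ (by positivity)]
  linarith

end Vale.Agent.P290
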