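import Vale.Agent.P290D.NS0
import Vale.Agent.P290D.NS1

/-! Splitting of germs near the identity on rectangles. -/

open Set Filter Metric
open scoped Manifold ContDiff Topology

noncomputable section

namespace Vale.Agent.P290

section NS2aux

variable {W V T : Type} [NormedAddCommGroup W] [NormedSpace ℂ W]
  [FiniteDimensional ℂ W] [NormedAddCommGroup V] [NormedSpace ℂ V] [FiniteDimensional ℂ V]
  [NormedAddCommGroup T] [NormedSpace ℂ T] [FiniteDimensional ℂ T]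

omit [NormedSpace ℂ W] [FiniteDimensional ℂ W] [NormedSpace ℂ V] [FiniteDimensional ℂ V]
  [NormedSpace ℂ T] [FiniteDimensional ℂ T] in
theorem ns2_mem {R : Set ℂ} {Ω' : Set W} {r : ℝ} {z : ℂ} {y : W} {s : T} {v : V}
    (hz : z ∈ interior R) (hy : y ∈ interior Ω') (hs : s ∈ ball (0 : T) r)
    (hv : v ∈ ball (0 : V) 1) :
    (z, (y, s), v) ∈ interior (R ×ˢ (Ω' ×ˢ closedBall (0 : T) r) ×ˢ closedBall (0 : V) 1) := by
  rw [interior_prod_eq, interior_prod_eq, interior_prod_eq]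
  exact ⟨hz, ⟨hy, ball_subset_interior_closedBall hs⟩, ball_subset_interior_closedBall hv⟩

theorem ns2_aut {R S : Set ℂ} {Ω Ω' : Set W} (hS : S ⊆ interior R) (hΩ : Ω ⊆ interior Ω')
    {e : ℂ} (he : e ≠ 0) {r : ℝ} (hr : 0 < r) {a : ℂ × (W × T) × V → V}
    (ha : AA (R ×ˢ (Ω' ×ˢ closedBall (0 : T) r) ×ˢ closedBall (0 : V) 1) a)
    (hb : ∀ p ∈ R ×ˢ (Ω' ×ˢ closedBall (0 : T) r) ×ˢ closedBall (0 : V) 1, ‖a p‖ ≤ 1 / 4)
    (h0 : ∀ y ∈ Ω', ∀ z ∈ R, a (z, (y, 0), 0) = 0) :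
    Aut (S ×ˢ Ω) (fun w : (ℂ × W) × V × T =>
      w.2.1 + e • a (w.1.1, (w.1.2, w.2.2), e⁻¹ • w.2.1)) := by
  have han : AnalyticOnNhd ℂ a
      (interior (R ×ˢ (Ω' ×ˢ closedBall (0 : T) r) ×ˢ closedBall (0 : V) 1)) :=
    P278F.analyticOnNhd_of_differentiableOn isOpen_interior ha.2
  refine ⟨?_, ?_, ?_⟩
  · rintro ⟨⟨z, y⟩, u⟩ ⟨⟨hz, hy⟩, hu⟩
    have hu' : u = 0 := hu
    subst hu'
    have hm : (z, (y, (0 : T)), e⁻¹ • (0 : V)) ∈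
        interior (R ×ˢ (Ω' ×ˢ closedBall (0 : T) r) ×ˢ closedBall (0 : V) 1) :=
      ns2_mem (hS hz) (hΩ hy) (mem_ball_self hr) (by rw [smul_zero]; exact mem_ball_self one_pos)
    have hin : AnalyticAt ℂ (fun w : (ℂ × W) × V × T =>
        ((w.1.1, (w.1.2, w.2.2), e⁻¹ • w.2.1) : ℂ × (W × T) × V)) ((z, y), 0) :=
      ContDiffAt.analyticAt (by fun_prop)
    have hc := AnalyticAt.comp (g := a) (f := fun w : (ℂ × W) × V × T =>
        ((w.1.1, (w.1.2, w.2.2), e⁻¹ • w.2.1) : ℂ × (W × T) × V)) (x := ((z, y), 0))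
        (han _ hm) hin
    have h1 : AnalyticAt ℂ (fun w : (ℂ × W) × V × T => w.2.1) ((z, y), 0) :=
      ContDiffAt.analyticAt (by fun_prop)
    exact h1.add (hc.const_smul (c := e))
  · have ho : IsOpen (interior R ×ˢ interior Ω') := isOpen_interior.prod isOpen_interior
    have hm : interior R ×ˢ interior Ω' ∈ 𝓝ˢ (S ×ˢ Ω) :=
      ho.mem_nhdsSet.2 (prod_mono hS hΩ)
    filter_upwards [hm] with q hq
    have h := h0 q.2 (interior_subset hq.2) q.1 (interior_subset hq.1)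
    simp only [Prod.fst_zero, Prod.snd_zero, smul_zero, h, add_zero]
  · rintro ⟨z, y⟩ ⟨hz, hy⟩
    set g : V → V := fun v => a (z, (y, 0), v) with hg
    have hgd : DifferentiableOn ℂ g (ball 0 1) := by
      intro v hv
      have hm := ns2_mem (T := T) (hS hz) (hΩ hy) (mem_ball_self hr) hv
      have hin : DifferentiableAt ℂ (fun v : V => ((z, (y, (0 : T)), v) : ℂ × (W × T) × V)) v := by
        fun_prop
      exact ((han _ hm).differentiableAt.comp v hin).differentiableWithinAt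
    have hgb : ∀ v ∈ ball (0 : V) 1, ‖g v‖ ≤ 1 / 4 := fun v hv =>
      hb _ (interior_subset (ns2_mem (T := T) (hS hz) (hΩ hy) (mem_ball_self hr) hv))
    have hD : ‖fderiv ℂ g 0‖ ≤ 2 * (1 / 4) / 1 :=
      P278F.norm_fderiv_le one_pos hgd hgb
    have hg0 : HasFDerivAt g (fderiv ℂ g 0) (e⁻¹ • (0 : V)) := by
      rw [smul_zero]
      exact (hgd.differentiableAt (ball_mem_nhds _ one_pos)).hasFDerivAt
    have hs : HasFDerivAt (fun v : V => e⁻¹ • v) (e⁻¹ • ContinuousLinearMap.id ℂ V) 0 :=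
      (hasFDerivAt_id (0 : V)).const_smul e⁻¹
    have hall : HasFDerivAt (fun v : V => v + e • g (e⁻¹ • v))
        (ContinuousLinearMap.id ℂ V +
          e • (fderiv ℂ g 0).comp (e⁻¹ • ContinuousLinearMap.id ℂ V)) 0 :=
      (hasFDerivAt_id (0 : V)).add ((hg0.comp (0 : V) hs).const_smul e)
    have heq : dV (fun w : (ℂ × W) × V × T =>
        w.2.1 + e • a (w.1.1, (w.1.2, w.2.2), e⁻¹ • w.2.1)) (z, y) = 1 - (-fderiv ℂ g 0) := by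
      unfold dV
      refine hall.fderiv.trans ?_
      ext v
      simp [smul_smul, he]
    rw [heq]
    refine isUnit_one_sub_of_norm_lt_one ?_
    rw [norm_neg]
    linarith

end NS2aux

theorem ns2_sub {a b c d a' b' c' d' : ℝ} (h1 : a' < a) (h2 : b < b') (h3 : c' < c)
    (h4 : d < d') : Rc a b c d ⊆ interior (Rc a' b' c' d') := by
  intro z hz
  rw [interior_rc]
  exact ⟨⟨h1.trans_le hz.1.1, hz.1.2.trans_lt h2⟩, ⟨h3.trans_le hz.2.1, hz.2.2.trans_lt h4⟩⟩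

theorem nsp_rect {x₁ c x₂ y₀ y₁ δ : ℝ} (h1 : x₁ ≤ c) (h2 : c ≤ x₂) (hy : y₀ ≤ y₁) (hδ : 0 < δ) :
    ∃ η > (0 : ℝ), ∀ (W V T : Type) [NormedAddCommGroup W] [NormedSpace ℂ W]
      [FiniteDimensional ℂ W] [NormedAddCommGroup V] [NormedSpace ℂ V] [FiniteDimensional ℂ V]
      [NormedAddCommGroup T] [NormedSpace ℂ T] [FiniteDimensional ℂ T] (Ω Ω' : Set W)
      (Γ : (ℂ × W) × V × T → V), IsCompact Ω' → Ω ⊆ interior Ω' →
      AnalyticOnNhd ℂ Γ ((Rc (c - δ) (c + δ) (y₀ - δ) (y₁ + δ) ×ˢ Ω') ×ˢ {0}) →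
      (∀ p ∈ Rc (c - δ) (c + δ) (y₀ - δ) (y₁ + δ) ×ˢ Ω', Γ (p, 0) = 0 ∧ ‖dV Γ p - 1‖ ≤ η) →
      NSp (Rc x₁ c y₀ y₁ ×ˢ Ω) (Rc c x₂ y₀ y₁ ×ˢ Ω) Γ := by
  obtain ⟨η, hη, H⟩ := fixpt (x₁ := x₁ - δ) (α := c - δ) (β := c + δ) (x₂ := x₂ + δ)
    (y₀ := y₀ - δ) (y₁ := y₁ + δ) (by linarith) (by linarith) (by linarith) (by linarith)
  refine ⟨η / 6, by positivity, ?_⟩
  intro W V T _ _ _ _ _ _ _ _ _ Ω Ω' Γ hΩ' hΩ hΓ hb
  obtain ⟨ε, hε, r, hr, hs⟩ := scale ((isCompact_rc _ _ _ _).prod hΩ') hΓ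
    (fun p hp => (hb p hp).1) hη (fun p hp => (hb p hp).2)
  have he : (ε : ℂ) ≠ 0 := Complex.ofReal_ne_zero.2 hε.ne'
  obtain ⟨a₁, a₂, ha₁, ha₂, hb₁, hb₂, heq, hz⟩ := H (W × T) V (Ω' ×ˢ closedBall (0 : T) r)
    (fun w => (ε : ℂ)⁻¹ • Γ ((w.1.1, w.1.2.1), (ε : ℂ) • w.2, w.1.2.2) - w.2)
    (hΩ'.prod (isCompact_closedBall _ _))
    (by
      rintro ⟨⟨ζ, y, s⟩, v⟩ ⟨⟨hζ, hy', hs'⟩, hv⟩
      have hA := (hs (ζ, y) ⟨hζ, hy'⟩ s hs' v hv).1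
      have hin : AnalyticAt ℂ (fun w : (ℂ × W × T) × V =>
          (((w.1.1, w.1.2.1), (ε : ℂ) • w.2, w.1.2.2) : (ℂ × W) × V × T)) ((ζ, y, s), v) :=
        ContDiffAt.analyticAt (by fun_prop)
      have hc := AnalyticAt.comp (g := Γ) (f := fun w : (ℂ × W × T) × V =>
          (((w.1.1, w.1.2.1), (ε : ℂ) • w.2, w.1.2.2) : (ℂ × W) × V × T))
          (x := ((ζ, y, s), v)) hA hin
      exact (hc.const_smul (c := (ε : ℂ)⁻¹)).sub analyticAt_snd)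
    (by
      rintro ⟨⟨ζ, y, s⟩, v⟩ ⟨⟨hζ, hy', hs'⟩, hv⟩
      exact (hs (ζ, y) ⟨hζ, hy'⟩ s hs' v hv).2)
  have hz' : ∀ y ∈ Ω', (∀ z ∈ Rc (x₁ - δ) (c + δ) (y₀ - δ) (y₁ + δ), a₁ (z, (y, 0), 0) = 0) ∧
      ∀ z ∈ Rc (c - δ) (x₂ + δ) (y₀ - δ) (y₁ + δ), a₂ (z, (y, 0), 0) = 0 := by
    intro y hy'
    refine hz (y, 0) ⟨hy', mem_closedBall_self hr.le⟩ fun ζ hζ => ?_
    have h := (hb (ζ, y) ⟨hζ, hy'⟩).1
    have h' : Γ ((ζ, y), (0 : V), (0 : T)) = 0 := h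
    simp only [smul_zero, h', sub_zero]
  refine ⟨_, _,
    ns2_aut (ns2_sub (by linarith) (by linarith) (by linarith) (by linarith)) hΩ he hr ha₁ hb₁
      (fun y hy' => (hz' y hy').1),
    ns2_aut (ns2_sub (by linarith) (by linarith) (by linarith) (by linarith)) hΩ he hr ha₂ hb₂
      (fun y hy' => (hz' y hy').2), ?_⟩
  have ho : IsOpen ((interior (Rc (c - δ) (c + δ) (y₀ - δ) (y₁ + δ)) ×ˢ interior Ω') ×ˢ
      (ball (0 : V) ε ×ˢ ball (0 : T) r)) :=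
    (isOpen_interior.prod isOpen_interior).prod (isOpen_ball.prod isOpen_ball)
  have hm : (interior (Rc (c - δ) (c + δ) (y₀ - δ) (y₁ + δ)) ×ˢ interior Ω') ×ˢ
      (ball (0 : V) ε ×ˢ ball (0 : T) r) ∈
      𝓝ˢ (((Rc x₁ c y₀ y₁ ×ˢ Ω) ∩ (Rc c x₂ y₀ y₁ ×ˢ Ω)) ×ˢ ({0} : Set (V × T))) := by
    refine ho.mem_nhdsSet.2 ?_
    rintro ⟨⟨z, y⟩, u⟩ ⟨⟨⟨hz₁, hy'⟩, hz₂, -⟩, hu⟩
    have hu' : u = 0 := hu
    subst hu'
    refine ⟨⟨?_, hΩ hy'⟩, mem_ball_self hε, mem_ball_self hr⟩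
    exact ns2_sub (a := c) (b := c) (c := y₀) (d := y₁) (by linarith) (by linarith)
      (by linarith) (by linarith) ⟨⟨hz₂.1.1, hz₁.1.2⟩, hz₁.2⟩
  filter_upwards [hm] with w hw
  obtain ⟨⟨z, y⟩, v, s⟩ := w
  obtain ⟨⟨hz₁, hy'⟩, hv, hs'⟩ := hw
  have hv' : (ε : ℂ)⁻¹ • v ∈ closedBall (0 : V) 1 := by
    rw [mem_closedBall_zero_iff, norm_smul, norm_inv, Complex.norm_real, Real.norm_of_nonneg hε.le,
      inv_mul_le_iff₀ hε, mul_one]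
    exact (mem_ball_zero_iff.1 hv).le
  have h := heq (z, (y, s), (ε : ℂ)⁻¹ • v)
    ⟨interior_subset hz₁, ⟨interior_subset hy', ball_subset_closedBall hs'⟩, hv'⟩
  simp only [smul_add, smul_inv_smul₀ he] at h ⊢
  rw [← h]
  simp only [smul_add, smul_sub, smul_inv_smul₀ he]
  abel

end Vale.Agent.P290
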