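import Vale.Agent.P290D.NS2

/-! Splitting of germs near the identity on boxes. -/

open Set Filter Metric
open scoped Manifold ContDiff Topology

noncomputable section

namespace Vale.Agent.P290

variable {J : Type} [Fintype J] [DecidableEq J]

namespace NS3

omit [Fintype J] [DecidableEq J] in
theorem rot (a b : J × Bool → ℝ) (hab : a ≤ b) (j : J) (t : Bool) :
    ∃ (u v : ℂ) (y₀ y₁ : ℝ), v * u = 1 ∧ y₀ ≤ y₁ ∧ (∀ Z : J → ℂ, (u * Z j).re = co Z (j, t)) ∧
      ∀ (Z : J → ℂ) (r : ℝ), (u * Z j).im ∈ Icc (y₀ - r) (y₁ + r) ↔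
        co Z (j, !t) ∈ Icc (a (j, !t) - r) (b (j, !t) + r) := by
  cases t
  · refine ⟨-Complex.I, Complex.I, -b (j, true), -a (j, true), by simp,
      neg_le_neg (hab (j, true)), fun Z => by simp [co], fun Z r => ?_⟩
    have e : (-Complex.I * Z j).im = -(Z j).re := by simp
    have e' : co Z (j, !false) = (Z j).re := rfl
    rw [e, e', Bool.not_false]
    exact ⟨fun h => ⟨by linarith [h.2], by linarith [h.1]⟩,
      fun h => ⟨by linarith [h.2], by linarith [h.1]⟩⟩
  · exact ⟨1, 1, a (j, false), b (j, false), by simp, hab (j, false), fun Z => by simp [co],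
      fun Z r => by rw [one_mul]; rfl⟩

theorem sub_int (a b : J × Bool → ℝ) {δ : ℝ} (hδ : 0 < δ) :
    Box a b ⊆ interior (Box (fun i => a i - δ) fun i => b i + δ) := by
  have ho : IsOpen ((co : (J → ℂ) → J × Bool → ℝ) ⁻¹'
      Set.pi univ fun i => Ioo (a i - δ) (b i + δ)) :=
    (isOpen_set_pi finite_univ fun i _ => isOpen_Ioo).preimage continuous_co
  refine fun Z hZ => interior_maximal (fun Z hZ => ?_) ho fun i _ => ?_
  · exact ⟨fun i => (hZ i (mem_univ _)).1.le, fun i => (hZ i (mem_univ _)).2.le⟩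
  · have h1 : a i ≤ co Z i := hZ.1 i
    have h2 : co Z i ≤ b i := hZ.2 i
    exact ⟨by linarith, by linarith⟩

theorem an_upd (j : J) (v : ℂ) (p : ℂ × (J → ℂ)) :
    AnalyticAt ℂ (fun q : ℂ × (J → ℂ) => Function.update q.2 j (v * q.1)) p := by
  refine analyticAt_pi_iff.2 fun i => ?_
  by_cases h : i = j
  · subst h
    simp only [Function.update_self]
    exact analyticAt_const.mul analyticAt_fst
  · simp only [Function.update_of_ne h]
    exact ((ContinuousLinearMap.proj (R := ℂ) (φ := fun _ : J => ℂ) i).analyticAt _).comp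
      analyticAt_snd

end NS3

theorem nsp_near {a b : J × Bool → ℝ} {k : J × Bool} {c δ : ℝ} (hab : a ≤ b) (h₁ : a k ≤ c)
    (h₂ : c ≤ b k) (hδ : 0 < δ) :
    ∃ η > (0 : ℝ), ∀ (V T : Type) [NormedAddCommGroup V] [NormedSpace ℂ V]
      [FiniteDimensional ℂ V] [NormedAddCommGroup T] [NormedSpace ℂ T] [FiniteDimensional ℂ T]
      (Γ : (J → ℂ) × V × T → V),
      AnalyticOnNhd ℂ Γ (Box (fun i => Function.update a k c i - δ)
        (fun i => Function.update b k c i + δ) ×ˢ {0}) →
      (∀ Z ∈ Box (fun i => Function.update a k c i - δ) (fun i => Function.update b k c i + δ),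
        Γ (Z, 0) = 0 ∧ ‖dV Γ Z - 1‖ ≤ η) →
      NSp (Box a (Function.update b k c)) (Box (Function.update a k c) b) Γ := by
  obtain ⟨j, t⟩ := k
  obtain ⟨u, v, y₀, y₁, huv, hy, hre, him⟩ := NS3.rot a b hab j t
  obtain ⟨η, hη, H⟩ := nsp_rect h₁ h₂ hy hδ
  refine ⟨η, hη, fun V T _ _ _ _ _ _ Γ hΓ h0 => ?_⟩
  have hne : ((j, !t) : J × Bool) ≠ (j, t) := fun h => by
    have h' := congrArg Prod.snd h
    cases t <;> simp at h'
  have hm : ∀ p ∈ Rc (c - δ) (c + δ) (y₀ - δ) (y₁ + δ) ×ˢ
      Box (fun i => a i - δ) (fun i => b i + δ), Function.update p.2 j (v * p.1) ∈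
        Box (fun i => Function.update a (j, t) c i - δ)
          (fun i => Function.update b (j, t) c i + δ) := by
    rintro ⟨z, Y⟩ ⟨hz, hY⟩
    have e : u * Function.update Y j (v * z) j = z := by
      rw [Function.update_self, ← mul_assoc, mul_comm u, huv, one_mul]
    have key : ∀ i, co (Function.update Y j (v * z)) i ∈
        Icc (Function.update a (j, t) c i - δ) (Function.update b (j, t) c i + δ) := by
      rintro ⟨i, s⟩
      by_cases hi : i = j
      · subst hi
        by_cases hs : s = t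
        · subst hs
          rw [Function.update_self, Function.update_self, ← hre, e]
          exact hz.1
        · obtain rfl : s = !t := Bool.eq_not_iff.2 hs
          rw [Function.update_of_ne hne, Function.update_of_ne hne, ← him, e]
          exact hz.2
      · have hi' : ((i, s) : J × Bool) ≠ (j, t) := fun h => hi (congrArg Prod.fst h)
        have e' : co (Function.update Y j (v * z)) (i, s) = co Y (i, s) := by
          simp only [co, Function.update_of_ne hi]
        rw [Function.update_of_ne hi', Function.update_of_ne hi', e']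
        exact ⟨hY.1 (i, s), hY.2 (i, s)⟩
    exact ⟨fun i => (key i).1, fun i => (key i).2⟩
  have H1 := H (J → ℂ) V T (Box a b) (Box (fun i => a i - δ) fun i => b i + δ)
    (fun w => Γ (Function.update w.1.2 j (v * w.1.1), w.2)) (isCompact_box _ _)
    (NS3.sub_int a b hδ) (fun w hw => (hΓ _ ⟨hm _ hw.1, hw.2⟩).comp (f := fun w :
      (ℂ × (J → ℂ)) × V × T => (Function.update w.1.2 j (v * w.1.1), w.2))
      (((NS3.an_upd j v w.1).comp analyticAt_fst).prod analyticAt_snd))
    (fun p hp => h0 _ (hm p hp))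
  have u1 : Function.update b (j, t) c ≤ b := update_le_iff.2 ⟨h₂, fun _ _ => le_rfl⟩
  have u2 : a ≤ Function.update a (j, t) c := le_update_iff.2 ⟨h₁, fun _ _ => le_rfl⟩
  have hi : ∀ Z ∈ Box a b, (u * Z j).im ∈ Icc y₀ y₁ := fun Z hZ => by
    have h := (him Z 0).2 ⟨by rw [sub_zero]; exact hZ.1 _, by rw [add_zero]; exact hZ.2 _⟩
    rwa [sub_zero, add_zero] at h
  refine H1.pull ((u • ContinuousLinearMap.proj (R := ℂ) (φ := fun _ : J => ℂ) j).prod
    (ContinuousLinearMap.id ℂ (J → ℂ))) (fun Z hZ => ?_) (fun Z hZ => ?_)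
    (Eventually.of_forall fun w => ?_)
  · have hZ' : Z ∈ Box a b := ⟨hZ.1, hZ.2.trans u1⟩
    refine ⟨⟨?_, hi Z hZ'⟩, hZ'⟩
    have h3 := hZ.2 (j, t)
    rw [Function.update_self] at h3
    show (u * Z j).re ∈ _
    rw [hre]
    exact ⟨hZ.1 (j, t), h3⟩
  · have hZ' : Z ∈ Box a b := ⟨u2.trans hZ.1, hZ.2⟩
    refine ⟨⟨?_, hi Z hZ'⟩, hZ'⟩
    have h3 := hZ.1 (j, t)
    rw [Function.update_self] at h3
    show (u * Z j).re ∈ _
    rw [hre]
    exact ⟨h3, hZ.2 (j, t)⟩
  · show Γ (Function.update w.1 j (v * (u * w.1 j)), w.2) = Γ w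
    rw [← mul_assoc, huv, one_mul, Function.update_eq_self]

end Vale.Agent.P290
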