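import Vale.Agent.P290D.NS3
import Vale.Agent.P290D.AExt

/-! Splitting of germs on linear sections of boxes. -/

open Set Filter Metric
open scoped Manifold ContDiff Topology

noncomputable section

namespace Vale.Agent.P290

variable {E V T W : Type} [NormedAddCommGroup E] [NormedSpace ℂ E] [FiniteDimensional ℂ E]
  [NormedAddCommGroup V] [NormedSpace ℂ V] [FiniteDimensional ℂ V] [NormedAddCommGroup T]
  [NormedSpace ℂ T] [FiniteDimensional ℂ T] [NormedAddCommGroup W] [NormedSpace ℂ W]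
  [FiniteDimensional ℂ W]

variable {J : Type} [Fintype J] [DecidableEq J]

theorem nsp_box {a b : J × Bool → ℝ} {k : J × Bool} {c : ℝ} (hab : a ≤ b) (h₁ : a k ≤ c)
    (h₂ : c ≤ b k) {Γ : (J → ℂ) × V × T → V}
    (hΓ : Aut (Box (Function.update a k c) (Function.update b k c)) Γ) :
    NSp (Box a (Function.update b k c)) (Box (Function.update a k c) b) Γ := by
  have : CompleteSpace V := FiniteDimensional.complete ℂ V
  have hc : Continuous fun Z : J → ℂ => (Z, (0 : V × T)) := continuous_id.prodMk continuous_const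
  have hU : ∀ᶠ Z in 𝓝ˢ (Box (Function.update a k c) (Function.update b k c)),
      AnalyticAt ℂ Γ (Z, 0) ∧ IsUnit (dV Γ Z) :=
    eventually_nhdsSet_iff_forall.2 fun Z hZ => by
      have h := hΓ.1 (Z, 0) ⟨hZ, rfl⟩
      exact (hc.continuousAt.eventually h.eventually_analyticAt).and
        ((an_dV h).continuousAt.eventually (Units.isOpen.mem_nhds (hΓ.2.2 Z hZ)))
  obtain ⟨δ, hδ, hs⟩ := thick_box (hU.and hΓ.2.1)
    (update_le_update_iff.2 ⟨le_rfl, fun j _ => hab j⟩)
  obtain ⟨η, hη, H⟩ := nsp_near hab h₁ h₂ hδ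
  obtain ⟨A, hA, hu, hl⟩ := cartan_runge (isCompact_box _ _) (convex_box _ _)
    (fun Z hZ => an_dV (hs hZ).1.1) (fun Z hZ => (hs hZ).1.2) hη
  refine NSp.mul hA hu (H V T _ (fun w hw => ?_) fun Z hZ => ⟨?_, ?_⟩)
  · obtain ⟨Z, q⟩ := w
    obtain rfl : q = 0 := hw.2
    have h1 : AnalyticAt ℂ (fun w : (J → ℂ) × V × T => Ring.inverse (A w.1)) (Z, 0) :=
      AnalyticAt.comp (f := fun w : (J → ℂ) × V × T => A w.1) (x := (Z, 0))
        (analyticOnNhd_inverse (A Z) (hu Z))
        (AnalyticAt.comp (f := Prod.fst) (hA Z (mem_univ _)) analyticAt_fst)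
    exact ((ContinuousLinearMap.apply ℂ V).flip.analyticAt_bilinear _).comp₂ h1 (hs hw.1).1.1
  · show Ring.inverse (A Z) (Γ (Z, 0)) = 0
    rw [(hs hZ).2, map_zero]
  · have h1 : DifferentiableAt ℂ (fun v : V => Γ (Z, v, 0)) 0 :=
      DifferentiableAt.comp (f := fun v : V => (Z, v, (0 : T))) 0 (hs hZ).1.1.differentiableAt
        (by fun_prop)
    have h2 : dV (fun w : (J → ℂ) × V × T => Ring.inverse (A w.1) (Γ w)) Z =
        Ring.inverse (A Z) * dV Γ Z :=
      ((Ring.inverse (A Z)).hasFDerivAt.comp 0 h1.hasFDerivAt).fderiv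
    rw [h2]
    exact hl Z hZ

theorem nsp_pre {ι : E →L[ℂ] (J → ℂ)} (hι : Function.Injective ι) {a b : J × Bool → ℝ}
    {k : J × Bool} {c : ℝ} (h₁ : a k ≤ c) (h₂ : c ≤ b k) {γ : E × V × T → V}
    (hγ : Aut (ι ⁻¹' Box a (Function.update b k c) ∩ ι ⁻¹' Box (Function.update a k c) b) γ) :
    NSp (ι ⁻¹' Box a (Function.update b k c)) (ι ⁻¹' Box (Function.update a k c) b) γ := by
  by_cases hab : a ≤ b
  · have e : ι ⁻¹' Box a (Function.update b k c) ∩ ι ⁻¹' Box (Function.update a k c) b =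
        ι ⁻¹' Box (Function.update a k c) (Function.update b k c) := by
      rw [← preimage_inter, box_inter h₁ h₂]
    rw [e] at hγ
    obtain ⟨Γ, hΓ, he⟩ := aut_ext hι _ _ hγ
    exact (nsp_box hab h₁ h₂ hΓ).pull ι (fun _ h => h) (fun _ h => h) (by rwa [e])
  · have u1 : Function.update b k c ≤ b := update_le_iff.2 ⟨h₂, fun _ _ => le_rfl⟩
    have u2 : a ≤ Function.update a k c := le_update_iff.2 ⟨h₁, fun _ _ => le_rfl⟩
    have e1 : ι ⁻¹' Box a (Function.update b k c) = ∅ :=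
      eq_empty_of_forall_notMem fun z hz => hab (hz.1.trans (hz.2.trans u1))
    have e2 : ι ⁻¹' Box (Function.update a k c) b = ∅ :=
      eq_empty_of_forall_notMem fun z hz => hab (u2.trans (hz.1.trans hz.2))
    rw [e1, e2]
    exact nsp_empty γ

end Vale.Agent.P290
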