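import Vale.Agent.P290D.Defs

/-! Basic facts on fibrewise automorphisms. -/

open Set Filter Metric
open scoped Manifold ContDiff Topology

noncomputable section

namespace Vale.Agent.P290

variable {E V T W : Type} [NormedAddCommGroup E] [NormedSpace ℂ E] [FiniteDimensional ℂ E]
  [NormedAddCommGroup V] [NormedSpace ℂ V] [FiniteDimensional ℂ V] [NormedAddCommGroup T]
  [NormedSpace ℂ T] [FiniteDimensional ℂ T] [NormedAddCommGroup W] [NormedSpace ℂ W]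
  [FiniteDimensional ℂ W]

theorem NSb_d {γ : E × V × T → V} {z : E} (h : AnalyticAt ℂ γ (z, 0)) :
    HasFDerivAt (fun v => γ (z, v, 0)) ((fderiv ℂ γ (z, 0)).comp
      ((ContinuousLinearMap.inr ℂ E (V × T)).comp (.inl ℂ V T))) 0 :=
  HasFDerivAt.comp (f := fun v : V => (z, v, (0 : T))) 0 h.differentiableAt.hasFDerivAt
    ((hasFDerivAt_prodMk_right z _).comp 0 (hasFDerivAt_prodMk_left 0 0))

theorem dV_eq {γ : E × V × T → V} {z : E} (h : AnalyticAt ℂ γ (z, 0)) (v : V) :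
    dV γ z v = fderiv ℂ γ (z, 0) (0, v, 0) := DFunLike.congr_fun (NSb_d h).fderiv v

theorem an_dV {γ : E × V × T → V} {z : E} (h : AnalyticAt ℂ γ (z, 0)) :
    AnalyticAt ℂ (dV γ) z := by
  have h1 : AnalyticAt ℂ (fun z : E => (z, (0 : V × T))) z := analyticAt_id.prod analyticAt_const
  refine ((((ContinuousLinearMap.compL ℂ V (E × V × T) V).flip
    ((ContinuousLinearMap.inr ℂ E (V × T)).comp (.inl ℂ V T))).analyticAt _).comp
      (h.fderiv.comp (f := fun z : E => (z, (0 : V × T))) h1)).congr ?_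
  filter_upwards [h1.continuousAt.eventually h.eventually_analyticAt] with y hy
  exact (NSb_d hy).fderiv.symm

theorem dV_congr {γ γ' : E × V × T → V} {z : E} (h : γ =ᶠ[𝓝 (z, 0)] γ') : dV γ z = dV γ' z :=
  EventuallyEq.fderiv_eq
    ((Continuous.tendsto (f := fun v : V => (z, v, (0 : T))) (by fun_prop) 0).eventually h)

theorem Aut.mono {S S' : Set E} {γ : E × V × T → V} (h : Aut S γ) (hS : S' ⊆ S) : Aut S' γ :=
  ⟨h.1.mono (prod_mono_left hS), h.2.1.filter_mono (nhdsSet_mono hS), fun z hz => h.2.2 z (hS hz)⟩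

theorem Aut.pull {S : Set E} {S' : Set W} {γ : W × V × T → V} (h : Aut S' γ) (θ : E →L[ℂ] W)
    (hθ : MapsTo θ S S') : Aut S fun w => γ (θ w.1, w.2) :=
  ⟨fun w hw => (h.1 (θ w.1, w.2) ⟨hθ hw.1, hw.2⟩).comp (f := fun w : E × V × T => (θ w.1, w.2))
    (((θ.analyticAt _).comp analyticAt_fst).prod analyticAt_snd),
    (θ.continuous.tendsto_nhdsSet hθ).eventually h.2.1, fun z hz => h.2.2 (θ z) (hθ hz)⟩

theorem NSp.pull {S₁ S₂ : Set E} {S₁' S₂' : Set W} {γ : E × V × T → V} {γ' : W × V × T → V}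
    (h : NSp S₁' S₂' γ') (θ : E →L[ℂ] W) (h₁ : MapsTo θ S₁ S₁') (h₂ : MapsTo θ S₂ S₂')
    (e : ∀ᶠ w in 𝓝ˢ ((S₁ ∩ S₂) ×ˢ ({0} : Set (V × T))), γ' (θ w.1, w.2) = γ w) :
    NSp S₁ S₂ γ := by
  obtain ⟨α₁, α₂, k₁, k₂, k⟩ := h
  have k₃ := k₁.pull θ h₁
  refine ⟨_, _, k₃, k₂.pull θ h₂, eventually_nhdsSet_iff_forall.2 ?_⟩
  rintro ⟨z, _⟩ ⟨hz, rfl⟩
  have t1 : Tendsto (fun w : E × V × T => (w.1, α₁ (θ w.1, w.2), w.2.2)) (𝓝 (z, 0)) (𝓝 (z, 0)) := by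
    have h3 : Tendsto (fun w : E × V × T => α₁ (θ w.1, w.2)) (𝓝 (z, 0)) (𝓝 0) :=
      (k₃.1 (z, 0) ⟨hz.1, rfl⟩).continuousAt.tendsto.trans_eq
        (congrArg 𝓝 (k₃.2.1.self_of_nhdsSet z hz.1))
    exact continuousAt_fst.tendsto.prodMk_nhds (h3.prodMk_nhds continuous_snd.snd.continuousAt)
  have t2 : Tendsto (fun w : E × V × T => (θ w.1, w.2)) (𝓝 (z, 0)) (𝓝 (θ z, 0)) :=
    Continuous.tendsto (f := fun w : E × V × T => (θ w.1, w.2)) (by fun_prop) _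
  filter_upwards [t1.eventually (eventually_nhdsSet_iff_forall.1 e _ ⟨hz, rfl⟩),
    t2.eventually (eventually_nhdsSet_iff_forall.1 k _ ⟨⟨h₁ hz.1, h₂ hz.2⟩, rfl⟩)] with w e1 e2
  exact e1.symm.trans e2

theorem NSp.mul {S₁ S₂ : Set E} {γ : E × V × T → V} {A : E → V →L[ℂ] V}
    (hA : AnalyticOnNhd ℂ A univ) (hu : ∀ z, IsUnit (A z))
    (h : NSp S₁ S₂ fun w => Ring.inverse (A w.1) (γ w)) : NSp S₁ S₂ γ := by
  obtain ⟨α₁, α₂, k₁, k₂, k⟩ := h
  refine ⟨α₁, fun w => A w.1 (α₂ w), k₁, ⟨fun w hw => ?_, k₂.2.1.mono fun z hz => ?_,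
    fun z hz => ?_⟩, k.mono fun w hw => ?_⟩
  · exact ((ContinuousLinearMap.id ℂ (V →L[ℂ] V)).analyticAt_bilinear _).comp₂
      ((hA _ trivial).comp analyticAt_fst) (k₂.1 w hw)
  · simp only [hz, map_zero]
  · have h1 : dV (fun w => A w.1 (α₂ w)) z = A z * dV α₂ z :=
      ((A z).hasFDerivAt.comp 0 (NSb_d (k₂.1 (z, 0) ⟨hz, rfl⟩)).differentiableAt.hasFDerivAt).fderiv
    exact h1 ▸ (hu z).mul (k₂.2.2 z hz)
  · simp only [← hw]
    exact (DFunLike.congr_fun (Ring.mul_inverse_cancel _ (hu w.1)) _).symm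

theorem nsp_empty (γ : E × V × T → V) : NSp (∅ : Set E) ∅ γ := by
  have h : Aut (∅ : Set E) γ := ⟨fun _ h => h.1.elim, by simp, fun _ h => h.elim⟩
  exact ⟨γ, γ, h, h, by simp⟩

end Vale.Agent.P290
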