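import Vale.Agent.P290D.Trans
import Vale.Agent.P290D.NS4

/-! Existence of local families over convex sets. -/

open Set Filter Metric
open scoped Manifold ContDiff Topology

noncomputable section

namespace Vale.Agent.P290

variable {T : Type} [NormedAddCommGroup T] [NormedSpace ℂ T] [FiniteDimensional ℂ T]
  {Y : Type} [TopologicalSpace Y] [ChartedSpace (C2 × T) Y] [IsManifold 𝓘(ℂ, C2 × T) ω Y]
  {E : Type} [NormedAddCommGroup E] [NormedSpace ℂ E] [FiniteDimensional ℂ E]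
  {A : Type} [NormedAddCommGroup A] [NormedSpace ℂ A] [FiniteDimensional ℂ A]
  {p : Y → T} {t₀ : T} {S S₁ S₂ : Set E} {g : E → Y} {G G₁ G₂ : E × C2 × T → Y}

omit [FiniteDimensional ℂ T] [FiniteDimensional ℂ E] in
theorem SprG.an {α : E × C2 × T → C2} (hα : Aut S α) {z : E} (hz : z ∈ S) :
    AnalyticAt ℂ (fun w : E × C2 × T => (w.1, α w, w.2.2)) (z, 0) ∧
      (z, α (z, 0), (0 : T)) = (z, 0) :=
  ⟨analyticAt_fst.prod ((hα.1 (z, 0) ⟨hz, rfl⟩).prod (analyticAt_snd.comp analyticAt_snd)), by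
    rw [hα.2.1.self_of_nhdsSet z hz]
    rfl⟩

omit [FiniteDimensional ℂ T] [FiniteDimensional ℂ E] in
theorem SprG.ev {α : E × C2 × T → C2} (hα : Aut S α) {Q : E × C2 × T → Prop}
    (h : ∀ᶠ w in 𝓝ˢ (S ×ˢ ({0} : Set (C2 × T))), Q w) :
    ∀ᶠ w in 𝓝ˢ (S ×ˢ ({0} : Set (C2 × T))), Q (w.1, α w, w.2.2) := by
  refine eventually_nhdsSet_iff_forall.2 ?_
  rintro ⟨z, _⟩ ⟨hz, rfl⟩
  obtain ⟨h1, h2⟩ := SprG.an hα hz
  have h3 := eventually_nhdsSet_iff_forall.1 h (z, 0) ⟨hz, rfl⟩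
  rw [← h2] at h3
  exact h1.continuousAt.eventually (p := Q) h3

omit [FiniteDimensional ℂ T] [FiniteDimensional ℂ E] in
theorem SprG.sl (z : E) : AnalyticAt ℂ (fun v : C2 => ((z, v, 0) : E × C2 × T)) 0 :=
  analyticAt_const.prod (analyticAt_id.prod analyticAt_const)

theorem Spr.mono {S' : Set E} (h : Spr p t₀ S g G) (hS : S' ⊆ S) : Spr p t₀ S' g G :=
  ⟨fun z hz => h.hol z (hS hz), h.ov.filter_mono (nhdsSet_mono (prod_mono hS subset_rfl)),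
    h.zero.filter_mono (nhdsSet_mono hS), fun z hz => h.inj z (hS hz)⟩

theorem Spr.congr (h : Spr p t₀ S g G₁) (e : ∀ᶠ w in 𝓝ˢ (S ×ˢ ({0} : Set (C2 × T))), G₂ w = G₁ w) :
    Spr p t₀ S g G₂ := by
  have e' := fun z (hz : z ∈ S) => eventually_nhdsSet_iff_forall.1 e (z, 0) ⟨hz, rfl⟩
  refine ⟨fun z hz => (h.hol z hz).congr (e' z hz),
    (h.ov.and e).mono fun w hw => hw.2 ▸ hw.1, ?_, fun z hz => ?_⟩
  · exact (h.zero.and (eventually_nhdsSet_iff_forall.2 fun z hz =>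
      (Continuous.prodMk_left (0 : C2 × T)).continuousAt.eventually (p := fun w => G₂ w = G₁ w)
        (e' z hz))).mono fun z hz => hz.2.trans hz.1
  · rw [difY_congr (g := fun v : C2 => G₁ (z, v, 0))
      ((SprG.sl z).continuousAt.eventually (p := fun w => G₂ w = G₁ w) (e' z hz))]
    exact h.inj z hz

theorem Spr.union (h₁ : Spr p t₀ S₁ g G) (h₂ : Spr p t₀ S₂ g G) : Spr p t₀ (S₁ ∪ S₂) g G := by
  refine ⟨fun z hz => hz.elim (h₁.hol z) (h₂.hol z), ?_, ?_,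
    fun z hz => hz.elim (h₁.inj z) (h₂.inj z)⟩
  · rw [union_prod, nhdsSet_union]
    exact eventually_sup.2 ⟨h₁.ov, h₂.ov⟩
  · rw [nhdsSet_union]
    exact eventually_sup.2 ⟨h₁.zero, h₂.zero⟩

theorem Spr.reparam (h : Spr p t₀ S g G) {α : E × C2 × T → C2} (hα : Aut S α) :
    Spr p t₀ S g fun w => G (w.1, α w, w.2.2) := by
  refine ⟨fun z hz => ?_, SprG.ev hα h.ov, (h.zero.and hα.2.1).mono fun z hz => ?_,
    fun z hz => ?_⟩
  · obtain ⟨h1, h2⟩ := SprG.an hα hz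
    exact HolY.comp (g := G) (h2.symm ▸ h.hol z hz) h1
  · simp only [hz.2]
    exact hz.1
  · have e : α (z, (0 : C2), (0 : T)) = 0 := hα.2.1.self_of_nhdsSet z hz
    have h1 : AnalyticAt ℂ (fun v : C2 => α (z, v, 0)) 0 :=
      AnalyticAt.comp (g := α) (hα.1 _ ⟨hz, rfl⟩) (SprG.sl z)
    have h2 : HolY T (fun v : C2 => G (z, v, 0)) (α (z, (0 : C2), (0 : T))) := by
      rw [e]
      exact HolY.comp (g := G) (h.hol z hz) (SprG.sl z)
    intro u v huv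
    have h3 := difY_comp (g := fun v : C2 => G (z, v, 0)) (r := fun v : C2 => α (z, v, 0)) h2 h1
    rw [h3, h3, e] at huv
    exact (ContinuousLinearMap.isUnit_iff_bijective.1 (hα.2.2 z hz)).1 (h.inj z hz huv)

theorem spr_loc (hp : Subm p) {z₀ : E} (hg : HolY T g z₀) (ho : ∀ᶠ z in 𝓝 z₀, p (g z) = t₀) :
    ∃ N ∈ 𝓝 z₀, ∃ G, Spr p t₀ N g G := by
  obtain ⟨Φ, Ψ, h⟩ := exists_adc hp (g z₀)
  refine ⟨{z | Adc p (g z) Φ Ψ ∧ HolY T g z ∧ ∀ᶠ w in 𝓝 z, p (g w) = t₀},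
    (hg.cont.eventually (h.ev hp)).and (hg.ev.and ho.eventually_nhds),
    fun w => Ψ (Φ (g w.1) + w.2.1, t₀ + w.2.2), ?_⟩
  have key : ∀ z, Adc p (g z) Φ Ψ → HolY T g z → (∀ᶠ w in 𝓝 z, p (g w) = t₀) →
      HolY T (fun w : E × C2 × T => Ψ (Φ (g w.1) + w.2.1, t₀ + w.2.2)) (z, 0) ∧
      ∀ᶠ w : E × C2 × T in 𝓝 (z, 0), Φ (Ψ (Φ (g w.1) + w.2.1, t₀ + w.2.2)) = Φ (g w.1) + w.2.1 ∧
        p (Ψ (Φ (g w.1) + w.2.1, t₀ + w.2.2)) = t₀ + w.2.2 := by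
    intro z h1 h2 h3
    have a1 : AnalyticAt ℂ (fun w : E × C2 × T => (Φ (g w.1) + w.2.1, t₀ + w.2.2)) (z, 0) :=
      ((AnalyticAt.comp (g := fun w => Φ (g w)) (h1.hΦ.comp h2) analyticAt_fst).add
        (analyticAt_fst.comp analyticAt_snd)).prod
        (analyticAt_const.add (analyticAt_snd.comp analyticAt_snd))
    have e : (Φ (g z), p (g z)) = (Φ (g z) + (0 : C2 × T).1, t₀ + (0 : C2 × T).2) := by
      simp [h3.self_of_nhds]
    have a2 := h1.right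
    rw [e] at a2
    exact ⟨HolY.comp (g := Ψ) (e ▸ h1.hΨ) a1,
      a1.continuousAt.eventually (p := fun q => Φ (Ψ q) = q.1 ∧ p (Ψ q) = q.2) a2⟩
  have zer : ∀ z, Adc p (g z) Φ Ψ → HolY T g z → (∀ᶠ w in 𝓝 z, p (g w) = t₀) →
      ∀ᶠ w in 𝓝 z, Ψ (Φ (g w) + 0, t₀ + 0) = g w := fun z h1 h2 h3 =>
    ((h2.cont.eventually h1.left).and h3).mono fun w hw => by
      rw [add_zero, add_zero, ← hw.2, hw.1]
  refine ⟨fun z hz => (key z hz.1 hz.2.1 hz.2.2).1, eventually_nhdsSet_iff_forall.2 ?_,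
    eventually_nhdsSet_iff_forall.2 fun z hz => zer z hz.1 hz.2.1 hz.2.2, fun z hz => ?_⟩
  · rintro ⟨z, _⟩ ⟨hz, rfl⟩
    exact (key z hz.1 hz.2.1 hz.2.2).2.mono fun w hw => hw.2
  · obtain ⟨k1, k2⟩ := key z hz.1 hz.2.1 hz.2.2
    have k3 := (SprG.sl z).continuousAt.eventually k2
    have k4 := (zer z hz.1 hz.2.1 hz.2.2).self_of_nhds
    refine (Adc.inj_iff (p := p) (Φ := Φ) (Ψ := Ψ) (k4.symm ▸ hz.1)
      (HolY.comp (g := fun w : E × C2 × T => Ψ (Φ (g w.1) + w.2.1, t₀ + w.2.2))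
        (r := fun v : C2 => (z, v, 0)) k1 (SprG.sl z))
      (k3.mono fun v hv => hv.2.trans k3.self_of_nhds.2.symm)).2 ?_
    rw [Filter.EventuallyEq.fderiv_eq (f := fun v : C2 => Φ (g z) + v) (k3.mono fun v hv => hv.1),
      fderiv_const_add, fderiv_id']
    exact Function.injective_id

theorem spr_glue (hp : Subm p) (c₁ : IsCompact S₁) (c₂ : IsCompact S₂) (h₁ : Spr p t₀ S₁ g G₁)
    (h₂ : Spr p t₀ S₂ g G₂) (hs : ∀ γ : E × C2 × T → C2, Aut (S₁ ∩ S₂) γ → NSp S₁ S₂ γ) :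
    ∃ G, Spr p t₀ (S₁ ∪ S₂) g G := by
  obtain ⟨γ, hγ, e⟩ := exists_trans hp (c₁.inter_right c₂.isClosed) (h₁.mono inter_subset_left)
    (h₂.mono inter_subset_right)
  obtain ⟨α₁, α₂, a₁, a₂, e'⟩ := hs γ hγ
  obtain ⟨G, g₁, g₂⟩ := glue2 (S₁ := S₁ ×ˢ ({0} : Set (C2 × T))) (S₂ := S₂ ×ˢ {0})
    (c₁.isClosed.prod isClosed_singleton) (c₂.isClosed.prod isClosed_singleton)
    (f₁ := fun w => G₁ (w.1, α₁ w, w.2.2)) (f₂ := fun w => G₂ (w.1, α₂ w, w.2.2)) (by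
      rw [prod_inter_prod, inter_self]
      exact ((SprG.ev (a₁.mono inter_subset_left) e).and e').mono fun w hw => by
        rw [← hw.1, ← hw.2])
  exact ⟨G, ((h₁.reparam a₁).congr g₁).union ((h₂.reparam a₂).congr g₂)⟩

theorem exists_spr (hp : Subm p) (hS : IsCompact S) (hc : Convex ℝ S) (hne : S.Nonempty)
    (hg : ∀ z ∈ S, HolY T g z ∧ ∀ᶠ w in 𝓝 z, p (g w) = t₀) : ∃ G, Spr p t₀ S g G := by
  obtain ⟨n, ι, a, b, hι, h1, h2⟩ := sandwich hS hc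
    (U := {z | HolY T g z ∧ ∀ᶠ w in 𝓝 z, p (g w) = t₀})
    (eventually_nhdsSet_iff_forall.2 fun z hz => (hg z hz).1.ev.and (hg z hz).2.eventually_nhds)
  obtain ⟨G, hG⟩ := bisect_pre hι (fun S => ∃ G, Spr p t₀ S g G) a b
    ⟨fun w => g w.1, by simp, by simp, by simp, by simp⟩ (fun z hz => by
      obtain ⟨N, hN, G, hG⟩ := spr_loc hp (h2 hz).1 (h2 hz).2
      exact ⟨N, hN, fun S hS => ⟨G, hG.mono hS⟩⟩)
    fun a' b' k c _ _ hk1 hk2 ⟨G₁, q1⟩ ⟨G₂, q2⟩ => by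
      have := spr_glue hp (isCompact_pre hι _ _) (isCompact_pre hι _ _) q1 q2
        fun γ hγ => nsp_pre hι hk1 hk2 hγ
      rwa [← preimage_union, box_union hk1 hk2] at this
  exact ⟨G, hG.mono h1⟩

end Vale.Agent.P290
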