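import Vale.Agent.P290D.YAdc
import Vale.Agent.P290D.NSb

/-! Transition between two local families. -/

open Set Filter Metric
open scoped Manifold ContDiff Topology

noncomputable section

namespace Vale.Agent.P290

variable {T : Type} [NormedAddCommGroup T] [NormedSpace ℂ T] [FiniteDimensional ℂ T]
  {Y : Type} [TopologicalSpace Y] [ChartedSpace (C2 × T) Y] [IsManifold 𝓘(ℂ, C2 × T) ω Y]
  {E : Type} [NormedAddCommGroup E] [NormedSpace ℂ E] [FiniteDimensional ℂ E]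
  {A : Type} [NormedAddCommGroup A] [NormedSpace ℂ A] [FiniteDimensional ℂ A]
  {p : Y → T} {t₀ : T} {S S₁ S₂ : Set E} {g : E → Y} {G G₁ G₂ : E × C2 × T → Y}

theorem ift2 {V : Type} [NormedAddCommGroup V] [NormedSpace ℂ V] [FiniteDimensional ℂ V]
    {u : E × V → V} {r : E → V} {z₀ : E} (hu : AnalyticAt ℂ u (z₀, 0)) (hr : AnalyticAt ℂ r z₀)
    (h0 : u (z₀, 0) = r z₀) (hi : Function.Injective (fderiv ℂ (fun v => u (z₀, v)) 0)) :
    ∃ l : E → V, AnalyticAt ℂ l z₀ ∧ l z₀ = 0 ∧ (∀ᶠ z in 𝓝 z₀, u (z, l z) = r z) ∧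
      ∀ᶠ q in 𝓝 ((z₀, 0) : E × V), u q = r q.1 → q.2 = l q.1 := by
  have : CompleteSpace E := FiniteDimensional.complete ℂ E
  have : CompleteSpace V := FiniteDimensional.complete ℂ V
  have h1 : AnalyticAt ℂ (fun q : E × V => u q - r q.1) (z₀, 0) :=
    hu.sub (AnalyticAt.comp (f := fun q : E × V => q.1) hr analyticAt_fst)
  have h2 : ContDiffAt ℂ ⊤ (fun q : E × V => u q - r q.1) (z₀, 0) := h1.contDiffAt
  have k0 : HasFDerivAt (fun t : V => ((z₀, t) : E × V)) (ContinuousLinearMap.inr ℂ E V) 0 :=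
    hasFDerivAt_prodMk_right _ _
  have h3 : fderiv ℂ (fun q : E × V => u q - r q.1) (z₀, 0) ∘L ContinuousLinearMap.inr ℂ E V =
      fderiv ℂ (fun v => u (z₀, v)) 0 := by
    have k2 := HasFDerivAt.comp (0 : V) (f := fun t : V => ((z₀, t) : E × V))
      h1.differentiableAt.hasFDerivAt k0
    rw [← k2.fderiv]
    exact fderiv_sub_const (f := fun v => u (z₀, v)) (r z₀)
  have h4 : (fderiv ℂ (fun q : E × V => u q - r q.1) (z₀, 0) ∘L
      ContinuousLinearMap.inr ℂ E V).IsInvertible := by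
    rw [h3]
    exact ⟨(LinearEquiv.ofInjectiveEndo (fderiv ℂ (fun v => u (z₀, v)) 0 : V →ₗ[ℂ] V)
      hi).toContinuousLinearEquiv, by ext v; rfl⟩
  refine ⟨h2.implicitFunction (by simp) h4,
    (h2.contDiffAt_implicitFunction (by simp) h4).analyticAt,
    h2.implicitFunction_apply_self (by simp) h4, ?_, ?_⟩
  · filter_upwards [h2.eventually_apply_implicitFunction (by simp) h4] with w hw
    rw [h0, sub_self] at hw
    exact sub_eq_zero.1 hw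
  · filter_upwards [h2.eventually_apply_eq_iff_implicitFunction (by simp) h4] with v hv e1
    refine (hv.1 ?_).symm
    rw [h0, e1, sub_self, sub_self]

namespace Trans

theorem ov (h : Spr p t₀ S g G) {z₀ : E} (hz : z₀ ∈ S) :
    ∀ᶠ w in 𝓝 ((z₀, 0) : E × C2 × T), p (G w) = t₀ + w.2.2 :=
  eventually_nhdsSet_iff_forall.1 h.ov (z₀, 0) ⟨hz, rfl⟩

theorem an0 (z₀ : E) : AnalyticAt ℂ (fun v : C2 => ((z₀, v, 0) : E × C2 × T)) 0 :=
  analyticAt_const.prod (analyticAt_id.prod analyticAt_const)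

theorem sl (h : Spr p t₀ S g G) {z₀ : E} (hz : z₀ ∈ S) {Φ : Y → C2} {Ψ : C2 × T → Y}
    (hA : Adc p (g z₀) Φ Ψ) : AnalyticAt ℂ (fun v : C2 => Φ (G (z₀, v, 0))) 0 ∧
      Function.Injective (fderiv ℂ (fun v : C2 => Φ (G (z₀, v, 0))) 0) := by
  have e : G (z₀, 0) = g z₀ := h.zero.self_of_nhdsSet z₀ hz
  have hA' : Adc p (G (z₀, 0, 0)) Φ Ψ := (show G (z₀, 0, 0) = g z₀ from e) ▸ hA
  have hg : HolY T (fun v : C2 => G (z₀, v, 0)) 0 :=
    HolY.comp (r := fun v : C2 => ((z₀, v, 0) : E × C2 × T)) (h.hol z₀ hz) (an0 z₀)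
  refine ⟨HolYF.comp (g := fun v : C2 => G (z₀, v, 0)) hA'.hΦ hg,
    (Adc.inj_iff (g := fun v : C2 => G (z₀, v, 0)) hA' hg ?_).1 (h.inj z₀ hz)⟩
  filter_upwards [(an0 z₀).continuousAt.tendsto.eventually (ov h hz)] with v hv
  exact hv.trans (ov h hz).self_of_nhds.symm

end Trans

theorem trans_loc (hp : Subm p) (h₁ : Spr p t₀ S g G₁) (h₂ : Spr p t₀ S g G₂) {z₀ : E}
    (hz : z₀ ∈ S) : ∃ l : E × C2 × T → C2, AnalyticAt ℂ l (z₀, 0) ∧ l (z₀, 0) = 0 ∧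
      IsUnit (dV l z₀) ∧ (∀ᶠ w in 𝓝 ((z₀, 0) : E × C2 × T), G₂ (w.1, l w, w.2.2) = G₁ w) ∧
      ∀ᶠ q in 𝓝 (((z₀, 0), 0) : (E × C2 × T) × C2),
        G₂ (q.1.1, q.2, q.1.2.2) = G₁ q.1 → q.2 = l q.1 := by
  obtain ⟨Φ, Ψ, hA⟩ := exists_adc hp (g z₀)
  have e₁ : G₁ (z₀, 0) = g z₀ := h₁.zero.self_of_nhdsSet z₀ hz
  have e₂ : G₂ (z₀, 0) = g z₀ := h₂.zero.self_of_nhdsSet z₀ hz
  have hρ : AnalyticAt ℂ (fun q : (E × C2 × T) × C2 => ((q.1.1, q.2, q.1.2.2) : E × C2 × T))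
      ((z₀, 0), 0) := (analyticAt_fst.comp analyticAt_fst).prod (analyticAt_snd.prod
        (analyticAt_snd.comp (analyticAt_snd.comp analyticAt_fst)))
  have hG : HolY T (fun q : (E × C2 × T) × C2 => G₂ (q.1.1, q.2, q.1.2.2)) ((z₀, 0), 0) :=
    HolY.comp (r := fun q : (E × C2 × T) × C2 => ((q.1.1, q.2, q.1.2.2) : E × C2 × T))
      (h₂.hol z₀ hz) hρ
  have hΦ₂ : HolYF T Φ (G₂ (z₀, 0)) := e₂ ▸ hA.hΦ
  have hΦ₁ : HolYF T Φ (G₁ (z₀, 0)) := e₁ ▸ hA.hΦ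
  obtain ⟨l, l1, l2, l3, l4⟩ := ift2 (E := E × C2 × T) (z₀ := (z₀, 0))
    (u := fun q => Φ (G₂ (q.1.1, q.2, q.1.2.2))) (r := fun w => Φ (G₁ w))
    (HolYF.comp (g := fun q : (E × C2 × T) × C2 => G₂ (q.1.1, q.2, q.1.2.2)) hΦ₂ hG)
    (hΦ₁.comp (h₁.hol z₀ hz)) (congrArg Φ (e₂.trans e₁.symm)) (Trans.sl h₂ hz hA).2
  have t1 : Tendsto (fun w : E × C2 × T => ((w.1, l w, w.2.2) : E × C2 × T)) (𝓝 (z₀, 0))
      (𝓝 (z₀, 0)) := by
    have := (continuousAt_fst (p := ((z₀, 0) : E × C2 × T))).prodMk (l1.continuousAt.prodMk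
      (continuousAt_snd.comp continuousAt_snd))
    rwa [ContinuousAt, l2] at this
  refine ⟨l, l1, l2, ?_, ?_, l4.mono fun q hq e => hq (congrArg Φ e)⟩
  · have a1 : AnalyticAt ℂ (fun v : C2 => l (z₀, v, 0)) 0 :=
      AnalyticAt.comp (f := fun v : C2 => ((z₀, v, 0) : E × C2 × T)) l1 (Trans.an0 z₀)
    have a2 : HasFDerivAt (fun v : C2 => Φ (G₂ (z₀, v, 0)))
        (fderiv ℂ (fun v : C2 => Φ (G₂ (z₀, v, 0))) 0) (l (z₀, 0, 0)) := by
      rw [show l (z₀, 0, 0) = 0 from l2]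
      exact (Trans.sl h₂ hz hA).1.differentiableAt.hasFDerivAt
    have a3 := HasFDerivAt.comp (0 : C2) (f := fun v : C2 => l (z₀, v, 0)) a2
      a1.differentiableAt.hasFDerivAt
    have a4 : (fun v : C2 => Φ (G₁ (z₀, v, 0))) =ᶠ[𝓝 0]
        (fun v : C2 => Φ (G₂ (z₀, v, 0))) ∘ fun v : C2 => l (z₀, v, 0) := by
      filter_upwards [(Trans.an0 z₀).continuousAt.tendsto.eventually l3] with v hv
      exact hv.symm
    have a5 := (Trans.sl h₁ hz hA).2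
    rw [(a3.congr_of_eventuallyEq a4).fderiv] at a5
    have a6 : Function.Injective (dV l z₀) := Function.Injective.of_comp a5
    exact ContinuousLinearMap.isUnit_iff_bijective.2
      ⟨a6, LinearMap.surjective_of_injective (f := (dV l z₀ : C2 →ₗ[ℂ] C2)) a6⟩
  · have c₁ : Tendsto G₁ (𝓝 (z₀, 0)) (𝓝 (g z₀)) := e₁ ▸ (h₁.hol z₀ hz).cont.tendsto
    have c₂ : Tendsto G₂ (𝓝 (z₀, 0)) (𝓝 (g z₀)) := e₂ ▸ (h₂.hol z₀ hz).cont.tendsto
    filter_upwards [l3, c₁.eventually hA.left, t1.eventually (c₂.eventually hA.left),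
      Trans.ov h₁ hz, t1.eventually (Trans.ov h₂ hz)] with w k1 k2 k3 k4 k5
    rw [← k2, ← k3, k1, k4, k5]

theorem exists_trans (hp : Subm p) (hS : IsCompact S) (h₁ : Spr p t₀ S g G₁)
    (h₂ : Spr p t₀ S g G₂) : ∃ γ : E × C2 × T → C2, Aut S γ ∧
      ∀ᶠ w in 𝓝ˢ (S ×ˢ ({0} : Set (C2 × T))), G₂ (w.1, γ w, w.2.2) = G₁ w := by
  have key := fun z (hz : z ∈ S) => trans_loc hp h₁ h₂ hz
  choose! l hA hz hI hS' hU using key
  have c1 : ∀ z ∈ S, ∀ᶠ y in 𝓝 z, l z (y, 0) = 0 := fun z hzP => by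
    have t1 : Tendsto (fun y : E => (((y, 0), 0) : (E × C2 × T) × C2)) (𝓝 z) (𝓝 ((z, 0), 0)) :=
      Continuous.tendsto (by fun_prop) z
    filter_upwards [t1.eventually (hU z hzP), eventually_nhdsSet_iff_forall.1 h₁.zero z hzP,
      eventually_nhdsSet_iff_forall.1 h₂.zero z hzP] with y k1 k2 k3
    exact (k1 (k3.trans k2.symm)).symm
  obtain ⟨f, hf⟩ := glueFam (hS.prod (isCompact_singleton (x := (0 : C2 × T))))
    (fun a => l a.1) (by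
    rintro ⟨z, _⟩ ⟨hzP, rfl⟩
    filter_upwards [(hA z hzP).eventually_analyticAt, (hS' z hzP).eventually_nhds,
      (continuous_fst.tendsto ((z, 0) : E × C2 × T)).eventually (c1 z hzP)]
    rintro ⟨y, _⟩ h1 h2 h3 ⟨hyP, rfl⟩
    have t2 : Tendsto (fun w : E × C2 × T => (w, l z w)) (𝓝 (y, 0)) (𝓝 ((y, 0), 0)) := by
      have t3 := h1.continuousAt.tendsto
      rw [show l z (y, 0) = 0 from h3] at t3
      exact tendsto_id.prodMk_nhds t3
    filter_upwards [t2.eventually (hU y hyP), h2] with w h4 h5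
    exact h4 h5)
  have hf' : ∀ z ∈ S, f =ᶠ[𝓝 (z, 0)] l z := fun z hzP => hf (z, 0) ⟨hzP, rfl⟩
  refine ⟨f, ⟨?_, eventually_nhdsSet_iff_forall.2 fun z hzP => ?_, fun z hzP => ?_⟩,
    eventually_nhdsSet_iff_forall.2 ?_⟩
  · rintro ⟨z, _⟩ ⟨hzP, rfl⟩
    exact (hA z hzP).congr (hf' z hzP).symm
  · have t1 : Tendsto (fun y : E => ((y, 0) : E × C2 × T)) (𝓝 z) (𝓝 (z, 0)) :=
      Continuous.tendsto (by fun_prop) z
    filter_upwards [t1.eventually (hf' z hzP), c1 z hzP] with y k1 k2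
    exact k1.trans k2
  · rw [dV_congr (hf' z hzP)]
    exact hI z hzP
  · rintro ⟨z, _⟩ ⟨hzP, rfl⟩
    filter_upwards [hf' z hzP, hS' z hzP] with w k1 k2
    rw [k1]
    exact k2

end Vale.Agent.P290
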