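import Vale.Agent.P290D.YMfd

/-! Existence of adapted coordinates. -/

open Set Filter Metric
open scoped Manifold ContDiff Topology

noncomputable section

namespace Vale.Agent.P290

variable {T : Type} [NormedAddCommGroup T] [NormedSpace ℂ T] [FiniteDimensional ℂ T]
  {Y : Type} [TopologicalSpace Y] [ChartedSpace (C2 × T) Y] [IsManifold 𝓘(ℂ, C2 × T) ω Y]
  {E : Type} [NormedAddCommGroup E] [NormedSpace ℂ E] [FiniteDimensional ℂ E]
  {A : Type} [NormedAddCommGroup A] [NormedSpace ℂ A] [FiniteDimensional ℂ A]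
  {p : Y → T} {t₀ : T} {S S₁ S₂ : Set E} {g : E → Y} {G G₁ G₂ : E × C2 × T → Y}

namespace YAdc

theorem lin {D : C2 × T →L[ℂ] T} (hD : Function.Surjective D) :
    ∃ (l : C2 × T →L[ℂ] C2) (e : (C2 × T) ≃L[ℂ] C2 × T), (e : C2 × T →L[ℂ] C2 × T) = l.prod D := by
  have h1 := LinearMap.finrank_range_add_finrank_ker (D : C2 × T →ₗ[ℂ] T)
  rw [LinearMap.range_eq_top.2 hD, finrank_top, Module.finrank_prod, add_comm] at h1
  have e := LinearEquiv.ofFinrankEq (R := ℂ) _ _ (add_right_cancel h1)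
  obtain ⟨r, hr⟩ := (LinearMap.ker (D : C2 × T →ₗ[ℂ] T)).subtype.exists_leftInverse_of_injective
    (Submodule.ker_subtype _)
  obtain ⟨l, hl⟩ : ∃ l : C2 × T →L[ℂ] C2, ∀ v, l v = e (r v) :=
    ⟨LinearMap.toContinuousLinearMap (e.toLinearMap ∘ₗ r), fun _ => rfl⟩
  have hinj : Function.Injective ((l.prod D : C2 × T →L[ℂ] C2 × T) : C2 × T →ₗ[ℂ] C2 × T) := by
    rw [injective_iff_map_eq_zero]
    intro v hv
    have h2 : l v = 0 := congrArg Prod.fst hv
    have h3 : D v = 0 := congrArg Prod.snd hv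
    have h4 : r v = ⟨v, h3⟩ := LinearMap.congr_fun hr ⟨v, h3⟩
    rw [hl, h4, e.map_eq_zero_iff] at h2
    exact congrArg Subtype.val h2
  exact ⟨l, (LinearMap.linearEquivOfInjective _ hinj rfl).toContinuousLinearEquiv,
    ContinuousLinearMap.ext fun v => rfl⟩

end YAdc

theorem exists_adc (hp : Subm p) (y₀ : Y) : ∃ Φ Ψ, Adc p y₀ Φ Ψ := by
  have := FiniteDimensional.complete ℂ T
  obtain ⟨φ, hφ⟩ : ∃ φ, φ = chartAt (C2 × T) y₀ := ⟨_, rfl⟩
  have hs : y₀ ∈ φ.source := hφ ▸ mem_chart_source _ y₀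
  have ht := φ.map_source hs
  have h1 : HolYF T φ y₀ := by
    subst hφ
    exact (contMDiffOn_chart y₀ hs).contMDiffAt ((chartAt _ y₀).open_source.mem_nhds hs)
  have h2 : HolY T φ.symm (φ y₀) := by
    subst hφ
    exact (contMDiffOn_chart_symm _ ht).contMDiffAt ((chartAt _ y₀).open_target.mem_nhds ht)
  have h3 : ContMDiffAt 𝓘(ℂ, C2 × T) 𝓘(ℂ, T) ω (fun q => p (φ.symm q)) (φ y₀) :=
    ContMDiffAt.comp (φ y₀) (hp _).1 h2
  have h4 : AnalyticAt ℂ (fun q => p (φ.symm q)) (φ y₀) := h3.contDiffAt.analyticAt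
  have hl : ∀ᶠ y in 𝓝 y₀, φ.symm (φ y) = y :=
    mem_of_superset (φ.open_source.mem_nhds hs) fun y hy => φ.left_inv hy
  have h5 : Function.Surjective (fderiv ℂ (fun q => p (φ.symm q)) (φ y₀)) := by
    have e : p =ᶠ[𝓝 y₀] (fun q => p (φ.symm q)) ∘ φ := hl.mono fun y hy => (congrArg p hy).symm
    have h6 := (hp y₀).2
    rw [e.mfderiv_eq, mfderiv_comp y₀ (h3.mdifferentiableAt Mfd.ne0)
      (h1.mdifferentiableAt Mfd.ne0), mfderiv_eq_fderiv] at h6
    exact Function.Surjective.of_comp (g := mfderiv 𝓘(ℂ, C2 × T) 𝓘(ℂ, C2 × T) φ y₀) h6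
  obtain ⟨l, L, hL⟩ := YAdc.lin h5
  have k1 : ContDiffAt ℂ ω (fun q => (l q, p (φ.symm q))) (φ y₀) :=
    ((l.analyticAt _).prod h4).contDiffAt
  have k2 : HasFDerivAt (fun q => (l q, p (φ.symm q))) (L : C2 × T →L[ℂ] C2 × T) (φ y₀) := by
    rw [hL]
    exact l.hasFDerivAt.prodMk h4.differentiableAt.hasFDerivAt
  obtain ⟨e, he, k3, k4⟩ : ∃ e : OpenPartialHomeomorph (C2 × T) (C2 × T),
      (∀ q, e q = (l q, p (φ.symm q))) ∧ AnalyticAt ℂ e.symm (e (φ y₀)) ∧ φ y₀ ∈ e.source :=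
    ⟨k1.toOpenPartialHomeomorph _ k2 Mfd.ne0, fun _ => rfl,
      (k1.to_localInverse k2 Mfd.ne0).analyticAt, k1.mem_toOpenPartialHomeomorph_source k2 Mfd.ne0⟩
  have k5 : e (φ y₀) = (l (φ y₀), p y₀) := by rw [he, φ.left_inv hs]
  have k6 := e.left_inv k4
  have k7 := e.map_source k4
  rw [k5] at k3 k6 k7
  refine ⟨fun y => l (φ y), fun q => φ.symm (e.symm q), ContMDiffAt.comp y₀ (Mfd.an (l.analyticAt _)) h1,
    ContMDiffAt.comp (g := φ.symm) _ (by rw [k6]; exact h2) (Mfd.an k3), ?_, ?_⟩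
  · filter_upwards [hl, h1.continuousAt.preimage_mem_nhds (e.open_source.mem_nhds k4)] with y a b
    have c := e.left_inv b
    rw [he, a] at c
    rw [c, a]
  · have k8 : φ.target ∈ 𝓝 (e.symm (l (φ y₀), p y₀)) := by
      rw [k6]
      exact φ.open_target.mem_nhds ht
    filter_upwards [e.open_target.mem_nhds k7, k3.continuousAt.preimage_mem_nhds k8] with q a b
    have c := e.right_inv a
    rw [he] at c
    rw [φ.right_inv b]
    exact ⟨congrArg Prod.fst c, congrArg Prod.snd c⟩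

end Vale.Agent.P290
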