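import Vale.Agent.P290D.Defs

/-! The total space: basic facts and adapted coordinates. -/

open Set Filter Metric
open scoped Manifold ContDiff Topology

noncomputable section

namespace Vale.Agent.P290

variable {T : Type} [NormedAddCommGroup T] [NormedSpace ℂ T] [FiniteDimensional ℂ T]
  {Y : Type} [TopologicalSpace Y] [ChartedSpace (C2 × T) Y] [IsManifold 𝓘(ℂ, C2 × T) ω Y]
  {E : Type} [NormedAddCommGroup E] [NormedSpace ℂ E] [FiniteDimensional ℂ E]
  {A : Type} [NormedAddCommGroup A] [NormedSpace ℂ A] [FiniteDimensional ℂ A]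
  {p : Y → T} {t₀ : T} {S S₁ S₂ : Set E} {g : E → Y} {G G₁ G₂ : E × C2 × T → Y}

theorem HolY.cont {z : E} (h : HolY T g z) : ContinuousAt g z := h.continuousAt

theorem HolY.ev {z : E} (h : HolY T g z) : ∀ᶠ w in 𝓝 z, HolY T g w :=
  (contMDiffAt_iff_contMDiffAt_nhds Mfd.neInf).1 h

theorem HolY.congr {g' : E → Y} {z : E} (h : HolY T g z) (e : g' =ᶠ[𝓝 z] g) : HolY T g' z :=
  h.congr_of_eventuallyEq e

theorem HolY.comp {r : A → E} {z : A} (h : HolY T g (r z)) (hr : AnalyticAt ℂ r z) :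
    HolY T (fun w => g (r w)) z := ContMDiffAt.comp z h (Mfd.an hr)

theorem HolYF.comp {Φ : Y → A} {z : E} (h : HolYF T Φ (g z)) (hg : HolY T g z) :
    AnalyticAt ℂ (fun w => Φ (g w)) z := (ContMDiffAt.comp z h hg).contDiffAt.analyticAt

theorem difY_congr {g' : E → Y} {z : E} (e : g' =ᶠ[𝓝 z] g) : difY T g' z = difY T g z :=
  e.mfderiv_eq

theorem difY_comp {r : A → E} {z : A} (h : HolY T g (r z)) (hr : AnalyticAt ℂ r z) (u : A) :
    difY T (fun w => g (r w)) z u = difY T g (r z) (fderiv ℂ r z u) := by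
  have h1 := mfderiv_comp_apply z (h.mdifferentiableAt Mfd.ne0)
    ((Mfd.an hr).mdifferentiableAt Mfd.ne0) u
  rw [mfderiv_eq_fderiv] at h1
  exact h1

theorem Adc.ev {y₀ : Y} {Φ : Y → C2} {Ψ : C2 × T → Y} (hp : Subm p) (h : Adc p y₀ Φ Ψ) :
    ∀ᶠ y in 𝓝 y₀, Adc p y Φ Ψ := by
  have ht : Tendsto (fun y => (Φ y, p y)) (𝓝 y₀) (𝓝 (Φ y₀, p y₀)) :=
    h.hΦ.continuousAt.prodMk (hp y₀).1.continuousAt
  have h1 : ∀ᶠ y in 𝓝 y₀, HolYF T Φ y := (contMDiffAt_iff_contMDiffAt_nhds Mfd.neInf).1 h.hΦ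
  filter_upwards [h1, ht.eventually (HolY.ev h.hΨ), h.left.eventually_nhds,
    ht.eventually h.right.eventually_nhds] with y a b c d
  exact ⟨a, b, c, d⟩

namespace YMfd

theorem fd_comp {Φ : Y → A} {z : E} (h : HolYF T Φ (g z)) (hg : HolY T g z) (u : E) :
    fderiv ℂ (fun w => Φ (g w)) z u =
      mfderiv 𝓘(ℂ, C2 × T) 𝓘(ℂ, A) Φ (g z) (difY T g z u) := by
  have h1 := mfderiv_comp_apply z (h.mdifferentiableAt Mfd.ne0)
    (hg.mdifferentiableAt Mfd.ne0) u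
  rw [mfderiv_eq_fderiv] at h1
  exact h1

end YMfd

theorem Adc.inj_iff {Φ : Y → C2} {Ψ : C2 × T → Y} {z : E} (h : Adc p (g z) Φ Ψ)
    (hg : HolY T g z) (hc : ∀ᶠ w in 𝓝 z, p (g w) = p (g z)) :
    Function.Injective (difY T g z) ↔ Function.Injective (fderiv ℂ (fun w => Φ (g w)) z) := by
  have ha : AnalyticAt ℂ (fun w => Φ (g w)) z := HolYF.comp h.hΦ hg
  have hr : AnalyticAt ℂ (fun w => ((Φ (g w), p (g z)) : C2 × T)) z := ha.prod analyticAt_const
  have e : g =ᶠ[𝓝 z] fun w => Ψ (Φ (g w), p (g z)) := by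
    filter_upwards [hg.cont.eventually h.left, hc] with w h1 h2
    rw [← h2]
    exact h1.symm
  have hd : ∀ u, difY T g z u =
      difY T Ψ (Φ (g z), p (g z)) (fderiv ℂ (fun w => Φ (g w)) z u, 0) := by
    intro u
    rw [difY_congr e]
    have h1 := difY_comp (g := Ψ) (r := fun w => ((Φ (g w), p (g z)) : C2 × T)) h.hΨ hr u
    rw [h1, (ha.differentiableAt.hasFDerivAt.prodMk (hasFDerivAt_const (p (g z)) z)).fderiv]
    rfl
  constructor
  · intro hi u v huv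
    apply hi
    rw [hd, hd, huv]
  · intro hi u v huv
    apply hi
    rw [YMfd.fd_comp h.hΦ hg, YMfd.fd_comp h.hΦ hg, huv]

end Vale.Agent.P290
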